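import Vale.Agent.P162.Defs

/-!
# P162, module A: averaging operators on functions on permutations
-/

namespace Vale.Agent.P162

open Finset

set_option linter.unusedSectionVars false

section A
variable {V : Type} [Fintype V] [DecidableEq V]

theorem avg_nonneg (H : Finset (Equiv.Perm V)) (f : Equiv.Perm V → ℝ) (hf : ∀ p, 0 ≤ f p)
    (p : Equiv.Perm V) : 0 ≤ avg H f p :=
  div_nonneg (Finset.sum_nonneg fun _ _ => hf _) (Nat.cast_nonneg _)

theorem Grp.card_pos {H : Finset (Equiv.Perm V)} (hH : Grp H) : (0 : ℝ) < H.card :=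
  Nat.cast_pos.2 (Finset.card_pos.2 ⟨1, hH.one_mem⟩)

theorem avg_invariant (H : Finset (Equiv.Perm V)) (hH : Grp H) (f : Equiv.Perm V → ℝ)
    (h : Equiv.Perm V) (hh : h ∈ H) (p : Equiv.Perm V) : avg H f (h * p) = avg H f p := by
  unfold avg
  congr 1
  refine Finset.sum_nbij' (fun k => k * h) (fun k => k * h⁻¹) ?_ ?_ ?_ ?_ ?_
  · intro k hk; exact hH.mul_mem _ hk _ hh
  · intro k hk; exact hH.mul_mem _ hk _ (hH.inv_mem _ hh)
  · intro k _; simp
  · intro k _; simp
  · intro k _; rw [mul_assoc]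

theorem avg_of_invariant (H : Finset (Equiv.Perm V)) (hH : Grp H) (f : Equiv.Perm V → ℝ)
    (hf : ∀ h ∈ H, ∀ p, f (h * p) = f p) : avg H f = f := by
  funext p
  unfold avg
  rw [Finset.sum_congr rfl (fun h hh => hf h hh p), Finset.sum_const, nsmul_eq_mul,
    mul_comm, mul_div_assoc, div_self hH.card_pos.ne', mul_one]

theorem sum_translate (h : Equiv.Perm V) (f : Equiv.Perm V → ℝ) :
    ∑ p, f (h * p) = ∑ p, f p :=
  Equiv.sum_comp (Equiv.mulLeft h) f

/-- self-adjointness -/
theorem Av_mul_avg (H : Finset (Equiv.Perm V)) (hH : Grp H) (f g : Equiv.Perm V → ℝ)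
    (hg : ∀ h ∈ H, ∀ p, g (h * p) = g p) :
    Av (fun p => avg H f p * g p) = Av (fun p => f p * g p) := by
  unfold Av
  congr 1
  have h1 : ∀ p, avg H f p * g p = (∑ h ∈ H, f (h * p) * g (h * p)) / (H.card : ℝ) := by
    intro p
    unfold avg
    rw [div_mul_eq_mul_div, Finset.sum_mul]
    congr 1
    exact Finset.sum_congr rfl (fun h hh => by rw [hg h hh p])
  rw [Finset.sum_congr rfl (fun p _ => h1 p), ← Finset.sum_div, Finset.sum_comm,
    Finset.sum_congr rfl (fun h _ => sum_translate h (fun p => f p * g p)), Finset.sum_const,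
    nsmul_eq_mul, mul_comm, mul_div_assoc, div_self hH.card_pos.ne', mul_one]

theorem Av_avg (H : Finset (Equiv.Perm V)) (hH : Grp H) (f : Equiv.Perm V → ℝ) :
    Av (avg H f) = Av f := by
  have := Av_mul_avg H hH f (fun _ => 1) (fun _ _ _ => rfl)
  simpa using this

theorem avg_avg_left (H H' : Finset (Equiv.Perm V)) (hH : Grp H) (hH' : Grp H') (hs : H ⊆ H')
    (f : Equiv.Perm V → ℝ) : avg H (avg H' f) = avg H' f :=
  avg_of_invariant H hH _ (fun h hh p => avg_invariant H' hH' f h (hs hh) p)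

theorem avg_avg_right (H H' : Finset (Equiv.Perm V)) (hH : Grp H) (hH' : Grp H') (hs : H ⊆ H')
    (f : Equiv.Perm V → ℝ) : avg H' (avg H f) = avg H' f := by
  funext p
  have h1 : ∀ k ∈ H', avg H f (k * p) = (∑ h ∈ H, f (h * (k * p))) / (H.card : ℝ) :=
    fun k _ => rfl
  show (∑ k ∈ H', avg H f (k * p)) / (H'.card : ℝ) = (∑ k ∈ H', f (k * p)) / (H'.card : ℝ)
  congr 1
  rw [Finset.sum_congr rfl h1, ← Finset.sum_div, Finset.sum_comm]
  have h2 : ∀ h ∈ H, ∑ k ∈ H', f (h * (k * p)) = ∑ k ∈ H', f (k * p) := by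
    intro h hh
    refine Finset.sum_nbij' (fun k => h * k) (fun k => h⁻¹ * k) ?_ ?_ ?_ ?_ ?_
    · intro k hk; exact hH'.mul_mem _ (hs hh) _ hk
    · intro k hk; exact hH'.mul_mem _ (hH'.inv_mem _ (hs hh)) _ hk
    · intro k _; simp
    · intro k _; simp
    · intro k _; rw [mul_assoc]
  rw [Finset.sum_congr rfl h2, Finset.sum_const, nsmul_eq_mul, mul_comm, mul_div_assoc,
    div_self hH.card_pos.ne', mul_one]

theorem avg_zero_imp (H : Finset (Equiv.Perm V)) (hH : Grp H) (f : Equiv.Perm V → ℝ)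
    (hf : ∀ p, 0 ≤ f p) (p : Equiv.Perm V) (h0 : avg H f p = 0) : f p = 0 := by
  have h1 : (∑ h ∈ H, f (h * p)) = 0 := by
    unfold avg at h0
    rcases div_eq_zero_iff.1 h0 with h | h
    · exact h
    · exact absurd h hH.card_pos.ne'
  have h2 := (Finset.sum_eq_zero_iff_of_nonneg (fun h _ => hf _)).1 h1 1 hH.one_mem
  simpa using h2

theorem Av_mono {α : Type*} [Fintype α] (f g : α → ℝ) (h : ∀ a, f a ≤ g a) : Av f ≤ Av g :=
  div_le_div_of_nonneg_right (Finset.sum_le_sum fun a _ => h a) (Nat.cast_nonneg _)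

theorem Av_add {α : Type*} [Fintype α] (f g : α → ℝ) :
    Av (fun a => f a + g a) = Av f + Av g := by
  unfold Av; rw [Finset.sum_add_distrib, add_div]

theorem Av_sub {α : Type*} [Fintype α] (f g : α → ℝ) :
    Av (fun a => f a - g a) = Av f - Av g := by
  unfold Av; rw [Finset.sum_sub_distrib, sub_div]

theorem En_avg_le (H : Finset (Equiv.Perm V)) (hH : Grp H) (f : Equiv.Perm V → ℝ)
    (hf : ∀ p, 0 ≤ f p) : En (avg H f) ≤ En f := by
  have key : ∀ p, f p * Real.log (avg H f p) + (f p - avg H f p) ≤ f p * Real.log (f p) := by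
    intro p
    have hF := avg_nonneg H f hf p
    rcases (hf p).eq_or_lt with h0 | h0
    · rw [← h0]; simp only [zero_mul]; linarith
    · have hF0 : 0 < avg H f p := by
        rcases hF.eq_or_lt with h | h
        · exact absurd (avg_zero_imp H hH f hf p h.symm) h0.ne'
        · exact h
      have h1 := Real.one_sub_inv_le_log_of_pos (div_pos h0 hF0)
      rw [Real.log_div h0.ne' hF0.ne', inv_div] at h1
      have h2 := mul_le_mul_of_nonneg_left h1 h0.le
      have h3 : f p * (1 - avg H f p / f p) = f p - avg H f p := by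
        field_simp
      rw [h3] at h2
      linarith
  have h1 := Av_mono _ _ key
  rw [Av_add, Av_sub] at h1
  have h2 : Av (fun p => f p * Real.log (avg H f p)) =
      Av (fun p => avg H f p * Real.log (avg H f p)) :=
    (Av_mul_avg H hH f (fun p => Real.log (avg H f p))
      (fun h hh p => by rw [avg_invariant H hH f h hh p])).symm
  have h3 : Av (fun p => avg H f p) = Av (fun p => f p) := Av_avg H hH f
  rw [h2, h3] at h1
  unfold En
  linarith

theorem avg_smul (H : Finset (Equiv.Perm V)) (c : ℝ) (f : Equiv.Perm V → ℝ) :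
    avg H (fun p => c * f p) = fun p => c * avg H f p := by
  funext p
  unfold avg
  rw [← Finset.mul_sum, mul_div_assoc]

theorem avg_comm (H1 H2 : Finset (Equiv.Perm V))
    (hc : ∀ g ∈ H1, ∀ h ∈ H2, g * h = h * g) (f : Equiv.Perm V → ℝ) :
    avg H1 (avg H2 f) = avg H2 (avg H1 f) := by
  funext p
  unfold avg
  rw [← Finset.sum_div, ← Finset.sum_div, Finset.sum_comm, div_div, div_div,
    mul_comm (H2.card : ℝ)]
  congr 1
  refine Finset.sum_congr rfl fun h hh => Finset.sum_congr rfl fun g hg => ?_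
  rw [← mul_assoc, ← mul_assoc, hc g hg h hh]

/-- elements of `H1` and `H2` commute: the entropy drop of `H1` does not increase under `H2` -/
theorem comm_convex (H1 H2 : Finset (Equiv.Perm V)) (h1 : Grp H1) (h2 : Grp H2)
    (hc : ∀ g ∈ H1, ∀ h ∈ H2, g * h = h * g) (f : Equiv.Perm V → ℝ) (hf : ∀ p, 0 ≤ f p) :
    En (avg H2 f) - En (avg H1 (avg H2 f)) ≤ En f - En (avg H1 f) := by
  set g := avg H1 f with hg
  set F := avg H2 f with hF
  set G := avg H2 g with hG
  have hGF : avg H1 F = G := avg_comm H1 H2 hc f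
  have g0 : ∀ p, 0 ≤ g p := avg_nonneg H1 f hf
  have F0 : ∀ p, 0 ≤ F p := avg_nonneg H2 f hf
  have G0 : ∀ p, 0 ≤ G p := avg_nonneg H2 g g0
  have key : ∀ p, (f p * (Real.log (F p) - Real.log (G p)) + f p) - g p * (F p / G p) ≤
      f p * Real.log (f p) - f p * Real.log (g p) := by
    intro p
    rcases (hf p).eq_or_lt with h0 | h0
    · rw [← h0]
      have := mul_nonneg (g0 p) (div_nonneg (F0 p) (G0 p))
      simp only [zero_mul, zero_add, sub_self]; linarith
    · have Fp : 0 < F p := by
        rcases (F0 p).eq_or_lt with h | h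
        · exact absurd (avg_zero_imp H2 h2 f hf p h.symm) h0.ne'
        · exact h
      have gp : 0 < g p := by
        rcases (g0 p).eq_or_lt with h | h
        · exact absurd (avg_zero_imp H1 h1 f hf p h.symm) h0.ne'
        · exact h
      have Gp : 0 < G p := by
        rcases (G0 p).eq_or_lt with h | h
        · exact absurd (avg_zero_imp H2 h2 g g0 p h.symm) gp.ne'
        · exact h
      have h3 := Real.one_sub_inv_le_log_of_pos (div_pos (mul_pos h0 Gp) (mul_pos gp Fp))
      rw [Real.log_div (mul_pos h0 Gp).ne' (mul_pos gp Fp).ne', Real.log_mul h0.ne' Gp.ne',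
        Real.log_mul gp.ne' Fp.ne', inv_div] at h3
      have h4 := mul_le_mul_of_nonneg_left h3 h0.le
      have h5 : f p * (1 - g p * F p / (f p * G p)) = f p - g p * (F p / G p) := by
        field_simp
      rw [h5] at h4
      linarith
  have hh := Av_mono _ _ key
  rw [Av_sub, Av_add, Av_sub] at hh
  have Finv : ∀ h ∈ H2, ∀ p, F (h * p) = F p := fun h hh p => avg_invariant H2 h2 f h hh p
  have Ginv : ∀ h ∈ H2, ∀ p, G (h * p) = G p := fun h hh p => avg_invariant H2 h2 g h hh p
  have ginv : ∀ h ∈ H1, ∀ p, g (h * p) = g p := fun h hh p => avg_invariant H1 h1 f h hh p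
  have Ginv1 : ∀ h ∈ H1, ∀ p, G (h * p) = G p := by
    intro h hh p; rw [← hGF]; exact avg_invariant H1 h1 F h hh p
  have e1 : Av (fun p => f p * (Real.log (F p) - Real.log (G p))) =
      Av (fun p => F p * (Real.log (F p) - Real.log (G p))) :=
    (Av_mul_avg H2 h2 f (fun p => Real.log (F p) - Real.log (G p))
      (fun h hh p => by simp only [Finv h hh p, Ginv h hh p])).symm
  have e2 : Av (fun p => F p * (Real.log (F p) - Real.log (G p))) = En F - En G := by
    have : (fun p => F p * (Real.log (F p) - Real.log (G p))) =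
        fun p => F p * Real.log (F p) - F p * Real.log (G p) := by
      funext p; ring
    rw [this, Av_sub]
    have e3 : Av (fun p => avg H1 F p * Real.log (G p)) = Av (fun p => F p * Real.log (G p)) :=
      Av_mul_avg H1 h1 F (fun p => Real.log (G p)) (fun h hh p => by simp only [Ginv1 h hh p])
    rw [← e3, hGF]
    rfl
  have e4 : Av (fun p => g p * (F p / G p)) = Av (fun p => F p) := by
    have : Av (fun p => avg H2 g p * (F p / G p)) = Av (fun p => g p * (F p / G p)) :=
      Av_mul_avg H2 h2 g (fun p => F p / G p)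
        (fun h hh p => by simp only [Finv h hh p, Ginv h hh p])
    rw [← this]
    congr 1
    funext p
    show G p * (F p / G p) = F p
    rcases (G0 p).eq_or_lt with h | h
    · have hF0 : F p = 0 := by
        rw [← hGF] at h
        exact avg_zero_imp H1 h1 F F0 p h.symm
      rw [hF0]; simp
    · field_simp
  have e5 : Av (fun p => F p) = Av (fun p => f p) := Av_avg H2 h2 f
  have e6 : Av (fun p => f p * Real.log (g p)) = En g :=
    (Av_mul_avg H1 h1 f (fun p => Real.log (g p))
      (fun h hh p => by simp only [ginv h hh p])).symm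
  have e7 : Av (fun a => f a * Real.log (f a)) = En f := rfl
  rw [e1, e2, e4, e5, e6, e7] at hh
  rw [hGF]
  linarith

/-- unique factorisation `H = H1 H2` -/
theorem avg_factor (H H1 H2 : Finset (Equiv.Perm V))
    (hb : Set.BijOn (fun q : Equiv.Perm V × Equiv.Perm V => q.2 * q.1)
      ((H1 : Set (Equiv.Perm V)) ×ˢ (H2 : Set (Equiv.Perm V))) (H : Set (Equiv.Perm V)))
    (f : Equiv.Perm V → ℝ) : avg H f = avg H1 (avg H2 f) := by
  have hb' : Set.BijOn (fun q : Equiv.Perm V × Equiv.Perm V => q.2 * q.1)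
      ((H1 ×ˢ H2 : Finset (Equiv.Perm V × Equiv.Perm V)) : Set _) (H : Set (Equiv.Perm V)) := by
    rw [Finset.coe_product]; exact hb
  have hcard : (H1 ×ˢ H2).card = H.card :=
    Finset.card_nbij (fun q : Equiv.Perm V × Equiv.Perm V => q.2 * q.1)
      (fun q hq => hb'.mapsTo hq) hb'.injOn hb'.surjOn
  funext p
  have hsum : ∑ q ∈ H1 ×ˢ H2, f ((q.2 * q.1) * p) = ∑ h ∈ H, f (h * p) :=
    Finset.sum_nbij (fun q : Equiv.Perm V × Equiv.Perm V => q.2 * q.1)
      (fun q hq => hb'.mapsTo hq) hb'.injOn hb'.surjOn (fun q _ => rfl)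
  unfold avg
  rw [← hsum, ← hcard, Finset.card_product, Nat.cast_mul, Finset.sum_product, ← Finset.sum_div,
    div_div, mul_comm (H2.card : ℝ)]
  rfl

end A

end Vale.Agent.P162
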