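import Vale.Agent.P162.Defs

/-!
# P162, module B : the Bonami inequality (`L^{1+v}` to `L^2`)
-/

namespace Vale.Agent.P162

open Finset

namespace BonamiAux

/-! ### The two-point inequality -/

theorem first {q t : ℝ} (hq0 : 0 ≤ q) (hq1 : q ≤ 1) (ht0 : 0 ≤ t) (ht1 : t ≤ 1) :
    0 ≤ (1 + t) ^ q - (1 - t) ^ q - 2 * q * t := by
  have hcont : ContinuousOn (fun t : ℝ => (1 + t) ^ q - (1 - t) ^ q - 2 * q * t)
      (Set.Icc 0 1) := by
    have h₁ : Continuous (fun t : ℝ => (1 + t) ^ q) :=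
      (Real.continuous_rpow_const hq0).comp (continuous_const.add continuous_id)
    have h₂ : Continuous (fun t : ℝ => (1 - t) ^ q) :=
      (Real.continuous_rpow_const hq0).comp (continuous_const.sub continuous_id)
    exact ((h₁.sub h₂).sub (by fun_prop)).continuousOn
  have hder : ∀ x ∈ Set.Ioo (0 : ℝ) 1, HasDerivAt
      (fun t : ℝ => (1 + t) ^ q - (1 - t) ^ q - 2 * q * t)
      (1 * q * (1 + x) ^ (q - 1) - (-1) * q * (1 - x) ^ (q - 1) - 2 * q * 1) x := by
    intro x hx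
    have h₁ : HasDerivAt (fun t : ℝ => (1 + t) ^ q) (1 * q * (1 + x) ^ (q - 1)) x :=
      ((hasDerivAt_id x).const_add 1).rpow_const (Or.inl (by linarith [hx.1] : (1 + x) ≠ 0) )
    have h₂ : HasDerivAt (fun t : ℝ => (1 - t) ^ q) ((-1) * q * (1 - x) ^ (q - 1)) x :=
      ((hasDerivAt_id x).const_sub 1).rpow_const (Or.inl (by
        have := hx.2
        linarith : (1 - x) ≠ 0))
    exact (h₁.sub h₂).sub ((hasDerivAt_id x).const_mul (2 * q))
  have hmono : MonotoneOn (fun t : ℝ => (1 + t) ^ q - (1 - t) ^ q - 2 * q * t)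
      (Set.Icc 0 1) := by
    apply monotoneOn_of_deriv_nonneg (convex_Icc 0 1) hcont
    · rw [interior_Icc]
      exact fun x hx => (hder x hx).differentiableAt.differentiableWithinAt
    · rw [interior_Icc]
      intro x hx
      rw [(hder x hx).deriv]
      obtain ⟨a, ha⟩ : ∃ a : ℝ, a = (1 + x) ^ (q - 1) := ⟨_, rfl⟩
      obtain ⟨b, hb⟩ : ∃ b : ℝ, b = (1 - x) ^ (q - 1) := ⟨_, rfl⟩
      have hx1 : 0 < 1 + x := by linarith [hx.1]
      have hx2 : 0 < 1 - x := by linarith [hx.2]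
      have ha0 : 0 < a := ha ▸ Real.rpow_pos_of_pos hx1 _
      have hb0 : 0 < b := hb ▸ Real.rpow_pos_of_pos hx2 _
      have hab : 1 ≤ a * b := by
        rw [ha, hb, ← Real.mul_rpow hx1.le hx2.le]
        apply Real.one_le_rpow_of_pos_of_le_one_of_nonpos (by positivity)
        · nlinarith [hx.1]
        · linarith
      rw [← ha, ← hb]
      have : 2 ≤ a + b := by nlinarith [sq_nonneg (a - b)]
      nlinarith
  have h := hmono (Set.mem_Icc.mpr ⟨le_rfl, zero_le_one⟩) (Set.mem_Icc.mpr ⟨ht0, ht1⟩) ht0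
  simpa using h

theorem second {q t : ℝ} (hq0 : 0 ≤ q) (hq1 : q ≤ 1) (ht0 : 0 ≤ t) (ht1 : t ≤ 1) :
    2 + (1 + q) * q * t ^ 2 ≤ (1 + t) ^ (1 + q) + (1 - t) ^ (1 + q) := by
  have hp : 0 ≤ 1 + q := by linarith
  have hcont : ContinuousOn (fun t : ℝ => (1 + t) ^ (1 + q) + (1 - t) ^ (1 + q) -
      (1 + q) * q * t ^ 2) (Set.Icc 0 1) := by
    have h₁ : Continuous (fun t : ℝ => (1 + t) ^ (1 + q)) :=
      (Real.continuous_rpow_const hp).comp (continuous_const.add continuous_id)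
    have h₂ : Continuous (fun t : ℝ => (1 - t) ^ (1 + q)) :=
      (Real.continuous_rpow_const hp).comp (continuous_const.sub continuous_id)
    exact ((h₁.add h₂).sub (by fun_prop)).continuousOn
  have hder : ∀ x ∈ Set.Ioo (0 : ℝ) 1, HasDerivAt
      (fun t : ℝ => (1 + t) ^ (1 + q) + (1 - t) ^ (1 + q) - (1 + q) * q * t ^ 2)
      (1 * (1 + q) * (1 + x) ^ (1 + q - 1) + (-1) * (1 + q) * (1 - x) ^ (1 + q - 1) -
        (1 + q) * q * (2 * x)) x := by
    intro x hx
    have h₁ : HasDerivAt (fun t : ℝ => (1 + t) ^ (1 + q))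
        (1 * (1 + q) * (1 + x) ^ (1 + q - 1)) x :=
      ((hasDerivAt_id x).const_add 1).rpow_const (Or.inr (by linarith))
    have h₂ : HasDerivAt (fun t : ℝ => (1 - t) ^ (1 + q))
        ((-1) * (1 + q) * (1 - x) ^ (1 + q - 1)) x :=
      ((hasDerivAt_id x).const_sub 1).rpow_const (Or.inr (by linarith))
    have h₃ : HasDerivAt (fun t : ℝ => (1 + q) * q * t ^ 2) ((1 + q) * q * (2 * x)) x := by
      have := (hasDerivAt_pow 2 x).const_mul ((1 + q) * q)
      simpa using this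
    exact (h₁.add h₂).sub h₃
  have hmono : MonotoneOn (fun t : ℝ => (1 + t) ^ (1 + q) + (1 - t) ^ (1 + q) -
      (1 + q) * q * t ^ 2) (Set.Icc 0 1) := by
    apply monotoneOn_of_deriv_nonneg (convex_Icc 0 1) hcont
    · rw [interior_Icc]
      exact fun x hx => (hder x hx).differentiableAt.differentiableWithinAt
    · rw [interior_Icc]
      intro x hx
      rw [(hder x hx).deriv]
      have h := first hq0 hq1 hx.1.le hx.2.le
      have e : 1 + q - 1 = q := by ring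
      rw [e]
      nlinarith
  have h := hmono (Set.mem_Icc.mpr ⟨le_rfl, zero_le_one⟩) (Set.mem_Icc.mpr ⟨ht0, ht1⟩) ht0
  simp only [add_zero, sub_zero, Real.one_rpow] at h
  norm_num at h
  linarith

theorem two_point_le {v X Y : ℝ} (hv0 : 0 ≤ v) (hv1 : v ≤ 1) (hY : 0 ≤ Y) (hXY : Y ≤ X) :
    ((X + Y) / 2) ^ 2 + v * ((X - Y) / 2) ^ 2 ≤
      ((X ^ (1 + v) + Y ^ (1 + v)) / 2) ^ (2 / (1 + v)) := by
  have hX : 0 ≤ X := hY.trans hXY
  have hp : 0 < 1 + v := by linarith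
  by_cases h0 : X + Y = 0
  · have hX0 : X = 0 := by linarith
    have hY0 : Y = 0 := by linarith
    rw [hX0, hY0]
    have : 0 ≤ (((0 : ℝ) ^ (1 + v) + 0 ^ (1 + v)) / 2) ^ (2 / (1 + v)) := by positivity
    simpa using this
  have hm : 0 < (X + Y) / 2 := by
    have : 0 < X + Y := lt_of_le_of_ne (by linarith) (Ne.symm h0)
    linarith
  obtain ⟨m, hmd⟩ : ∃ m : ℝ, m = (X + Y) / 2 := ⟨_, rfl⟩
  obtain ⟨t, ht⟩ : ∃ t : ℝ, t = (X - Y) / (X + Y) := ⟨_, rfl⟩
  rw [← hmd] at hm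
  have ht0 : 0 ≤ t := by
    rw [ht]
    exact div_nonneg (by linarith) (by linarith)
  have ht1 : t ≤ 1 := by
    rw [ht]
    exact div_le_one_of_le₀ (by linarith) (by linarith)
  have hmt : m * t = (X - Y) / 2 := by
    rw [hmd, ht]
    field_simp
  have eX : X = m * (1 + t) := by rw [mul_add, hmt, hmd]; ring
  have eY : Y = m * (1 - t) := by rw [mul_sub, hmt, hmd]; ring
  have hs := second hv0 hv1 ht0 ht1
  have h1t : 0 ≤ 1 - t := by linarith
  have hb : (1 + v * t ^ 2) ^ ((1 + v) / 2) ≤ 1 + (1 + v) / 2 * (v * t ^ 2) :=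
    rpow_one_add_le_one_add_mul_self (by nlinarith [mul_nonneg hv0 (sq_nonneg t)])
      (by linarith) (by linarith)
  have hb' : (1 + v * t ^ 2) ^ ((1 + v) / 2) ≤
      ((1 + t) ^ (1 + v) + (1 - t) ^ (1 + v)) / 2 := by linarith
  have h1 : 1 + v * t ^ 2 ≤
      (((1 + t) ^ (1 + v) + (1 - t) ^ (1 + v)) / 2) ^ (2 / (1 + v)) := by
    have h := Real.rpow_le_rpow (by positivity) hb' (by positivity : 0 ≤ 2 / (1 + v))
    rw [← Real.rpow_mul (by positivity)] at h
    have e : (1 + v) / 2 * (2 / (1 + v)) = 1 := by field_simp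
    rwa [e, Real.rpow_one] at h
  have e₁ : X ^ (1 + v) = m ^ (1 + v) * (1 + t) ^ (1 + v) := by
    rw [eX, Real.mul_rpow hm.le (by linarith)]
  have e₂ : Y ^ (1 + v) = m ^ (1 + v) * (1 - t) ^ (1 + v) := by
    rw [eY, Real.mul_rpow hm.le h1t]
  have e₃ : (X ^ (1 + v) + Y ^ (1 + v)) / 2 =
      m ^ (1 + v) * (((1 + t) ^ (1 + v) + (1 - t) ^ (1 + v)) / 2) := by
    rw [e₁, e₂]
    ring
  rw [e₃, Real.mul_rpow (by positivity) (by positivity), ← Real.rpow_mul hm.le]
  have e₄ : (1 + v) * (2 / (1 + v)) = 2 := by field_simp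
  rw [e₄]
  have e₅ : m ^ (2 : ℝ) = m ^ 2 := by norm_cast
  rw [e₅]
  have e₆ : ((X + Y) / 2) ^ 2 + v * ((X - Y) / 2) ^ 2 = m ^ 2 * (1 + v * t ^ 2) := by
    rw [← hmd, ← hmt]
    ring
  rw [e₆]
  exact mul_le_mul_of_nonneg_left h1 (by positivity)

theorem two_point {v X Y : ℝ} (hv0 : 0 ≤ v) (hv1 : v ≤ 1) (hX : 0 ≤ X) (hY : 0 ≤ Y) :
    ((X + Y) / 2) ^ 2 + v * ((X - Y) / 2) ^ 2 ≤
      ((X ^ (1 + v) + Y ^ (1 + v)) / 2) ^ (2 / (1 + v)) := by
  rcases le_total Y X with h | h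
  · exact two_point_le hv0 hv1 hY h
  · have := two_point_le hv0 hv1 hX h
    rw [add_comm X Y, add_comm (X ^ (1 + v))]
    have e : ((X - Y) / 2) ^ 2 = ((Y - X) / 2) ^ 2 := by ring
    rw [e]
    exact this

/-! ### The kernel form -/

section kernel
variable {ι : Type} [Fintype ι] [DecidableEq ι]

/-- the bilinear form of the noise operator -/
noncomputable def kb (v : ℝ) (f g : (ι → Bool) → ℝ) : ℝ :=
  (∑ s, ∑ t, f s * g t * ∏ x, (1 + v * ((sz (s x) : ℝ) * (sz (t x) : ℝ)))) /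
    (2 ^ Fintype.card ι * 2 ^ Fintype.card ι)

theorem kern (v : ℝ) (f g : (ι → Bool) → ℝ) :
    ∑ S : Finset ι, v ^ S.card * (hat f S * hat g S) = kb v f g := by
  unfold kb hat
  have h : ∀ S : Finset ι, v ^ S.card * ((∑ s, f s * walsh S s) / 2 ^ Fintype.card ι *
      ((∑ s, g s * walsh S s) / 2 ^ Fintype.card ι)) =
      (∑ s, ∑ t, f s * g t * ∏ x ∈ S, (v * ((sz (s x) : ℝ) * (sz (t x) : ℝ)))) /
        (2 ^ Fintype.card ι * 2 ^ Fintype.card ι) := by
    intro S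
    rw [div_mul_div_comm, ← mul_div_assoc, sum_mul_sum, mul_sum]
    congr 1
    refine sum_congr rfl fun s _ => ?_
    rw [mul_sum]
    refine sum_congr rfl fun t _ => ?_
    rw [prod_mul_distrib, prod_const, prod_mul_distrib]
    unfold walsh
    ring
  rw [sum_congr rfl fun S _ => h S, ← sum_div]
  congr 1
  rw [sum_comm]
  refine sum_congr rfl fun s _ => ?_
  rw [sum_comm]
  refine sum_congr rfl fun t _ => ?_
  rw [← mul_sum, prod_one_add, powerset_univ]

theorem kb_sq (v : ℝ) (hv : 0 ≤ v) (f g : (ι → Bool) → ℝ) :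
    (kb v f g) ^ 2 ≤ kb v f f * kb v g g := by
  rw [← kern, ← kern, ← kern]
  have h := Finset.sum_mul_sq_le_sq_mul_sq (univ : Finset (Finset ι))
    (fun S => Real.sqrt (v ^ S.card) * hat f S) (fun S => Real.sqrt (v ^ S.card) * hat g S)
  have hs : ∀ S : Finset ι, Real.sqrt (v ^ S.card) * Real.sqrt (v ^ S.card) = v ^ S.card :=
    fun S => Real.mul_self_sqrt (by positivity)
  have e₁ : ∀ (f g : (ι → Bool) → ℝ) (S : Finset ι), Real.sqrt (v ^ S.card) * hat f S *
      (Real.sqrt (v ^ S.card) * hat g S) = v ^ S.card * (hat f S * hat g S) := by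
    intro f g S
    calc Real.sqrt (v ^ S.card) * hat f S * (Real.sqrt (v ^ S.card) * hat g S)
        = (Real.sqrt (v ^ S.card) * Real.sqrt (v ^ S.card)) * (hat f S * hat g S) := by ring
      _ = _ := by rw [hs]
  simp only [pow_two (Real.sqrt _ * _), e₁] at h
  exact h

theorem kb_nonneg (v : ℝ) (hv : 0 ≤ v) (f : (ι → Bool) → ℝ) : 0 ≤ kb v f f := by
  rw [← kern]
  exact sum_nonneg fun S _ => mul_nonneg (by positivity) (mul_self_nonneg _)

end kernel

theorem sum_cons (n : ℕ) (F : (Fin (n + 1) → Bool) → ℝ) :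
    ∑ s, F s = ∑ s : Fin n → Bool, F (Fin.cons true s) + ∑ s : Fin n → Bool, F (Fin.cons false s)
    := by
  rw [← (Fin.consEquiv (fun _ : Fin (n + 1) => Bool)).sum_comp, Fintype.sum_prod_type,
    Fintype.sum_bool]
  rfl

theorem kb_succ (n : ℕ) (v : ℝ) (a : (Fin (n + 1) → Bool) → ℝ) :
    kb v a a = ((1 + v) * (kb v (fun s : Fin n → Bool => a (Fin.cons true s))
        (fun s => a (Fin.cons true s)) + kb v (fun s : Fin n → Bool => a (Fin.cons false s))
        (fun s => a (Fin.cons false s))) +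
      2 * (1 - v) * kb v (fun s : Fin n → Bool => a (Fin.cons true s))
        (fun s => a (Fin.cons false s))) / 4 := by
  unfold kb
  simp only [sum_cons, Fin.prod_univ_succ, Fin.cons_zero, Fin.cons_succ, Fintype.card_fin]
  have hc : ∑ s : Fin n → Bool, ∑ t : Fin n → Bool, a (Fin.cons false s) * a (Fin.cons true t) *
      ∏ x, (1 + v * ((sz (s x) : ℝ) * (sz (t x) : ℝ))) =
      ∑ s : Fin n → Bool, ∑ t : Fin n → Bool, a (Fin.cons true s) * a (Fin.cons false t) *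
      ∏ x, (1 + v * ((sz (s x) : ℝ) * (sz (t x) : ℝ))) := by
    rw [sum_comm]
    refine sum_congr rfl fun s _ => sum_congr rfl fun t _ => ?_
    rw [mul_comm (a (Fin.cons false t))]
    congr 1
    exact prod_congr rfl fun x _ => by rw [mul_comm (sz (t x) : ℝ)]
  have h₁ : (sz true : ℝ) = 1 := by simp [sz]
  have h₂ : (sz false : ℝ) = -1 := by simp [sz]
  simp only [h₁, h₂]
  have g : ∀ (c : ℝ) (b b' : Bool), ∑ s : Fin n → Bool, ∑ t : Fin n → Bool,
      a (Fin.cons b s) * a (Fin.cons b' t) *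
        (c * ∏ x, (1 + v * ((sz (s x) : ℝ) * (sz (t x) : ℝ)))) =
      c * ∑ s : Fin n → Bool, ∑ t : Fin n → Bool, a (Fin.cons b s) * a (Fin.cons b' t) *
        ∏ x, (1 + v * ((sz (s x) : ℝ) * (sz (t x) : ℝ))) := by
    intro c b b'
    simp only [mul_sum]
    refine sum_congr rfl fun s _ => sum_congr rfl fun t _ => ?_
    ring
  simp only [sum_add_distrib, g, hc]
  rw [pow_succ]
  field_simp
  ring

theorem main (v : ℝ) (hv0 : 0 ≤ v) (hv1 : v ≤ 1) : ∀ (n : ℕ) (a : (Fin n → Bool) → ℝ),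
    kb v a a ≤ ((∑ s, |a s| ^ (1 + v)) / 2 ^ n) ^ (2 / (1 + v))
  | 0, a => by
    have hp : 1 + v ≠ 0 := by linarith
    unfold kb
    rw [Fintype.sum_unique, Fintype.sum_unique, Fintype.sum_unique]
    simp only [univ_eq_empty, prod_empty, Fintype.card_fin, pow_zero, mul_one, div_one]
    rw [← Real.rpow_mul (abs_nonneg _)]
    have e : (1 + v) * (2 / (1 + v)) = ((2 : ℕ) : ℝ) := by
      field_simp
      norm_num
    rw [e, Real.rpow_natCast, sq_abs, sq]
  | n + 1, a => by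
    have hp : 0 < 1 + v := by linarith
    obtain ⟨M₁, hM₁⟩ : ∃ M : ℝ, M = (∑ s : Fin n → Bool, |a (Fin.cons true s)| ^ (1 + v)) /
      2 ^ n := ⟨_, rfl⟩
    obtain ⟨M₂, hM₂⟩ : ∃ M : ℝ, M = (∑ s : Fin n → Bool, |a (Fin.cons false s)| ^ (1 + v)) /
      2 ^ n := ⟨_, rfl⟩
    have m₁ : 0 ≤ M₁ := hM₁ ▸ div_nonneg (sum_nonneg fun s _ => by positivity) (by positivity)
    have m₂ : 0 ≤ M₂ := hM₂ ▸ div_nonneg (sum_nonneg fun s _ => by positivity) (by positivity)
    obtain ⟨X, hX⟩ : ∃ X : ℝ, X = M₁ ^ (1 / (1 + v)) := ⟨_, rfl⟩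
    obtain ⟨Y, hY⟩ : ∃ Y : ℝ, Y = M₂ ^ (1 / (1 + v)) := ⟨_, rfl⟩
    have x₀ : 0 ≤ X := hX ▸ Real.rpow_nonneg m₁ _
    have y₀ : 0 ≤ Y := hY ▸ Real.rpow_nonneg m₂ _
    have xp : X ^ (1 + v) = M₁ := by
      rw [hX, ← Real.rpow_mul m₁, one_div, inv_mul_cancel₀ hp.ne', Real.rpow_one]
    have yp : Y ^ (1 + v) = M₂ := by
      rw [hY, ← Real.rpow_mul m₂, one_div, inv_mul_cancel₀ hp.ne', Real.rpow_one]
    have x2 : X ^ 2 = M₁ ^ (2 / (1 + v)) := by
      rw [hX, ← Real.rpow_natCast, ← Real.rpow_mul m₁]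
      congr 1
      push_cast
      ring
    have y2 : Y ^ 2 = M₂ ^ (2 / (1 + v)) := by
      rw [hY, ← Real.rpow_natCast, ← Real.rpow_mul m₂]
      congr 1
      push_cast
      ring
    have i₁ := main v hv0 hv1 n (fun s => a (Fin.cons true s))
    have i₂ := main v hv0 hv1 n (fun s => a (Fin.cons false s))
    rw [← hM₁, ← x2] at i₁
    rw [← hM₂, ← y2] at i₂
    have k₁ := kb_nonneg v hv0 (fun s : Fin n → Bool => a (Fin.cons true s))
    have k₂ := kb_nonneg v hv0 (fun s : Fin n → Bool => a (Fin.cons false s))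
    have hcs := kb_sq v hv0 (fun s : Fin n → Bool => a (Fin.cons true s))
      (fun s => a (Fin.cons false s))
    have hc : kb v (fun s : Fin n → Bool => a (Fin.cons true s)) (fun s => a (Fin.cons false s)) ≤
        X * Y := by
      refine (abs_le_of_sq_le_sq' (hcs.trans ?_) (by positivity)).2
      rw [mul_pow]
      exact mul_le_mul i₁ i₂ k₂ (by positivity)
    rw [kb_succ]
    have ht := two_point hv0 hv1 x₀ y₀
    rw [xp, yp] at ht
    have e : (∑ s, |a s| ^ (1 + v)) / 2 ^ (n + 1) = (M₁ + M₂) / 2 := by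
      rw [sum_cons, hM₁, hM₂, pow_succ]
      field_simp
    rw [e]
    refine le_trans ?_ ht
    have h1 : (1 - v) * kb v (fun s : Fin n → Bool => a (Fin.cons true s))
        (fun s => a (Fin.cons false s)) ≤ (1 - v) * (X * Y) :=
      mul_le_mul_of_nonneg_left hc (by linarith)
    have h2 : (1 + v) * (kb v (fun s : Fin n → Bool => a (Fin.cons true s))
        (fun s => a (Fin.cons true s)) + kb v (fun s : Fin n → Bool => a (Fin.cons false s))
        (fun s => a (Fin.cons false s))) ≤ (1 + v) * (X ^ 2 + Y ^ 2) :=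
      mul_le_mul_of_nonneg_left (add_le_add i₁ i₂) hp.le
    nlinarith

end BonamiAux

section B
variable {ι : Type} [Fintype ι] [DecidableEq ι]

open BonamiAux in
theorem bonami (v : ℝ) (hv0 : 0 ≤ v) (hv1 : v ≤ 1) (a : (ι → Bool) → ℝ) :
    ∑ S : Finset ι, v ^ S.card * hat a S ^ 2 ≤
      ((∑ s, |a s| ^ (1 + v)) / 2 ^ Fintype.card ι) ^ (2 / (1 + v)) := by
  have h := kern v a a
  simp only [← pow_two] at h
  rw [h]
  have e := Fintype.equivFin ι
  let E : (Fin (Fintype.card ι) → Bool) ≃ (ι → Bool) := Equiv.arrowCongr e.symm (Equiv.refl Bool)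
  have hE : ∀ s x, E s x = s (e x) := fun s x => rfl
  have hm := main v hv0 hv1 (Fintype.card ι) (fun s => a (E s))
  rw [E.sum_comp (fun s => |a s| ^ (1 + v))] at hm
  refine le_trans (le_of_eq ?_) hm
  unfold kb
  rw [Fintype.card_fin, ← E.sum_comp (fun s => ∑ t, a s * a t *
    ∏ x, (1 + v * ((sz (s x) : ℝ) * (sz (t x) : ℝ))))]
  congr 1
  refine sum_congr rfl fun s _ => ?_
  rw [← E.sum_comp (fun t => a (E s) * a t *
    ∏ x, (1 + v * ((sz (E s x) : ℝ) * (sz (t x) : ℝ))))]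
  refine sum_congr rfl fun t _ => ?_
  congr 1
  simp only [hE]
  exact e.prod_comp (fun x => 1 + v * ((sz (s x) : ℝ) * (sz (t x) : ℝ)))

end B

end Vale.Agent.P162
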