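import Vale.Agent.P162.Count

/-!
# P162, module Y: permutations of the model face and colourings
-/

namespace Vale.Agent.P162

open Finset

theorem perm_apply_inv {α : Type} (g : Equiv.Perm α) (x : α) : g (g⁻¹ x) = x :=
  g.apply_symm_apply x

section general
variable {X Y : Type} [Fintype X] [DecidableEq X] [DecidableEq Y]

/-- two colourings with the same class sizes differ by a permutation -/
theorem exists_perm_of_fib (c c' : X → Y)
    (h : ∀ y, (univ.filter (fun x => c x = y)).card = (univ.filter (fun x => c' x = y)).card) :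
    ∃ π : Equiv.Perm X, ∀ x, c' x = c (π x) := by
  classical
  have h1 : ∀ y, Nonempty ({x // c' x = y} ≃ {x // c x = y}) := by
    intro y
    refine ⟨Fintype.equivOfCardEq ?_⟩
    rw [Fintype.card_subtype, Fintype.card_subtype]
    exact (h y).symm
  let e : ∀ y, {x // c' x = y} ≃ {x // c x = y} := fun y => (h1 y).some
  refine ⟨(Equiv.sigmaFiberEquiv c').symm.trans
    ((Equiv.sigmaCongrRight e).trans (Equiv.sigmaFiberEquiv c)), ?_⟩
  intro x
  have h2 : ((Equiv.sigmaFiberEquiv c').symm.trans
      ((Equiv.sigmaCongrRight e).trans (Equiv.sigmaFiberEquiv c))) x =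
      ((e (c' x)) ⟨x, rfl⟩ : X) := rfl
  rw [h2]
  exact ((e (c' x)) ⟨x, rfl⟩).2.symm

/-- averaging a function of the colouring `c0 ∘ g` over all permutations `g` -/
theorem Av_comp (c0 : X → Y) (O : Finset (X → Y)) [DecidableEq (X → Y)]
    (hmem : ∀ g : Equiv.Perm X, (fun x => c0 (g x)) ∈ O)
    (htr : ∀ c ∈ O, ∃ π : Equiv.Perm X, ∀ x, c x = c0 (π x)) (F : (X → Y) → ℝ) :
    Av (fun g : Equiv.Perm X => F (fun x => c0 (g x))) = (∑ c ∈ O, F c) / O.card := by
  set N : (X → Y) → ℕ := fun c => (univ.filter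
    (fun g : Equiv.Perm X => (fun x => c0 (g x)) = c)).card with hN
  have hNc : ∀ c ∈ O, N c = N c0 := by
    intro c hc
    obtain ⟨π, hπ⟩ := htr c hc
    rw [hN]
    refine Finset.card_bij' (fun g _ => g * π⁻¹) (fun g _ => g * π) ?_ ?_ ?_ ?_
    · intro g hg
      have h1 := (Finset.mem_filter.1 hg).2
      refine Finset.mem_filter.2 ⟨Finset.mem_univ _, ?_⟩
      funext x
      have h2 : c0 (g (π⁻¹ x)) = c (π⁻¹ x) := congrFun h1 (π⁻¹ x)
      rw [Equiv.Perm.mul_apply, h2, hπ, perm_apply_inv]
    · intro g hg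
      have h1 := (Finset.mem_filter.1 hg).2
      refine Finset.mem_filter.2 ⟨Finset.mem_univ _, ?_⟩
      funext x
      have h2 : c0 (g (π x)) = c0 (π x) := congrFun h1 (π x)
      rw [Equiv.Perm.mul_apply, h2, hπ]
    · intro g _
      simp
    · intro g _
      simp
  have hN0 : 0 < N c0 := by
    rw [hN]
    refine Finset.card_pos.2 ⟨1, ?_⟩
    refine Finset.mem_filter.2 ⟨Finset.mem_univ _, ?_⟩
    funext x
    simp
  have hsum : ∀ G : (X → Y) → ℝ, ∑ g : Equiv.Perm X, G (fun x => c0 (g x)) =
      (N c0 : ℝ) * ∑ c ∈ O, G c := by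
    intro G
    rw [← Finset.sum_fiberwise_of_maps_to (s := (univ : Finset (Equiv.Perm X))) (t := O)
      (g := fun g x => c0 (g x)) (fun g _ => hmem g), Finset.mul_sum]
    refine Finset.sum_congr rfl fun c hc => ?_
    have h1 : ∀ g ∈ univ.filter (fun g : Equiv.Perm X => (fun x => c0 (g x)) = c),
        G (fun x => c0 (g x)) = G c := by
      intro g hg
      rw [(Finset.mem_filter.1 hg).2]
    rw [Finset.sum_congr rfl h1, Finset.sum_const, ← hNc c hc]
    simp [hN, nsmul_eq_mul]
  have hcard : (Fintype.card (Equiv.Perm X) : ℝ) = (N c0 : ℝ) * O.card := by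
    have h1 := hsum (fun _ => 1)
    simpa using h1
  unfold Av
  rw [hsum F, hcard]
  have h0 : (N c0 : ℝ) ≠ 0 := by exact_mod_cast hN0.ne'
  exact mul_div_mul_left _ _ h0

end general

section Y
variable (W : Type) [Fintype W] [DecidableEq W]

theorem P1_grp : Grp (P1 W) := by
  refine ⟨?_, ?_, ?_⟩
  · simp [P1]
  · intro g hg h hh
    have h1 := (Finset.mem_filter.1 hg).2
    have h2 := (Finset.mem_filter.1 hh).2
    refine Finset.mem_filter.2 ⟨Finset.mem_univ _, fun x => ?_⟩
    rw [Equiv.Perm.mul_apply, h1, h2]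
  · intro g hg
    have h1 := (Finset.mem_filter.1 hg).2
    refine Finset.mem_filter.2 ⟨Finset.mem_univ _, fun x => ?_⟩
    have h2 := h1 (g⁻¹ x)
    rw [perm_apply_inv] at h2
    exact h2.symm

theorem P2_grp : Grp (P2 W) := by
  refine ⟨?_, ?_, ?_⟩
  · simp [P2]
  · intro g hg h hh
    have h1 := (Finset.mem_filter.1 hg).2
    have h2 := (Finset.mem_filter.1 hh).2
    refine Finset.mem_filter.2 ⟨Finset.mem_univ _, fun x => ?_⟩
    rw [Equiv.Perm.mul_apply, h1, h2]
  · intro g hg
    have h1 := (Finset.mem_filter.1 hg).2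
    refine Finset.mem_filter.2 ⟨Finset.mem_univ _, fun x => ?_⟩
    have h2 := h1 (g⁻¹ x)
    rw [perm_apply_inv] at h2
    exact h2.symm

theorem P12_grp : Grp (P12 W) := by
  refine ⟨?_, ?_, ?_⟩
  · simp [P12]
  · intro g hg h hh
    have h1 := (Finset.mem_filter.1 hg).2
    have h2 := (Finset.mem_filter.1 hh).2
    refine Finset.mem_filter.2 ⟨Finset.mem_univ _, fun x => ?_⟩
    rw [Equiv.Perm.mul_apply, (h1 _).1, (h2 _).1, (h1 _).2, (h2 _).2]
    exact ⟨rfl, rfl⟩
  · intro g hg
    have h1 := (Finset.mem_filter.1 hg).2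
    refine Finset.mem_filter.2 ⟨Finset.mem_univ _, fun x => ?_⟩
    have h2 := h1 (g⁻¹ x)
    rw [perm_apply_inv] at h2
    exact ⟨h2.1.symm, h2.2.symm⟩

/-- sums over the model face -/
theorem sum_Bx (u : Bool → Bool → ℤ) :
    ∑ y : Bx W, u y.1 y.2.1 =
      (Fintype.card W : ℤ) * (u true true + u true false + u false true + u false false) := by
  rw [Fintype.sum_prod_type]
  simp only [Fintype.sum_prod_type, Fintype.sum_bool, Finset.sum_const, Finset.card_univ,
    nsmul_eq_mul]
  ring

theorem cs_mem (g : Equiv.Perm (Bx W)) : cs g ∈ Om (Bx W) := by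
  refine Finset.mem_filter.2 ⟨Finset.mem_univ _, ?_⟩
  unfold tot cs
  rw [Equiv.sum_comp g (fun y : Bx W => sz y.1), sum_Bx W (fun a _ => sz a)]
  simp [sz]

theorem ct_mem (g : Equiv.Perm (Bx W)) : ct g ∈ Om (Bx W) := by
  refine Finset.mem_filter.2 ⟨Finset.mem_univ _, ?_⟩
  unfold tot ct
  rw [Equiv.sum_comp g (fun y : Bx W => sz y.2.1), sum_Bx W (fun _ b => sz b)]
  simp [sz]

theorem cst_mem (g : Equiv.Perm (Bx W)) : (cs g, ct g) ∈ Om2 (Bx W) := by
  refine Finset.mem_filter.2 ⟨Finset.mem_univ _, ?_, ?_, ?_⟩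
  · exact (Finset.mem_filter.1 (cs_mem W g)).2
  · exact (Finset.mem_filter.1 (ct_mem W g)).2
  · unfold ip cs ct
    simp only
    rw [Equiv.sum_comp g (fun y : Bx W => sz y.1 * sz y.2.1), sum_Bx W (fun a b => sz a * sz b)]
    simp [sz]

/-- a function invariant under `P1` is a function of the first colouring -/
theorem factor1 (f : Equiv.Perm (Bx W) → ℝ) (hf : ∀ h ∈ P1 W, ∀ p, f (h * p) = f p) :
    ∃ F : (Bx W → Bool) → ℝ, ∀ g, f g = F (cs g) := by
  classical
  refine ⟨fun s => if h : ∃ g : Equiv.Perm (Bx W), cs g = s then f h.choose else 0, ?_⟩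
  intro g
  have hex : ∃ g' : Equiv.Perm (Bx W), cs g' = cs g := ⟨g, rfl⟩
  simp only
  rw [dif_pos hex]
  set g' := hex.choose with hg'
  have h1 : cs g' = cs g := hex.choose_spec
  have h2 : (g * g'⁻¹) ∈ P1 W := by
    refine Finset.mem_filter.2 ⟨Finset.mem_univ _, fun x => ?_⟩
    have h3 := congrFun h1 (g'⁻¹ x)
    unfold cs at h3
    rw [perm_apply_inv] at h3
    rw [Equiv.Perm.mul_apply]
    exact h3.symm
  have h4 := hf _ h2 g'
  rw [inv_mul_cancel_right] at h4
  exact h4

theorem factor2 (f : Equiv.Perm (Bx W) → ℝ) (hf : ∀ h ∈ P2 W, ∀ p, f (h * p) = f p) :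
    ∃ F : (Bx W → Bool) → ℝ, ∀ g, f g = F (ct g) := by
  classical
  refine ⟨fun s => if h : ∃ g : Equiv.Perm (Bx W), ct g = s then f h.choose else 0, ?_⟩
  intro g
  have hex : ∃ g' : Equiv.Perm (Bx W), ct g' = ct g := ⟨g, rfl⟩
  simp only
  rw [dif_pos hex]
  set g' := hex.choose with hg'
  have h1 : ct g' = ct g := hex.choose_spec
  have h2 : (g * g'⁻¹) ∈ P2 W := by
    refine Finset.mem_filter.2 ⟨Finset.mem_univ _, fun x => ?_⟩
    have h3 := congrFun h1 (g'⁻¹ x)
    unfold ct at h3
    rw [perm_apply_inv] at h3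
    rw [Equiv.Perm.mul_apply]
    exact h3.symm
  have h4 := hf _ h2 g'
  rw [inv_mul_cancel_right] at h4
  exact h4

theorem card_Bx : Fintype.card (Bx W) = 4 * Fintype.card W := by
  simp only [Bx, Fintype.card_prod, Fintype.card_bool]
  ring

/-- a balanced colouring has `2K` cards of each colour -/
theorem fib_of_tot {ι : Type} [Fintype ι] [DecidableEq ι] (K : ℕ) (hι : Fintype.card ι = 4 * K)
    (s : ι → Bool) (hs : tot s = 0) (y : Bool) :
    (univ.filter (fun x => s x = y)).card = 2 * K := by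
  have h1 : (univ.filter (fun x => s x = true)).card = 2 * K := by
    have h := hs
    rw [tot_eq, hι] at h
    push_cast at h
    omega
  have h2 := Finset.card_filter_add_card_filter_not (s := (univ : Finset ι))
      (fun x => s x = true)
  rw [Finset.card_univ, hι] at h2
  cases y with
  | true => exact h1
  | false =>
    have h3 : univ.filter (fun x => s x = false) = univ.filter (fun x => ¬ s x = true) := by
      ext x
      simp
    rw [h3]
    omega

theorem fib_of_pair {ι : Type} [Fintype ι] [DecidableEq ι] (K : ℕ) (hι : Fintype.card ι = 4 * K)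
    (s t : ι → Bool) (hs : tot s = 0) (ht : tot t = 0) (hst : ip s t = 0) (y : Bool × Bool) :
    (univ.filter (fun x => (s x, t x) = y)).card = K := by
  set A : Finset ι := univ.filter (fun x => s x = true) with hA
  set B : Finset ι := univ.filter (fun x => ¬ s x = true) with hB
  have hAc : A.card = 2 * K := fib_of_tot K hι s hs true
  have hBc : B.card = 2 * K := by
    have h3 : B = univ.filter (fun x => s x = false) := by
      ext x
      simp [hB]
    rw [h3]
    exact fib_of_tot K hι s hs false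
  have h1 := ht
  have h2 := hst
  rw [tot_split s t, ← hA, ← hB, sum_sz, sum_sz, hAc, hBc] at h1
  rw [ip_eq s t, ← hA, ← hB, sum_sz, sum_sz, hAc, hBc] at h2
  push_cast at h1 h2
  have hAt := Finset.card_filter_add_card_filter_not (s := A) (fun x => t x = true)
  have hBt := Finset.card_filter_add_card_filter_not (s := B) (fun x => t x = true)
  rw [hAc] at hAt
  rw [hBc] at hBt
  obtain ⟨y1, y2⟩ := y
  cases y1 with
  | true =>
    cases y2 with
    | true =>
      have h3 : univ.filter (fun x => (s x, t x) = (true, true)) =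
          A.filter (fun x => t x = true) := by
        ext x
        simp [hA]
      rw [h3]
      omega
    | false =>
      have h3 : univ.filter (fun x => (s x, t x) = (true, false)) =
          A.filter (fun x => ¬ t x = true) := by
        ext x
        simp [hA]
      rw [h3]
      omega
  | false =>
    cases y2 with
    | true =>
      have h3 : univ.filter (fun x => (s x, t x) = (false, true)) =
          B.filter (fun x => t x = true) := by
        ext x
        simp [hB]
      rw [h3]
      omega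
    | false =>
      have h3 : univ.filter (fun x => (s x, t x) = (false, false)) =
          B.filter (fun x => ¬ t x = true) := by
        ext x
        simp [hB]
      rw [h3]
      omega

theorem Av_cs (F : (Bx W → Bool) → ℝ) :
    Av (fun g : Equiv.Perm (Bx W) => F (cs g)) = (∑ s ∈ Om (Bx W), F s) / (Om (Bx W)).card := by
  have h := Av_comp (X := Bx W) (Y := Bool) (fun x => x.1) (Om (Bx W)) (fun g => cs_mem W g) ?_ F
  · exact h
  · intro c hc
    refine exists_perm_of_fib (fun x : Bx W => x.1) c fun y => ?_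
    rw [fib_of_tot (Fintype.card W) (card_Bx W) c (Finset.mem_filter.1 hc).2 y]
    have h1 := (Finset.mem_filter.1 (cs_mem W 1)).2
    exact fib_of_tot (Fintype.card W) (card_Bx W) (cs (1 : Equiv.Perm (Bx W))) h1 y

theorem Av_ct (F : (Bx W → Bool) → ℝ) :
    Av (fun g : Equiv.Perm (Bx W) => F (ct g)) = (∑ s ∈ Om (Bx W), F s) / (Om (Bx W)).card := by
  have h := Av_comp (X := Bx W) (Y := Bool) (fun x => x.2.1) (Om (Bx W)) (fun g => ct_mem W g)
    ?_ F
  · exact h
  · intro c hc
    refine exists_perm_of_fib (fun x : Bx W => x.2.1) c fun y => ?_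
    rw [fib_of_tot (Fintype.card W) (card_Bx W) c (Finset.mem_filter.1 hc).2 y]
    have h1 := (Finset.mem_filter.1 (ct_mem W 1)).2
    exact fib_of_tot (Fintype.card W) (card_Bx W) (ct (1 : Equiv.Perm (Bx W))) h1 y

theorem Av_cst (F : (Bx W → Bool) × (Bx W → Bool) → ℝ) :
    Av (fun g : Equiv.Perm (Bx W) => F (cs g, ct g)) =
      (∑ q ∈ Om2 (Bx W), F q) / (Om2 (Bx W)).card := by
  classical
  -- the pair of colourings as one colouring with values in `Bool × Bool`
  set E : ((Bx W → Bool) × (Bx W → Bool)) ≃ (Bx W → Bool × Bool) :=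
    (Equiv.arrowProdEquivProdArrow (Bx W) (fun _ => Bool) (fun _ => Bool)).symm with hE
  have hE1 : ∀ q x, E q x = (q.1 x, q.2 x) := fun q x => rfl
  have h := Av_comp (X := Bx W) (Y := Bool × Bool) (fun x => (x.1, x.2.1))
    ((Om2 (Bx W)).map E.toEmbedding) ?_ ?_ (fun c => F (E.symm c))
  · have h2 : ∀ g : Equiv.Perm (Bx W),
        E.symm (fun x => ((g x).1, (g x).2.1)) = (cs g, ct g) := by
      intro g
      rw [Equiv.symm_apply_eq]
      rfl
    simp only [h2, Finset.sum_map, Finset.card_map, Equiv.coe_toEmbedding,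
      Equiv.symm_apply_apply] at h
    exact h
  · intro g
    rw [Finset.mem_map]
    exact ⟨(cs g, ct g), cst_mem W g, rfl⟩
  · intro c hc
    rw [Finset.mem_map] at hc
    obtain ⟨q, hq, rfl⟩ := hc
    have hq' := (Finset.mem_filter.1 hq).2
    refine exists_perm_of_fib (fun x : Bx W => (x.1, x.2.1)) (E q) fun y => ?_
    have e1 := fib_of_pair (Fintype.card W) (card_Bx W) q.1 q.2 hq'.1 hq'.2.1 hq'.2.2 y
    have e2 : (univ.filter (fun x => E q x = y)).card = Fintype.card W := e1
    have hm := (Finset.mem_filter.1 (cst_mem W 1)).2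
    have e3 := fib_of_pair (Fintype.card W) (card_Bx W) (cs (1 : Equiv.Perm (Bx W)))
      (ct (1 : Equiv.Perm (Bx W))) hm.1 hm.2.1 hm.2.2 y
    have e4 : (univ.filter (fun x : Bx W => (x.1, x.2.1) = y)).card = Fintype.card W := e3
    rw [e4]
    exact e2.symm

end Y

end Vale.Agent.P162
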