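import Vale.Agent.P162.Loc
import Vale.Agent.P162.Avg

/-!
# P162 : module U, all faces together
-/

namespace Vale.Agent.P162

open Finset

namespace MultiAux

theorem avg_one {V : Type} [Fintype V] [DecidableEq V] (f : Equiv.Perm V → ℝ) :
    avg {1} f = f := by
  funext p
  simp [avg]

end MultiAux

theorem multi (w : ℝ) (hw : w < 1) (d : ℕ) (J : Finset (Fin d)) (e b : Fin d) (he : e ∉ J)
    (hb : b ∉ J) (heb : e ≠ b)
    (hface : ∀ (a : Pos d) (f : Equiv.Perm (Pos d) → ℝ), (∀ p, 0 ≤ f p) →
      (∀ h ∈ loc (insert e (insert b J)) {a} J, ∀ p, f (h * p) = f p) →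
      (1 - w) * (En f - En (avg (loc (insert e (insert b J)) {a} (insert e (insert b J))) f)) ≤
        (En f - En (avg (loc (insert e (insert b J)) {a} (insert b J)) f)) +
        (En f - En (avg (loc (insert e (insert b J)) {a} (insert e J)) f)))
    (f : Equiv.Perm (Pos d) → ℝ) (hf : ∀ p, 0 ≤ f p) :
    (1 - w) * (Dn f J - Dn f (insert e (insert b J))) ≤
      (Dn f J - Dn f (insert b J)) + (Dn f J - Dn f (insert e J)) := by
  have hsJ : J ⊆ insert e (insert b J) := fun x hx => mem_insert_of_mem (mem_insert_of_mem hx)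
  have hsb : insert b J ⊆ insert e (insert b J) := subset_insert _ _
  have hse : insert e J ⊆ insert e (insert b J) := insert_subset_insert _ (subset_insert _ _)
  have hJb : J ⊆ insert b J := subset_insert _ _
  have hJe : J ⊆ insert e J := subset_insert _ _
  generalize hZ : insert e (insert b J) = Z at *
  generalize hYb : insert b J = Yb at *
  generalize hYe : insert e J = Ye at *
  set g := avg (st J) f with hg
  have hgn : ∀ p, 0 ≤ g p := avg_nonneg _ f hf
  have hginv : ∀ h ∈ st J, ∀ p, g (h * p) = g p :=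
    fun h hh p => avg_invariant _ (st_grp J) f h hh p
  have hgrp : ∀ (A : Finset (Pos d)) (Y : Finset (Fin d)), Y ⊆ Z → Grp (loc Z A Y) :=
    fun A Y hY => loc_grp Z A Y hY
  have key : ∀ A : Finset (Pos d), (1 - w) * (En g - En (avg (loc Z A Z) g)) ≤
      (En g - En (avg (loc Z A Yb) g)) + (En g - En (avg (loc Z A Ye) g)) := by
    intro A
    induction A using Finset.induction_on with
    | empty =>
      simp only [loc_empty, MultiAux.avg_one]
      simp
    | insert a A ha ih =>
      rw [loc_insert Z A a ha Z (Subset.refl _), loc_insert Z A a ha Yb hsb,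
        loc_insert Z A a ha Ye hse]
      set u := avg (loc Z A Z) g with hu
      have hun : ∀ p, 0 ≤ u p := avg_nonneg _ g hgn
      have hub : avg (loc Z A Z) (avg (loc Z A Yb) g) = u :=
        avg_avg_right _ _ (hgrp A Yb hsb) (hgrp A Z (Subset.refl _)) (loc_mono Z A _ _ hsb) g
      have hue : avg (loc Z A Z) (avg (loc Z A Ye) g) = u :=
        avg_avg_right _ _ (hgrp A Ye hse) (hgrp A Z (Subset.refl _)) (loc_mono Z A _ _ hse) g
      have huinv : ∀ h ∈ loc Z {a} J, ∀ p, u (h * p) = u p := by
        intro h hh p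
        rw [hu]
        unfold avg
        congr 1
        refine sum_congr rfl fun k hk => ?_
        have hc := loc_comm Z A a ha J Z hsJ (Subset.refl _) h hh k hk
        rw [← mul_assoc, ← hc, mul_assoc]
        refine hginv h ?_ _
        unfold st
        unfold loc at hh
        exact mem_filter.2 ⟨mem_univ _, (mem_filter.1 hh).2.2⟩
      have h1 := hface a u hun huinv
      have h2 := comm_convex (loc Z {a} Yb) (loc Z A Z) (hgrp {a} Yb hsb)
        (hgrp A Z (Subset.refl _)) (loc_comm Z A a ha Yb Z hsb (Subset.refl _))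
        (avg (loc Z A Yb) g) (avg_nonneg _ g hgn)
      have h3 := comm_convex (loc Z {a} Ye) (loc Z A Z) (hgrp {a} Ye hse)
        (hgrp A Z (Subset.refl _)) (loc_comm Z A a ha Ye Z hse (Subset.refl _))
        (avg (loc Z A Ye) g) (avg_nonneg _ g hgn)
      rw [hub] at h2
      rw [hue] at h3
      have e1 : (1 - w) * (En g - En (avg (loc Z {a} Z) u)) =
          (1 - w) * (En g - En u) + (1 - w) * (En u - En (avg (loc Z {a} Z) u)) := by ring
      rw [e1]
      linarith
  have hfin := key univ
  rw [loc_univ, loc_univ, loc_univ] at hfin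
  have r : ∀ Y : Finset (Fin d), J ⊆ Y → avg (st Y) g = avg (st Y) f := fun Y hY =>
    avg_avg_right _ _ (st_grp J) (st_grp Y) (st_mono J Y hY) f
  rw [r Z hsJ, r Yb hJb, r Ye hJe] at hfin
  exact hfin

end Vale.Agent.P162
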