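import Vale.Agent.P162.Defs

namespace Vale.Agent.P162

open Finset

namespace RecAux

lemma exists_delta (w : ℕ → ℝ) (hw : ∀ m, 0 ≤ w m ∧ w m < 1) (hs : Summable w) :
    ∃ δ : ℝ, 0 < δ ∧ ∀ i, δ ≤ 1 - w i := by
  have hfin : ∀ N : ℕ, ∃ δ : ℝ, 0 < δ ∧ ∀ i < N, δ ≤ 1 - w i := by
    intro N
    induction N with
    | zero => exact ⟨1, one_pos, by simp⟩
    | succ N ih =>
      obtain ⟨δ, h0, h1⟩ := ih
      refine ⟨min δ (1 - w N), lt_min h0 (by linarith [(hw N).2]), fun i hi => ?_⟩
      rcases Nat.lt_succ_iff_lt_or_eq.mp hi with h | h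
      · exact le_trans (min_le_left _ _) (h1 i h)
      · subst h; exact min_le_right _ _
  have ht := hs.tendsto_atTop_zero
  have hev : ∀ᶠ n in Filter.atTop, w n < 1 / 2 := ht.eventually_lt_const (by norm_num)
  obtain ⟨N, hN⟩ := Filter.eventually_atTop.mp hev
  obtain ⟨δ, h0, h1⟩ := hfin N
  refine ⟨min δ (1 / 2), lt_min h0 (by norm_num), fun i => ?_⟩
  by_cases hi : i < N
  · exact le_trans (min_le_left _ _) (h1 i hi)
  · refine le_trans (min_le_right _ _) ?_
    have := hN i (not_lt.mp hi)
    linarith

lemma exists_gamma (w : ℕ → ℝ) (hw : ∀ m, 0 ≤ w m ∧ w m < 1) (hs : Summable w) :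
    ∃ Γ : ℝ, 1 ≤ Γ ∧ ∀ n, ∏ i ∈ range n, (1 - w i)⁻¹ ≤ Γ := by
  obtain ⟨δ, h0, h1⟩ := exists_delta w hw hs
  refine ⟨Real.exp ((∑' i, w i) / δ), Real.one_le_exp (div_nonneg (tsum_nonneg fun i => (hw i).1)
    h0.le), fun n => ?_⟩
  have : ∀ i ∈ range n, (1 - w i)⁻¹ ≤ Real.exp (w i / δ) := by
    intro i _
    have hp : 0 < 1 - w i := by linarith [(hw i).2]
    have e : (1 - w i)⁻¹ = 1 + w i / (1 - w i) := by field_simp; ring
    rw [e]
    have : w i / (1 - w i) ≤ w i / δ := div_le_div_of_nonneg_left (hw i).1 h0 (h1 i)
    have h2 := Real.add_one_le_exp (w i / δ)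
    linarith
  refine le_trans (prod_le_prod (fun i _ => inv_nonneg.mpr (by linarith [(hw i).2])) this) ?_
  rw [← Real.exp_sum]
  apply Real.exp_le_exp.mpr
  rw [← sum_div]
  exact div_le_div_of_nonneg_right (hs.sum_le_tsum _ (fun i _ => (hw i).1)) h0.le

section
variable {d : ℕ} {X : Type} (D : X → Finset (Fin d) → ℝ) (A : Fin d → X → X)

/-- the state after the list of steps -/
def fold (L : List (Fin d)) (f : X) : X := L.foldl (fun g b => A b g) f

@[simp] lemma fold_nil (f : X) : fold A [] f = f := rfl
@[simp] lemma fold_cons (b : Fin d) (L : List (Fin d)) (f : X) :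
    fold A (b :: L) f = fold A L (A b f) := rfl

def Wd (j : ℕ) : List (Fin d) → X → ℝ
  | [], _ => 0
  | b :: L, f => (D (A b f) ∅ - D (fold A (L.take j) (A b f)) ∅) + Wd j L (A b f)

lemma Wd_le (j : ℕ) (L : List (Fin d)) : ∀ f : X,
    Wd D A j L f ≤ ∑ k ∈ range j, (D (fold A (L.take (k + 1)) f) ∅ - D (fold A L f) ∅) := by
  induction L with
  | nil => intro f; simp [Wd]
  | cons b L ih =>
    intro f
    have h := ih (A b f)
    simp only [Wd, List.take_succ_cons, fold_cons]
    have hs : ∑ k ∈ range j, (D (fold A (L.take k) (A b f)) ∅ - D (fold A L (A b f)) ∅) =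
        (D (A b f) ∅ - D (fold A (L.take j) (A b f)) ∅) +
        ∑ k ∈ range j, (D (fold A (L.take (k + 1)) (A b f)) ∅ - D (fold A L (A b f)) ∅) := by
      have e := Finset.sum_range_sub' (fun k => D (fold A (L.take k) (A b f)) ∅) j
      simp only [List.take_zero, fold_nil] at e
      rw [← e, ← sum_add_distrib]
      apply sum_congr rfl
      intro k _
      ring
    rw [hs]
    linarith

variable (hmono : ∀ f J J', J ⊆ J' → D f J' ≤ D f J)
  (hinv : ∀ f b J, b ∈ J → D (A b f) J = D f J)
  (hself : ∀ f b, D (A b f) {b} = D (A b f) ∅)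

include hmono hinv hself in
lemma step_le (b : Fin d) (f : X) : D (A b f) ∅ ≤ D f ∅ := by
  rw [← hself, hinv f b {b} (by simp)]
  exact hmono _ _ _ (by simp)

include hmono hinv hself in
lemma fold_le (L : List (Fin d)) : ∀ f : X, D (fold A L f) ∅ ≤ D f ∅ := by
  induction L with
  | nil => intro f; simp
  | cons b L ih => intro f; exact le_trans (ih _) (step_le D A hmono hinv hself b f)

include hmono hinv hself in
lemma Wd_le' (j : ℕ) (L : List (Fin d)) (f : X) :
    Wd D A j L f ≤ j * (D f ∅ - D (fold A L f) ∅) := by
  refine le_trans (Wd_le D A j L f) ?_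
  have : ∀ k ∈ range j, D (fold A (L.take (k + 1)) f) ∅ - D (fold A L f) ∅ ≤
      D f ∅ - D (fold A L f) ∅ := by
    intro k _
    have := fold_le D A hmono hinv hself (L.take (k + 1)) f
    linarith
  refine le_trans (sum_le_sum this) ?_
  rw [sum_const, card_range, nsmul_eq_mul]

end

/-- bound of the split entropy -/
lemma delta_le {d : ℕ} {X : Type} (D : X → Finset (Fin d) → ℝ) (w : ℕ → ℝ)
    (hw : ∀ m, 0 ≤ w m ∧ w m < 1)
    (hmono : ∀ f J J', J ⊆ J' → D f J' ≤ D f J)
    (hsub : ∀ f J e b, e ∉ J → b ∉ J → e ≠ b →
        (1 - w J.card) * (D f J - D f (insert e (insert b J))) ≤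
          (D f J - D f (insert b J)) + (D f J - D f (insert e J)))
    (b : Fin d) (g : X) (hg : D g {b} = D g ∅) (L : List (Fin d)) (hL : L.Nodup) (hb : b ∉ L) :
    D g L.toFinset - D g (insert b L.toFinset) ≤
      (∏ i ∈ range L.length, (1 - w i)⁻¹) *
        ∑ j ∈ range L.length, w j * (D g ∅ - D g (L.take (j + 1)).toFinset) := by
  induction L using List.reverseRecOn with
  | nil => simp [hg]
  | append_singleton L c ih =>
    have hL' : L.Nodup := (List.nodup_append.mp hL).1
    have hcL : c ∉ L := by
      intro h
      have := (List.nodup_append.mp hL).2.2 c h c (by simp)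
      exact this rfl
    have hbL : b ∉ L := fun h => hb (by simp [h])
    have hbc : b ≠ c := fun h => hb (by simp [h])
    have ih' := ih hL' hbL
    set J := L.toFinset with hJ
    have hcard : J.card = L.length := by rw [hJ]; exact List.toFinset_card_of_nodup hL'
    have hJ' : (L ++ [c]).toFinset = insert c J := by
      ext x; simp [hJ]
    have hs := hsub g J b c (by simpa [hJ] using hbL) (by simpa [hJ] using hcL) hbc
    rw [hcard] at hs
    rw [hJ', List.length_append, List.length_singleton, prod_range_succ, sum_range_succ]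
    have htake : (L ++ [c]).take (L.length + 1) = L ++ [c] := by
      apply List.take_of_length_le; simp
    rw [htake, hJ']
    have hsum : ∑ j ∈ range L.length, w j * (D g ∅ - D g ((L ++ [c]).take (j + 1)).toFinset) =
        ∑ j ∈ range L.length, w j * (D g ∅ - D g (L.take (j + 1)).toFinset) := by
      apply sum_congr rfl
      intro j hj
      rw [List.take_append_of_le_length (by simpa using Nat.succ_le_of_lt (mem_range.mp hj))]
    rw [hsum]
    set P := ∏ i ∈ range L.length, (1 - w i)⁻¹ with hP
    set Sg := ∑ j ∈ range L.length, w j * (D g ∅ - D g (L.take (j + 1)).toFinset) with hSg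
    have hw1 : 0 < 1 - w L.length := by linarith [(hw L.length).2]
    have hP1 : 1 ≤ P := by
      rw [hP]
      have : ∀ i ∈ range L.length, (1 : ℝ) ≤ (1 - w i)⁻¹ := by
        intro i _
        have h1 : 0 < 1 - w i := by linarith [(hw i).2]
        rw [one_le_inv₀ h1]
        linarith [(hw i).1]
      calc (1 : ℝ) = ∏ i ∈ range L.length, (1 : ℝ) := by simp
        _ ≤ _ := prod_le_prod (fun _ _ => by norm_num) this
    have hT : D g J - D g (insert c J) ≤ D g ∅ - D g (insert c J) := by
      have := hmono g ∅ J (by simp)
      linarith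
    have hS0 : 0 ≤ D g ∅ - D g (insert c J) := by
      have := hmono g ∅ (insert c J) (by simp)
      linarith
    have hw0 := (hw L.length).1
    -- (1 - w) r' ≤ r + w T
    have key : (1 - w L.length) * (D g (insert c J) - D g (insert b (insert c J))) ≤
        P * Sg + w L.length * (D g ∅ - D g (insert c J)) := by
      have h1 : w L.length * (D g J - D g (insert c J)) ≤
          w L.length * (D g ∅ - D g (insert c J)) := mul_le_mul_of_nonneg_left hT hw0
      nlinarith [hs, ih', h1]
    have key2 : P * Sg + w L.length * (D g ∅ - D g (insert c J)) ≤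
        P * (Sg + w L.length * (D g ∅ - D g (insert c J))) := by
      have h2 : 0 ≤ w L.length * (D g ∅ - D g (insert c J)) := mul_nonneg hw0 hS0
      nlinarith
    have key3 := le_trans key key2
    rw [mul_assoc, mul_comm P, mul_assoc]
    rw [← div_eq_inv_mul, le_div_iff₀ hw1]
    nlinarith [key3]

end RecAux

open RecAux

theorem recursion (w : ℕ → ℝ) (hw : ∀ m, 0 ≤ w m ∧ w m < 1)
    (hsum : Summable (fun m : ℕ => ((m : ℝ) + 1) * w m)) :
    ∃ x : ℝ, 0 < x ∧ ∀ (d : ℕ) (X : Type) (D : X → Finset (Fin d) → ℝ) (A : Fin d → X → X),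
      (∀ f J J', J ⊆ J' → D f J' ≤ D f J) →
      (∀ f b J, b ∈ J → D (A b f) J = D f J) →
      (∀ f b, D (A b f) {b} = D (A b f) ∅) →
      (∀ f J e b, e ∉ J → b ∉ J → e ≠ b →
        (1 - w J.card) * (D f J - D f (insert e (insert b J))) ≤
          (D f J - D f (insert b J)) + (D f J - D f (insert e J))) →
      ∀ (L : List (Fin d)), L.Nodup → ∀ f,
        D f ∅ - D f L.toFinset ≤ x * (D f ∅ - D (L.foldl (fun g b => A b g) f) ∅) := by
  have hsw : Summable w := by
    refine Summable.of_nonneg_of_le (fun m => (hw m).1) (fun m => ?_) hsum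
    have := (hw m).1
    have hm : (0 : ℝ) ≤ m := Nat.cast_nonneg m
    nlinarith
  obtain ⟨Γ, hΓ1, hΓ⟩ := exists_gamma w hw hsw
  set a : ℕ → ℝ := fun i => Γ * i * w (i - 1) with ha
  have ha0 : ∀ i, 0 ≤ a i := fun i => by
    have := (hw (i - 1)).1
    have hi : (0 : ℝ) ≤ i := Nat.cast_nonneg i
    simp only [ha]; positivity
  set y : ℕ → ℝ := fun m => ∏ i ∈ range m, (1 + a i) with hy
  have hy0 : ∀ m, 0 ≤ y m := fun m => prod_nonneg fun i _ => by linarith [ha0 i]
  have hysum : ∀ m, y m = 1 + ∑ i ∈ range m, a i * y i := by
    intro m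
    induction m with
    | zero => simp [hy]
    | succ m ih =>
      have : y (m + 1) = y m * (1 + a m) := by simp [hy, prod_range_succ]
      rw [this, sum_range_succ]
      linarith
  have hybd : ∀ m, y m ≤ Real.exp (Γ * ∑' i : ℕ, ((i : ℝ) + 1) * w i) := by
    intro m
    have h1 : y m ≤ Real.exp (∑ i ∈ range m, a i) := by
      rw [Real.exp_sum]
      refine prod_le_prod (fun i _ => by linarith [ha0 i]) (fun i _ => ?_)
      have := Real.add_one_le_exp (a i)
      linarith
    refine le_trans h1 (Real.exp_le_exp.mpr ?_)
    have hnn : ∀ i : ℕ, 0 ≤ ((i : ℝ) + 1) * w i := fun i => by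
      have := (hw i).1
      positivity
    cases m with
    | zero =>
      simp only [range_zero, sum_empty]
      exact mul_nonneg (by linarith) (tsum_nonneg hnn)
    | succ m =>
      rw [sum_range_succ']
      have e0 : a 0 = 0 := by simp [ha]
      rw [e0, add_zero]
      have e1 : ∑ i ∈ range m, a (i + 1) = Γ * ∑ i ∈ range m, ((i : ℝ) + 1) * w i := by
        rw [mul_sum]
        apply sum_congr rfl
        intro i _
        simp only [ha, Nat.add_sub_cancel]
        push_cast
        ring
      rw [e1]
      exact mul_le_mul_of_nonneg_left (hsum.sum_le_tsum _ (fun i _ => hnn i)) (by linarith)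
  refine ⟨Real.exp (Γ * ∑' i : ℕ, ((i : ℝ) + 1) * w i), Real.exp_pos _, ?_⟩
  intro d X D A hmono hinv hself hsub
  -- strong induction
  have main : ∀ m : ℕ, ∀ L : List (Fin d), L.Nodup → L.length = m → ∀ f : X,
      D f ∅ - D f L.toFinset ≤ y m * (D f ∅ - D (fold A L f) ∅) := by
    intro m
    induction m using Nat.strong_induction_on with
    | _ m IH =>
      -- inner claim
      have inner : ∀ L : List (Fin d), L.Nodup → L.length ≤ m → ∀ f : X,
          D f ∅ - D f L.toFinset ≤ (D f ∅ - D (fold A L f) ∅) +
            Γ * ∑ j ∈ range (m - 1), w j * y (j + 1) * Wd D A (j + 1) L f := by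
        intro L
        induction L with
        | nil =>
          intro _ _ f
          simp [Wd]
        | cons b L ihL =>
          intro hnd hlen f
          have hnd' : L.Nodup := (List.nodup_cons.mp hnd).2
          have hbL : b ∉ L := (List.nodup_cons.mp hnd).1
          simp only [List.length_cons] at hlen
          have ih := ihL hnd' (by omega) (A b f)
          have hδ := delta_le D w hw hmono hsub b (A b f) (hself f b) L hnd' hbL
          set g := A b f with hg
          -- bound δ
          have hterm : ∀ j ∈ range L.length, w j * (D g ∅ - D g (L.take (j + 1)).toFinset) ≤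
              w j * y (j + 1) * (D g ∅ - D (fold A (L.take (j + 1)) g) ∅) := by
            intro j hj
            have hj' := mem_range.mp hj
            have hl : (L.take (j + 1)).length = j + 1 := by
              rw [List.length_take]; omega
            have := IH (j + 1) (by omega) (L.take (j + 1)) (hnd'.sublist (List.take_sublist _ _))
              hl g
            rw [mul_assoc]
            exact mul_le_mul_of_nonneg_left this (hw j).1
          have hnn : ∀ j, 0 ≤ w j * y (j + 1) * (D g ∅ - D (fold A (L.take (j + 1)) g) ∅) := by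
            intro j
            have h1 := fold_le D A hmono hinv hself (L.take (j + 1)) g
            exact mul_nonneg (mul_nonneg (hw j).1 (hy0 _)) (by linarith)
          have hδ2 : D g L.toFinset - D g (insert b L.toFinset) ≤
              Γ * ∑ j ∈ range (m - 1), w j * y (j + 1) *
                (D g ∅ - D (fold A (L.take (j + 1)) g) ∅) := by
            refine le_trans hδ ?_
            have hS0 : 0 ≤ ∑ j ∈ range L.length,
                w j * (D g ∅ - D g (L.take (j + 1)).toFinset) := by
              apply sum_nonneg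
              intro j _
              have := hmono g ∅ (L.take (j + 1)).toFinset (by simp)
              exact mul_nonneg (hw j).1 (by linarith)
            refine le_trans (mul_le_mul_of_nonneg_right (hΓ _) hS0) ?_
            refine mul_le_mul_of_nonneg_left ?_ (by linarith)
            refine le_trans (sum_le_sum hterm) ?_
            apply sum_le_sum_of_subset_of_nonneg
            · intro j hj
              rw [mem_range] at hj ⊢
              omega
            · intro j _ _
              exact hnn j
          have e1 : D f (b :: L).toFinset = D g (insert b L.toFinset) := by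
            rw [List.toFinset_cons, hg, hinv f b _ (by simp)]
          rw [e1]
          simp only [Wd, fold_cons, ← hg]
          have e2 : Γ * ∑ j ∈ range (m - 1), w j * y (j + 1) *
              (D g ∅ - D (fold A (L.take (j + 1)) g) ∅ + Wd D A (j + 1) L g) =
              Γ * ∑ j ∈ range (m - 1), w j * y (j + 1) *
                (D g ∅ - D (fold A (L.take (j + 1)) g) ∅) +
              Γ * ∑ j ∈ range (m - 1), w j * y (j + 1) * Wd D A (j + 1) L g := by
            rw [← mul_add, ← sum_add_distrib]
            congr 1
            apply sum_congr rfl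
            intro j _
            ring
          rw [e2]
          linarith
      intro L hnd hlen f
      have h := inner L hnd (le_of_eq hlen) f
      set Dr := D f ∅ - D (fold A L f) ∅ with hDr
      have hW : Γ * ∑ j ∈ range (m - 1), w j * y (j + 1) * Wd D A (j + 1) L f ≤
          (∑ j ∈ range (m - 1), a (j + 1) * y (j + 1)) * Dr := by
        rw [mul_sum, sum_mul]
        apply sum_le_sum
        intro j _
        have h1 := Wd_le' D A hmono hinv hself (j + 1) L f
        rw [← hDr] at h1
        have h2 : 0 ≤ Γ * (w j * y (j + 1)) :=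
          mul_nonneg (by linarith) (mul_nonneg (hw j).1 (hy0 _))
        have h3 := mul_le_mul_of_nonneg_left h1 h2
        have e : a (j + 1) = Γ * ((j : ℝ) + 1) * w j := by
          simp only [ha, Nat.add_sub_cancel]; push_cast; ring
        rw [e]
        push_cast at h3
        calc Γ * (w j * y (j + 1) * Wd D A (j + 1) L f)
            = Γ * (w j * y (j + 1)) * Wd D A (j + 1) L f := by ring
          _ ≤ _ := h3
          _ = _ := by ring
      cases m with
      | zero =>
        have : L = [] := List.length_eq_zero_iff.mp hlen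
        subst this
        have : Dr = 0 := by rw [hDr]; simp
        rw [this]; simp
      | succ m =>
        rw [hysum (m + 1), sum_range_succ']
        have e0 : a 0 = 0 := by simp [ha]
        rw [e0, zero_mul, add_zero]
        simp only [Nat.add_sub_cancel] at hW h
        calc _ ≤ _ := h
          _ ≤ Dr + (∑ j ∈ range m, a (j + 1) * y (j + 1)) * Dr := by linarith
          _ = _ := by ring
  intro L hnd f
  have h := main L.length L hnd rfl f
  have hdr : 0 ≤ D f ∅ - D (fold A L f) ∅ := by
    have := fold_le D A hmono hinv hself L f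
    linarith
  exact le_trans h (mul_le_mul_of_nonneg_right (hybd _) hdr)

end Vale.Agent.P162
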