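import Vale.Agent.P162.Avg

/-!
# P162, module T: from the model face to one face of the cube
-/

namespace Vale.Agent.P162

open Finset

section T
variable {d : ℕ}

theorem fg_on {J : Finset (Fin d)} {v : Pos d} {i : Fin d} (hi : i ∈ J) : fg J v i = false := by
  unfold fg
  rw [if_pos hi]

theorem fg_off {J : Finset (Fin d)} {v : Pos d} {i : Fin d} (hi : i ∉ J) : fg J v i = v i := by
  unfold fg
  rw [if_neg hi]

/-- the parametrisation of a face by the model face -/
noncomputable def faceEquiv (J : Finset (Fin d)) (e b : Fin d) (he : e ∉ J) (hb : b ∉ J)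
    (heb : e ≠ b) (a : Pos d) (ha : fg (insert e (insert b J)) a = a) :
    Bx ({i // i ∈ J} → Bool) ≃ {v : Pos d // fg (insert e (insert b J)) v = a} where
  toFun x := ⟨fun i => if i = e then x.1 else if i = b then x.2.1 else
      if h : i ∈ J then x.2.2 ⟨i, h⟩ else a i, by
    funext i
    by_cases hi : i ∈ insert e (insert b J)
    · rw [fg_on hi]
      have h1 := congrFun ha i
      rw [fg_on hi] at h1
      exact h1
    · rw [fg_off hi]
      simp only [Finset.mem_insert, not_or] at hi
      rw [if_neg hi.1, if_neg hi.2.1, dif_neg hi.2.2]⟩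
  invFun v := (v.1 e, v.1 b, fun i => v.1 i.1)
  left_inv x := by
    refine Prod.ext ?_ (Prod.ext ?_ ?_)
    · simp
    · simp [Ne.symm heb]
    · funext i
      have h1 : i.1 ≠ e := fun h => he (h ▸ i.2)
      have h2 : i.1 ≠ b := fun h => hb (h ▸ i.2)
      simp [h1, h2]
  right_inv v := by
    refine Subtype.ext ?_
    funext i
    simp only
    by_cases h1 : i = e
    · rw [if_pos h1, h1]
    · rw [if_neg h1]
      by_cases h2 : i = b
      · rw [if_pos h2, h2]
      · rw [if_neg h2]
        by_cases h3 : i ∈ J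
        · rw [dif_pos h3]
        · rw [dif_neg h3]
          have h4 := congrFun v.2 i
          rw [fg_off (by simp [h1, h2, h3])] at h4
          exact h4.symm

/-- the embedding of the permutations of the model face -/
noncomputable def emb (J : Finset (Fin d)) (e b : Fin d) (he : e ∉ J) (hb : b ∉ J)
    (heb : e ≠ b) (a : Pos d) (ha : fg (insert e (insert b J)) a = a) :
    Equiv.Perm (Bx ({i // i ∈ J} → Bool)) → Equiv.Perm (Pos d) :=
  fun g => g.extendDomain (faceEquiv J e b he hb heb a ha)

theorem emb_mul (J : Finset (Fin d)) (e b : Fin d) (he : e ∉ J) (hb : b ∉ J)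
    (heb : e ≠ b) (a : Pos d) (ha : fg (insert e (insert b J)) a = a)
    (g h : Equiv.Perm (Bx ({i // i ∈ J} → Bool))) :
    emb J e b he hb heb a ha (g * h) = emb J e b he hb heb a ha g * emb J e b he hb heb a ha h := by
  unfold emb
  exact (Equiv.Perm.extendDomain_mul _ _ _).symm

theorem emb_inj (J : Finset (Fin d)) (e b : Fin d) (he : e ∉ J) (hb : b ∉ J)
    (heb : e ≠ b) (a : Pos d) (ha : fg (insert e (insert b J)) a = a) :
    Function.Injective (emb J e b he hb heb a ha) :=
  Equiv.Perm.extendDomainHom_injective (faceEquiv J e b he hb heb a ha)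

theorem emb_face (J : Finset (Fin d)) (e b : Fin d) (he : e ∉ J) (hb : b ∉ J)
    (heb : e ≠ b) (a : Pos d) (ha : fg (insert e (insert b J)) a = a)
    (g : Equiv.Perm (Bx ({i // i ∈ J} → Bool))) (x : Bx ({i // i ∈ J} → Bool)) :
    emb J e b he hb heb a ha g (faceEquiv J e b he hb heb a ha x).1 =
      (faceEquiv J e b he hb heb a ha (g x)).1 :=
  Equiv.Perm.extendDomain_apply_image g (faceEquiv J e b he hb heb a ha) x

theorem emb_off (J : Finset (Fin d)) (e b : Fin d) (he : e ∉ J) (hb : b ∉ J)
    (heb : e ≠ b) (a : Pos d) (ha : fg (insert e (insert b J)) a = a)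
    (g : Equiv.Perm (Bx ({i // i ∈ J} → Bool))) (v : Pos d)
    (hv : fg (insert e (insert b J)) v ≠ a) : emb J e b he hb heb a ha g v = v :=
  Equiv.Perm.extendDomain_apply_not_subtype g (faceEquiv J e b he hb heb a ha) hv

/-- general description of `loc Z {a} Y` as the image of a set of permutations of the model -/
theorem loc_eq_map (J : Finset (Fin d)) (e b : Fin d) (he : e ∉ J) (hb : b ∉ J)
    (heb : e ≠ b) (a : Pos d) (ha : fg (insert e (insert b J)) a = a)
    (Y : Finset (Fin d)) (hY : Y ⊆ insert e (insert b J))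
    (P : Finset (Equiv.Perm (Bx ({i // i ∈ J} → Bool))))
    (hP : ∀ g : Equiv.Perm (Bx ({i // i ∈ J} → Bool)), g ∈ P ↔
      ∀ x, fg Y (faceEquiv J e b he hb heb a ha (g x)).1 =
        fg Y (faceEquiv J e b he hb heb a ha x).1) :
    loc (insert e (insert b J)) {a} Y =
      P.map ⟨emb J e b he hb heb a ha, emb_inj J e b he hb heb a ha⟩ := by
  ext h
  rw [Finset.mem_map]
  simp only [Function.Embedding.coeFn_mk]
  constructor
  · intro hh
    have h1 := (Finset.mem_filter.1 hh).2.1
    have h2 := (Finset.mem_filter.1 hh).2.2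
    have h3 : ∀ v, fg (insert e (insert b J)) (h v) = fg (insert e (insert b J)) v := by
      intro v
      funext i
      by_cases hi : i ∈ insert e (insert b J)
      · rw [fg_on hi, fg_on hi]
      · rw [fg_off hi, fg_off hi]
        have h4 := congrFun (h2 v) i
        rw [fg_off (fun hc => hi (hY hc)), fg_off (fun hc => hi (hY hc))] at h4
        exact h4
    have h5 : ∀ v, fg (insert e (insert b J)) (h v) = a ↔ fg (insert e (insert b J)) v = a := by
      intro v
      rw [h3 v]
    set φ := faceEquiv J e b he hb heb a ha with hφ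
    set k : Equiv.Perm (Bx ({i // i ∈ J} → Bool)) :=
      φ.symm.permCongr (h.subtypePerm h5) with hk
    have hk1 : ∀ x, (φ (k x)).1 = h (φ x).1 := by
      intro x
      simp [hk, Equiv.permCongr_apply]
    have hk2 : emb J e b he hb heb a ha k = h := by
      refine Equiv.ext fun v => ?_
      by_cases hv : fg (insert e (insert b J)) v = a
      · have h6 : v = (φ (φ.symm ⟨v, hv⟩)).1 := by simp
        rw [h6, hφ, emb_face, ← hφ, hk1]
      · rw [emb_off J e b he hb heb a ha k v hv]
        refine (h1 v ?_).symm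
        simpa using hv
    refine ⟨k, ?_, hk2⟩
    rw [hP]
    intro x
    rw [hk1]
    exact h2 _
  · rintro ⟨k, hk, rfl⟩
    rw [hP] at hk
    refine Finset.mem_filter.2 ⟨Finset.mem_univ _, ?_, ?_⟩
    · intro v hv
      exact emb_off J e b he hb heb a ha k v (by simpa using hv)
    · intro v
      by_cases hv : fg (insert e (insert b J)) v = a
      · have h6 : v = (faceEquiv J e b he hb heb a ha
            ((faceEquiv J e b he hb heb a ha).symm ⟨v, hv⟩)).1 := by simp
        rw [h6, emb_face]
        exact hk _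
      · rw [emb_off J e b he hb heb a ha k v hv]

theorem loc_Z (J : Finset (Fin d)) (e b : Fin d) (he : e ∉ J) (hb : b ∉ J)
    (heb : e ≠ b) (a : Pos d) (ha : fg (insert e (insert b J)) a = a) :
    loc (insert e (insert b J)) {a} (insert e (insert b J)) =
      (univ : Finset (Equiv.Perm (Bx ({i // i ∈ J} → Bool)))).map
        ⟨emb J e b he hb heb a ha, emb_inj J e b he hb heb a ha⟩ := by
  refine loc_eq_map J e b he hb heb a ha _ (Finset.Subset.refl _) _ fun g => ?_
  refine ⟨fun _ x => ?_, fun _ => Finset.mem_univ _⟩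
  rw [(faceEquiv J e b he hb heb a ha (g x)).2, (faceEquiv J e b he hb heb a ha x).2]

theorem face_e (J : Finset (Fin d)) (e b : Fin d) (he : e ∉ J) (hb : b ∉ J)
    (heb : e ≠ b) (a : Pos d) (ha : fg (insert e (insert b J)) a = a)
    (x : Bx ({i // i ∈ J} → Bool)) : (faceEquiv J e b he hb heb a ha x).1 e = x.1 := by
  simp [faceEquiv]

theorem face_b (J : Finset (Fin d)) (e b : Fin d) (he : e ∉ J) (hb : b ∉ J)
    (heb : e ≠ b) (a : Pos d) (ha : fg (insert e (insert b J)) a = a)
    (x : Bx ({i // i ∈ J} → Bool)) : (faceEquiv J e b he hb heb a ha x).1 b = x.2.1 := by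
  simp [faceEquiv, Ne.symm heb]

theorem face_off (J : Finset (Fin d)) (e b : Fin d) (he : e ∉ J) (hb : b ∉ J)
    (heb : e ≠ b) (a : Pos d) (ha : fg (insert e (insert b J)) a = a)
    (x : Bx ({i // i ∈ J} → Bool)) (i : Fin d) (h1 : i ≠ e) (h2 : i ≠ b) (h3 : i ∉ J) :
    (faceEquiv J e b he hb heb a ha x).1 i = a i := by
  simp [faceEquiv, h1, h2, h3]

theorem loc_P1 (J : Finset (Fin d)) (e b : Fin d) (he : e ∉ J) (hb : b ∉ J)
    (heb : e ≠ b) (a : Pos d) (ha : fg (insert e (insert b J)) a = a) :
    loc (insert e (insert b J)) {a} (insert b J) =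
      (P1 ({i // i ∈ J} → Bool)).map
        ⟨emb J e b he hb heb a ha, emb_inj J e b he hb heb a ha⟩ := by
  refine loc_eq_map J e b he hb heb a ha _ (Finset.subset_insert _ _) _ fun g => ?_
  unfold P1
  rw [Finset.mem_filter]
  constructor
  · rintro ⟨_, hg⟩ x
    funext i
    by_cases hi : i ∈ insert b J
    · rw [fg_on hi, fg_on hi]
    · rw [fg_off hi, fg_off hi]
      simp only [Finset.mem_insert, not_or] at hi
      by_cases h1 : i = e
      · subst h1
        rw [face_e, face_e, hg]
      · rw [face_off J e b he hb heb a ha _ i h1 hi.1 hi.2,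
          face_off J e b he hb heb a ha _ i h1 hi.1 hi.2]
  · intro hg
    refine ⟨Finset.mem_univ _, fun x => ?_⟩
    have h1 := congrFun (hg x) e
    rw [fg_off (by simp [heb, he]), fg_off (by simp [heb, he]), face_e, face_e] at h1
    exact h1

theorem loc_P2 (J : Finset (Fin d)) (e b : Fin d) (he : e ∉ J) (hb : b ∉ J)
    (heb : e ≠ b) (a : Pos d) (ha : fg (insert e (insert b J)) a = a) :
    loc (insert e (insert b J)) {a} (insert e J) =
      (P2 ({i // i ∈ J} → Bool)).map
        ⟨emb J e b he hb heb a ha, emb_inj J e b he hb heb a ha⟩ := by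
  refine loc_eq_map J e b he hb heb a ha _
    (Finset.insert_subset_insert _ (Finset.subset_insert _ _)) _ fun g => ?_
  unfold P2
  rw [Finset.mem_filter]
  constructor
  · rintro ⟨_, hg⟩ x
    funext i
    by_cases hi : i ∈ insert e J
    · rw [fg_on hi, fg_on hi]
    · rw [fg_off hi, fg_off hi]
      simp only [Finset.mem_insert, not_or] at hi
      by_cases h1 : i = b
      · subst h1
        rw [face_b, face_b, hg]
      · rw [face_off J e b he hb heb a ha _ i hi.1 h1 hi.2,
          face_off J e b he hb heb a ha _ i hi.1 h1 hi.2]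
  · intro hg
    refine ⟨Finset.mem_univ _, fun x => ?_⟩
    have h1 := congrFun (hg x) b
    rw [fg_off (by simp [Ne.symm heb, hb]), fg_off (by simp [Ne.symm heb, hb]), face_b,
      face_b] at h1
    exact h1

theorem loc_P12 (J : Finset (Fin d)) (e b : Fin d) (he : e ∉ J) (hb : b ∉ J)
    (heb : e ≠ b) (a : Pos d) (ha : fg (insert e (insert b J)) a = a) :
    loc (insert e (insert b J)) {a} J =
      (P12 ({i // i ∈ J} → Bool)).map
        ⟨emb J e b he hb heb a ha, emb_inj J e b he hb heb a ha⟩ := by
  refine loc_eq_map J e b he hb heb a ha _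
    ((Finset.subset_insert _ _).trans (Finset.subset_insert _ _)) _ fun g => ?_
  unfold P12
  rw [Finset.mem_filter]
  constructor
  · rintro ⟨_, hg⟩ x
    funext i
    by_cases hi : i ∈ J
    · rw [fg_on hi, fg_on hi]
    · rw [fg_off hi, fg_off hi]
      by_cases h1 : i = b
      · subst h1
        rw [face_b, face_b, (hg x).2]
      · by_cases h2 : i = e
        · subst h2
          rw [face_e, face_e, (hg x).1]
        · rw [face_off J e b he hb heb a ha _ i h2 h1 hi,
            face_off J e b he hb heb a ha _ i h2 h1 hi]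
  · intro hg
    refine ⟨Finset.mem_univ _, fun x => ⟨?_, ?_⟩⟩
    · have h1 := congrFun (hg x) e
      rw [fg_off he, fg_off he, face_e, face_e] at h1
      exact h1
    · have h1 := congrFun (hg x) b
      rw [fg_off hb, fg_off hb, face_b, face_b] at h1
      exact h1

/-- averaging over translates does not change the mean -/
theorem Av_translate (G : Equiv.Perm (Pos d) → ℝ) {ι : Type} [Fintype ι] [Nonempty ι]
    (u : ι → Equiv.Perm (Pos d)) :
    Av (fun p => Av (fun g : ι => G (u g * p))) = Av G := by
  unfold Av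
  rw [← Finset.sum_div]
  congr 1
  rw [Finset.sum_comm]
  have h1 : ∀ g : ι, ∑ p, G (u g * p) = ∑ p, G p := fun g =>
    Equiv.sum_comp (Equiv.mulLeft (u g)) G
  rw [Finset.sum_congr rfl fun g _ => h1 g, Finset.sum_const, Finset.card_univ, nsmul_eq_mul]
  have h2 : (Fintype.card ι : ℝ) ≠ 0 := by
    exact_mod_cast Fintype.card_ne_zero
  field_simp

theorem face_core (w : ℝ) (m : ℕ)
    (hsingle : ∀ (W : Type) [Fintype W] [DecidableEq W], Fintype.card W = 2 ^ m →
      ∀ f : Equiv.Perm (Bx W) → ℝ, (∀ p, 0 ≤ f p) → (∀ h ∈ P12 W, ∀ p, f (h * p) = f p) →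
        (1 - w) * (En f - Av f * Real.log (Av f)) ≤
          (En f - En (avg (P1 W) f)) + (En f - En (avg (P2 W) f)))
    (J : Finset (Fin d)) (hJ : J.card = m) (e b : Fin d) (he : e ∉ J) (hb : b ∉ J)
    (heb : e ≠ b) (a : Pos d) (ha : fg (insert e (insert b J)) a = a)
    (f : Equiv.Perm (Pos d) → ℝ) (hf : ∀ p, 0 ≤ f p)
    (hinv : ∀ h ∈ loc (insert e (insert b J)) {a} J, ∀ p, f (h * p) = f p) :
    (1 - w) * (En f - En (avg (loc (insert e (insert b J)) {a} (insert e (insert b J))) f)) ≤
      (En f - En (avg (loc (insert e (insert b J)) {a} (insert b J)) f)) +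
      (En f - En (avg (loc (insert e (insert b J)) {a} (insert e J)) f)) := by
  set ι := emb J e b he hb heb a ha with hι
  set F : Equiv.Perm (Pos d) → Equiv.Perm (Bx ({i // i ∈ J} → Bool)) → ℝ :=
    fun p g => f (ι g * p) with hF
  have hcard : Fintype.card ({i // i ∈ J} → Bool) = 2 ^ m := by
    rw [Fintype.card_fun, Fintype.card_bool, Fintype.card_coe, hJ]
  have key : ∀ p, (1 - w) * (En (F p) - Av (F p) * Real.log (Av (F p))) ≤
      (En (F p) - En (avg (P1 ({i // i ∈ J} → Bool)) (F p))) +
        (En (F p) - En (avg (P2 ({i // i ∈ J} → Bool)) (F p))) := by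
    intro p
    refine hsingle ({i // i ∈ J} → Bool) hcard (F p) (fun g => hf _) ?_
    intro h hh g
    rw [hF]
    simp only
    rw [hι, emb_mul, ← hι, mul_assoc]
    refine hinv _ ?_ _
    rw [loc_P12 J e b he hb heb a ha, Finset.mem_map]
    exact ⟨h, hh, rfl⟩
  have hT : ∀ G : Equiv.Perm (Pos d) → ℝ, Av (fun p => Av (fun g => G (ι g * p))) = Av G :=
    fun G => Av_translate G ι
  have e1 : Av (fun p => En (F p)) = En f := by
    unfold En
    exact hT (fun p => f p * Real.log (f p))
  have e2 : Av (fun p => Av (F p) * Real.log (Av (F p))) =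
      En (avg (loc (insert e (insert b J)) {a} (insert e (insert b J))) f) := by
    unfold En
    congr 1
    funext p
    have h1 : Av (F p) =
        avg (loc (insert e (insert b J)) {a} (insert e (insert b J))) f p := by
      unfold avg Av
      rw [loc_Z J e b he hb heb a ha, Finset.sum_map, Finset.card_map, Finset.card_univ]
      rfl
    rw [h1]
  have e3 : ∀ (Y : Finset (Fin d)) (P : Finset (Equiv.Perm (Bx ({i // i ∈ J} → Bool)))),
      loc (insert e (insert b J)) {a} Y =
        P.map ⟨emb J e b he hb heb a ha, emb_inj J e b he hb heb a ha⟩ →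
      Av (fun p => En (avg P (F p))) = En (avg (loc (insert e (insert b J)) {a} Y) f) := by
    intro Y P hYP
    unfold En
    have h1 : ∀ p g, avg P (F p) g =
        avg (loc (insert e (insert b J)) {a} Y) f (ι g * p) := by
      intro p g
      unfold avg
      rw [hYP, Finset.sum_map, Finset.card_map]
      congr 1
      refine Finset.sum_congr rfl fun h _ => ?_
      rw [hF]
      simp only [Function.Embedding.coeFn_mk]
      rw [hι, emb_mul, mul_assoc]
    simp only [h1]
    exact hT (fun p => avg (loc (insert e (insert b J)) {a} Y) f p *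
      Real.log (avg (loc (insert e (insert b J)) {a} Y) f p))
  have e4 := e3 _ _ (loc_P1 J e b he hb heb a ha)
  have e5 := e3 _ _ (loc_P2 J e b he hb heb a ha)
  have h1 := Av_mono _ _ key
  have h2 : Av (fun p => (1 - w) * (En (F p) - Av (F p) * Real.log (Av (F p)))) =
      (1 - w) * (Av (fun p => En (F p)) - Av (fun p => Av (F p) * Real.log (Av (F p)))) := by
    rw [← Av_sub]
    unfold Av
    rw [← Finset.mul_sum, mul_div_assoc]
  rw [h2, Av_add, Av_sub, Av_sub, e1, e2, e4, e5] at h1
  exact h1

theorem loc_trivial (Z : Finset (Fin d)) (a : Pos d) (ha : fg Z a ≠ a) (Y : Finset (Fin d)) :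
    loc Z {a} Y = {1} := by
  have h1 : ∀ v, fg Z v ∉ ({a} : Finset (Pos d)) := by
    intro v hv
    rw [Finset.mem_singleton] at hv
    apply ha
    rw [← hv]
    funext i
    by_cases hi : i ∈ Z
    · rw [fg_on hi, fg_on hi]
    · rw [fg_off hi, fg_off hi]
  ext h
  rw [Finset.mem_singleton]
  constructor
  · intro hh
    refine Equiv.ext fun v => ?_
    exact (Finset.mem_filter.1 hh).2.1 v (h1 v)
  · rintro rfl
    exact Finset.mem_filter.2 ⟨Finset.mem_univ _, fun _ _ => rfl, fun _ => rfl⟩

end T

theorem face (w : ℝ) (m : ℕ)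
    (hsingle : ∀ (W : Type) [Fintype W] [DecidableEq W], Fintype.card W = 2 ^ m →
      ∀ f : Equiv.Perm (Bx W) → ℝ, (∀ p, 0 ≤ f p) → (∀ h ∈ P12 W, ∀ p, f (h * p) = f p) →
        (1 - w) * (En f - Av f * Real.log (Av f)) ≤
          (En f - En (avg (P1 W) f)) + (En f - En (avg (P2 W) f)))
    (d : ℕ) (J : Finset (Fin d)) (hJ : J.card = m) (e b : Fin d) (he : e ∉ J) (hb : b ∉ J)
    (heb : e ≠ b) (a : Pos d) (f : Equiv.Perm (Pos d) → ℝ) (hf : ∀ p, 0 ≤ f p)
    (hinv : ∀ h ∈ loc (insert e (insert b J)) {a} J, ∀ p, f (h * p) = f p) :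
    (1 - w) * (En f - En (avg (loc (insert e (insert b J)) {a} (insert e (insert b J))) f)) ≤
      (En f - En (avg (loc (insert e (insert b J)) {a} (insert b J)) f)) +
      (En f - En (avg (loc (insert e (insert b J)) {a} (insert e J)) f)) := by
  by_cases ha : fg (insert e (insert b J)) a = a
  · exact face_core w m hsingle J hJ e b he hb heb a ha f hf hinv
  · rw [loc_trivial _ a ha, loc_trivial _ a ha, loc_trivial _ a ha]
    have h1 : avg ({1} : Finset (Equiv.Perm (Pos d))) f = f := by
      funext p
      unfold avg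
      simp
    rw [h1]
    simp

end Vale.Agent.P162
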