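import Vale.Agent.P162.Defs

/-!
# P162, module C: counting balanced colourings
-/

namespace Vale.Agent.P162

open Finset

section C
variable {ι : Type} [Fintype ι] [DecidableEq ι]

/-- sum of signs over a finite set -/
theorem sum_sz (A : Finset ι) (s : ι → Bool) :
    ∑ x ∈ A, sz (s x) = 2 * ((A.filter (fun x => s x = true)).card : ℤ) - (A.card : ℤ) := by
  have h1 : ∀ x ∈ A, sz (s x) = 2 * (if s x = true then (1 : ℤ) else 0) - 1 := by
    intro x _
    unfold sz
    by_cases h : s x = true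
    · simp [h]
    · simp [h]
  rw [Finset.sum_congr rfl h1, Finset.sum_sub_distrib, ← Finset.mul_sum]
  simp

theorem tot_eq (s : ι → Bool) :
    tot s = 2 * ((univ.filter (fun x => s x = true)).card : ℤ) - (Fintype.card ι : ℤ) := by
  unfold tot
  rw [sum_sz]
  simp [Finset.card_univ]

theorem ip_eq (s t : ι → Bool) :
    ip s t = ∑ x ∈ univ.filter (fun x => s x = true), sz (t x) -
      ∑ x ∈ univ.filter (fun x => ¬ s x = true), sz (t x) := by
  unfold ip
  rw [← Finset.sum_filter_add_sum_filter_not univ (fun x => s x = true)]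
  have h1 : ∑ x ∈ univ.filter (fun x => s x = true), sz (s x) * sz (t x) =
      ∑ x ∈ univ.filter (fun x => s x = true), sz (t x) := by
    refine Finset.sum_congr rfl fun x hx => ?_
    have : s x = true := (Finset.mem_filter.1 hx).2
    simp [sz, this]
  have h2 : ∑ x ∈ univ.filter (fun x => ¬ s x = true), sz (s x) * sz (t x) =
      - ∑ x ∈ univ.filter (fun x => ¬ s x = true), sz (t x) := by
    rw [← Finset.sum_neg_distrib]
    refine Finset.sum_congr rfl fun x hx => ?_
    have : ¬ s x = true := (Finset.mem_filter.1 hx).2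
    have h3 : s x = false := by simpa using this
    have h4 : sz (s x) = -1 := by simp [sz, h3]
    rw [h4]
    ring
  rw [h1, h2]
  ring

theorem tot_split (s t : ι → Bool) :
    tot t = ∑ x ∈ univ.filter (fun x => s x = true), sz (t x) +
      ∑ x ∈ univ.filter (fun x => ¬ s x = true), sz (t x) := by
  unfold tot
  rw [← Finset.sum_filter_add_sum_filter_not univ (fun x => s x = true)]

theorem card_Om (K : ℕ) (hι : Fintype.card ι = 4 * K) :
    (Om ι).card = (4 * K).choose (2 * K) := by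
  have h1 : (Om ι).card = (powersetCard (2 * K) (univ : Finset ι)).card := by
    refine Finset.card_bij' (fun s _ => univ.filter (fun x => s x = true))
      (fun A _ => fun x => decide (x ∈ A)) ?_ ?_ ?_ ?_
    · intro s hs
      have h := (Finset.mem_filter.1 hs).2
      rw [tot_eq, hι] at h
      rw [Finset.mem_powersetCard]
      refine ⟨Finset.subset_univ _, ?_⟩
      push_cast at h
      omega
    · intro A hA
      rw [Finset.mem_powersetCard] at hA
      unfold Om
      rw [Finset.mem_filter]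
      refine ⟨Finset.mem_univ _, ?_⟩
      rw [tot_eq, hι]
      have h2 : univ.filter (fun x => (decide (x ∈ A)) = true) = A := by
        ext x
        simp
      rw [h2, hA.2]
      push_cast
      ring
    · intro s _
      funext x
      simp
    · intro A _
      ext x
      simp
  rw [h1, Finset.card_powersetCard, Finset.card_univ, hι]

theorem card_fib (K : ℕ) (hι : Fintype.card ι = 4 * K) (s : ι → Bool) (hs : tot s = 0) :
    (univ.filter (fun t : ι → Bool => tot t = 0 ∧ ip s t = 0)).card =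
      ((2 * K).choose K) ^ 2 := by
  set A : Finset ι := univ.filter (fun x => s x = true) with hA
  set B : Finset ι := univ.filter (fun x => ¬ s x = true) with hB
  have hAB : Disjoint A B := Finset.disjoint_filter_filter_not _ _ _
  have hAc : A.card = 2 * K := by
    have h := hs
    rw [tot_eq, hι, ← hA] at h
    push_cast at h
    omega
  have hBc : B.card = 2 * K := by
    have h := Finset.card_filter_add_card_filter_not (s := (univ : Finset ι))
      (fun x => s x = true)
    rw [Finset.card_univ, hι] at h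
    have h2 : A.card + B.card = 4 * K := h
    omega
  have key : ∀ t : ι → Bool, (tot t = 0 ∧ ip s t = 0) ↔
      ((A.filter (fun x => t x = true)).card = K ∧ (B.filter (fun x => t x = true)).card = K) := by
    intro t
    rw [tot_split s t, ip_eq s t, ← hA, ← hB, sum_sz, sum_sz, hAc, hBc]
    push_cast
    constructor
    · rintro ⟨h1, h2⟩
      constructor <;> omega
    · rintro ⟨h1, h2⟩
      constructor <;> omega
  have h1 : (univ.filter (fun t : ι → Bool => tot t = 0 ∧ ip s t = 0)).card =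
      (powersetCard K A ×ˢ powersetCard K B).card := by
    refine Finset.card_bij' (fun t _ => (A.filter (fun x => t x = true),
        B.filter (fun x => t x = true)))
      (fun q _ => fun x => decide (x ∈ q.1 ∪ q.2)) ?_ ?_ ?_ ?_
    · intro t ht
      have h := (key t).1 (Finset.mem_filter.1 ht).2
      rw [Finset.mem_product, Finset.mem_powersetCard, Finset.mem_powersetCard]
      exact ⟨⟨Finset.filter_subset _ _, h.1⟩, ⟨Finset.filter_subset _ _, h.2⟩⟩
    · intro q hq
      rw [Finset.mem_product, Finset.mem_powersetCard, Finset.mem_powersetCard] at hq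
      rw [Finset.mem_filter]
      refine ⟨Finset.mem_univ _, ?_⟩
      rw [key]
      have e1 : A.filter (fun x => (decide (x ∈ q.1 ∪ q.2)) = true) = q.1 := by
        ext x
        simp only [Finset.mem_filter, decide_eq_true_eq, Finset.mem_union]
        constructor
        · rintro ⟨hx, h | h⟩
          · exact h
          · exact absurd (hq.2.1 h) (Finset.disjoint_left.1 hAB hx)
        · intro h
          exact ⟨hq.1.1 h, Or.inl h⟩
      have e2 : B.filter (fun x => (decide (x ∈ q.1 ∪ q.2)) = true) = q.2 := by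
        ext x
        simp only [Finset.mem_filter, decide_eq_true_eq, Finset.mem_union]
        constructor
        · rintro ⟨hx, h | h⟩
          · exact absurd hx (Finset.disjoint_left.1 hAB (hq.1.1 h))
          · exact h
        · intro h
          exact ⟨hq.2.1 h, Or.inr h⟩
      rw [e1, e2]
      exact ⟨hq.1.2, hq.2.2⟩
    · intro t _
      funext x
      by_cases hx : s x = true
      · by_cases hy : t x = true
        · simp [hA, hB, hx, hy]
        · simp [hA, hB, hx, hy]
      · by_cases hy : t x = true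
        · simp [hA, hB, hx, hy]
        · simp [hA, hB, hx, hy]
    · intro q hq
      rw [Finset.mem_product, Finset.mem_powersetCard, Finset.mem_powersetCard] at hq
      have e1 : A.filter (fun x => (decide (x ∈ q.1 ∪ q.2)) = true) = q.1 := by
        ext x
        simp only [Finset.mem_filter, decide_eq_true_eq, Finset.mem_union]
        constructor
        · rintro ⟨hx, h | h⟩
          · exact h
          · exact absurd (hq.2.1 h) (Finset.disjoint_left.1 hAB hx)
        · intro h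
          exact ⟨hq.1.1 h, Or.inl h⟩
      have e2 : B.filter (fun x => (decide (x ∈ q.1 ∪ q.2)) = true) = q.2 := by
        ext x
        simp only [Finset.mem_filter, decide_eq_true_eq, Finset.mem_union]
        constructor
        · rintro ⟨hx, h | h⟩
          · exact absurd hx (Finset.disjoint_left.1 hAB (hq.1.1 h))
          · exact h
        · intro h
          exact ⟨hq.2.1 h, Or.inr h⟩
      exact Prod.ext e1 e2
  rw [h1, Finset.card_product, Finset.card_powersetCard, Finset.card_powersetCard, hAc, hBc]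
  ring

theorem ip_comm (s t : ι → Bool) : ip s t = ip t s := by
  unfold ip
  exact Finset.sum_congr rfl fun x _ => mul_comm _ _

/-- regularity: summing a function of one coordinate -/
theorem sum_Om2_fst (K : ℕ) (hι : Fintype.card ι = 4 * K) (a : (ι → Bool) → ℝ) :
    ∑ q ∈ Om2 ι, a q.1 = (((2 * K).choose K : ℕ) : ℝ) ^ 2 * ∑ s ∈ Om ι, a s := by
  unfold Om2 Om
  rw [Finset.sum_filter, Fintype.sum_prod_type, Finset.sum_filter, Finset.mul_sum]
  refine Finset.sum_congr rfl fun s _ => ?_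
  by_cases hs : tot s = 0
  · have h1 := card_fib K hι s hs
    simp only [hs, true_and, if_true]
    rw [← Finset.sum_filter, Finset.sum_const, h1]
    simp [nsmul_eq_mul]
  · simp [hs]

theorem sum_Om2_snd (K : ℕ) (hι : Fintype.card ι = 4 * K) (a : (ι → Bool) → ℝ) :
    ∑ q ∈ Om2 ι, a q.2 = (((2 * K).choose K : ℕ) : ℝ) ^ 2 * ∑ s ∈ Om ι, a s := by
  rw [← sum_Om2_fst K hι a]
  refine Finset.sum_bij' (fun q _ => (q.2, q.1)) (fun q _ => (q.2, q.1)) ?_ ?_ ?_ ?_ ?_
  · intro q hq
    have h := (Finset.mem_filter.1 hq).2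
    exact Finset.mem_filter.2 ⟨Finset.mem_univ _, h.2.1, h.1, by rw [ip_comm]; exact h.2.2⟩
  · intro q hq
    have h := (Finset.mem_filter.1 hq).2
    exact Finset.mem_filter.2 ⟨Finset.mem_univ _, h.2.1, h.1, by rw [ip_comm]; exact h.2.2⟩
  · intro q _
    rfl
  · intro q _
    rfl
  · intro q _
    rfl

theorem card_Om2 (K : ℕ) (hι : Fintype.card ι = 4 * K) :
    (Om2 ι).card = (4 * K).choose (2 * K) * ((2 * K).choose K) ^ 2 := by
  have h := sum_Om2_fst K hι (fun _ => (1 : ℝ))
  rw [Finset.sum_const, Finset.sum_const, card_Om K hι] at h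
  simp only [nsmul_eq_mul, mul_one] at h
  have h2 : (((Om2 ι).card : ℕ) : ℝ) =
      ((((4 * K).choose (2 * K) * ((2 * K).choose K) ^ 2 : ℕ)) : ℝ) := by
    rw [h]
    push_cast
    ring
  exact_mod_cast h2

/-- the upper bound for the central binomial coefficient -/
theorem cb_upper (m : ℕ) :
    ((Nat.centralBinom m : ℝ)) ^ 2 * (2 * m + 1) ≤ ((4 : ℝ) ^ m) ^ 2 := by
  induction m with
  | zero => simp
  | succ m ih =>
    have h := Nat.succ_mul_centralBinom_succ m
    have h' : ((m : ℝ) + 1) * (Nat.centralBinom (m + 1) : ℝ) =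
        2 * (2 * m + 1) * (Nat.centralBinom m : ℝ) := by
      exact_mod_cast h
    have hm : (0 : ℝ) ≤ m := Nat.cast_nonneg m
    have hp : (0 : ℝ) < (m : ℝ) + 1 := by linarith
    have e1 : (((m : ℝ) + 1) * (Nat.centralBinom (m + 1) : ℝ)) ^ 2 * (2 * m + 3) ≤
        ((m : ℝ) + 1) ^ 2 * ((4 : ℝ) ^ (m + 1)) ^ 2 := by
      rw [h']
      have e2 : (2 * (2 * (m : ℝ) + 1) * (Nat.centralBinom m : ℝ)) ^ 2 * (2 * m + 3) =
          (4 * ((2 * (m : ℝ) + 1) * (2 * m + 3))) *
            ((Nat.centralBinom m : ℝ) ^ 2 * (2 * m + 1)) := by ring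
      have e3 : ((m : ℝ) + 1) ^ 2 * ((4 : ℝ) ^ (m + 1)) ^ 2 =
          (16 * ((m : ℝ) + 1) ^ 2) * ((4 : ℝ) ^ m) ^ 2 := by ring
      rw [e2, e3]
      have e4 : 4 * ((2 * (m : ℝ) + 1) * (2 * m + 3)) ≤ 16 * ((m : ℝ) + 1) ^ 2 := by
        nlinarith
      have e5 : 0 ≤ (Nat.centralBinom m : ℝ) ^ 2 * (2 * m + 1) := by positivity
      exact mul_le_mul e4 ih e5 (by positivity)
    have e6 : (((m : ℝ) + 1) * (Nat.centralBinom (m + 1) : ℝ)) ^ 2 * (2 * m + 3) =
        ((m : ℝ) + 1) ^ 2 * ((Nat.centralBinom (m + 1) : ℝ) ^ 2 * (2 * m + 3)) := by ring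
    rw [e6] at e1
    have e7 := le_of_mul_le_mul_left e1 (by positivity)
    push_cast
    have e8 : 2 * ((m : ℝ) + 1) + 1 = 2 * m + 3 := by ring
    rw [e8]
    exact e7

/-- the lower bound for the central binomial coefficient -/
theorem cb_lower (m : ℕ) (hm1 : 1 ≤ m) :
    ((4 : ℝ) ^ m) ^ 2 ≤ 4 * m * (Nat.centralBinom m : ℝ) ^ 2 := by
  induction m, hm1 using Nat.le_induction with
  | base =>
    have : Nat.centralBinom 1 = 2 := by decide
    rw [this]
    norm_num
  | succ m hm1 ih =>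
    have h := Nat.succ_mul_centralBinom_succ m
    have h' : ((m : ℝ) + 1) * (Nat.centralBinom (m + 1) : ℝ) =
        2 * (2 * m + 1) * (Nat.centralBinom m : ℝ) := by
      exact_mod_cast h
    have hm : (0 : ℝ) ≤ m := Nat.cast_nonneg m
    have hp : (0 : ℝ) < (m : ℝ) + 1 := by linarith
    have e1 : ((m : ℝ) + 1) * ((4 : ℝ) ^ (m + 1)) ^ 2 ≤
        4 * (((m : ℝ) + 1) * (Nat.centralBinom (m + 1) : ℝ)) ^ 2 := by
      rw [h']
      have e2 : 4 * (2 * (2 * (m : ℝ) + 1) * (Nat.centralBinom m : ℝ)) ^ 2 =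
          (16 * (2 * (m : ℝ) + 1) ^ 2) * (Nat.centralBinom m : ℝ) ^ 2 := by ring
      have e3 : ((m : ℝ) + 1) * ((4 : ℝ) ^ (m + 1)) ^ 2 =
          (16 * ((m : ℝ) + 1)) * ((4 : ℝ) ^ m) ^ 2 := by ring
      rw [e2, e3]
      calc (16 * ((m : ℝ) + 1)) * ((4 : ℝ) ^ m) ^ 2
          ≤ (16 * ((m : ℝ) + 1)) * (4 * m * (Nat.centralBinom m : ℝ) ^ 2) :=
            mul_le_mul_of_nonneg_left ih (by positivity)
        _ = (16 * (4 * (m : ℝ) * (m + 1))) * (Nat.centralBinom m : ℝ) ^ 2 := by ring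
        _ ≤ (16 * (2 * (m : ℝ) + 1) ^ 2) * (Nat.centralBinom m : ℝ) ^ 2 := by
            refine mul_le_mul_of_nonneg_right ?_ (by positivity)
            nlinarith
    have e6 : 4 * (((m : ℝ) + 1) * (Nat.centralBinom (m + 1) : ℝ)) ^ 2 =
        ((m : ℝ) + 1) * (4 * ((m : ℝ) + 1) * (Nat.centralBinom (m + 1) : ℝ) ^ 2) := by ring
    rw [e6] at e1
    have e7 := le_of_mul_le_mul_left e1 hp
    push_cast
    exact e7

theorem choose_le (K : ℕ) (hK : 1 ≤ K) :
    (((4 * K).choose (2 * K) : ℕ) : ℝ) ≤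
      2 * Real.sqrt K * (((2 * K).choose K : ℕ) : ℝ) ^ 2 := by
  have h1 := cb_upper (2 * K)
  have h2 := cb_lower K hK
  have e1 : (4 * K).choose (2 * K) = Nat.centralBinom (2 * K) := by
    unfold Nat.centralBinom
    congr 1
    ring
  have e2 : (2 * K).choose K = Nat.centralBinom K := rfl
  rw [e1, e2]
  set x : ℝ := (Nat.centralBinom (2 * K) : ℝ) with hx
  set y : ℝ := (Nat.centralBinom K : ℝ) with hy
  have hKr : (1 : ℝ) ≤ (K : ℝ) := by exact_mod_cast hK
  have hx0 : 0 ≤ x := Nat.cast_nonneg _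
  have hy0 : 0 ≤ y := Nat.cast_nonneg _
  have hs : Real.sqrt (K : ℝ) ^ 2 = K := Real.sq_sqrt (by linarith)
  have hs0 : 0 ≤ Real.sqrt (K : ℝ) := Real.sqrt_nonneg _
  push_cast at h1
  -- x^2 (4K+1) ≤ (16^K)^2 , (4^K)^2 ≤ 4 K y^2
  have e3 : ((4 : ℝ) ^ (2 * K)) ^ 2 = (((4 : ℝ) ^ K) ^ 2) ^ 2 := by
    rw [← pow_mul, ← pow_mul, ← pow_mul]
    congr 1
    ring
  rw [e3] at h1
  have h3 : (((4 : ℝ) ^ K) ^ 2) ^ 2 ≤ (4 * K * y ^ 2) ^ 2 :=
    pow_le_pow_left₀ (by positivity) h2 2
  have h4 : x ^ 2 * (4 * K) ≤ (4 * K * y ^ 2) ^ 2 := by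
    have : x ^ 2 * (4 * K) ≤ x ^ 2 * (2 * (2 * K) + 1) := by
      refine mul_le_mul_of_nonneg_left ?_ (by positivity)
      linarith
    linarith
  have h5 : (4 * (K : ℝ)) * x ^ 2 ≤ (4 * (K : ℝ)) * (2 * Real.sqrt K * y ^ 2) ^ 2 := by
    have e4 : (4 * (K : ℝ)) * (2 * Real.sqrt K * y ^ 2) ^ 2 =
        (4 * (K : ℝ)) * (4 * Real.sqrt (K : ℝ) ^ 2 * (y ^ 2) ^ 2) := by ring
    rw [e4, hs]
    calc (4 * (K : ℝ)) * x ^ 2 = x ^ 2 * (4 * K) := by ring
      _ ≤ (4 * K * y ^ 2) ^ 2 := h4
      _ = (4 * (K : ℝ)) * (4 * (K : ℝ) * (y ^ 2) ^ 2) := by ring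
  have h6 : x ^ 2 ≤ (2 * Real.sqrt K * y ^ 2) ^ 2 :=
    le_of_mul_le_mul_left h5 (by linarith)
  exact (pow_le_pow_iff_left₀ hx0 (by positivity) (by norm_num)).1 h6

theorem bound1 (K : ℕ) (hK : 1 ≤ K) (hι : Fintype.card ι = 4 * K) :
    ((Om ι).card : ℝ) ^ 2 ≤ 2 * Real.sqrt K * (Om2 ι).card := by
  rw [card_Om2 K hι, card_Om K hι]
  have h := choose_le K hK
  push_cast
  have h0 : (0 : ℝ) ≤ ((4 * K).choose (2 * K) : ℝ) := Nat.cast_nonneg _
  calc (((4 * K).choose (2 * K) : ℕ) : ℝ) ^ 2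
      = (((4 * K).choose (2 * K) : ℕ) : ℝ) * (((4 * K).choose (2 * K) : ℕ) : ℝ) := by ring
    _ ≤ (((4 * K).choose (2 * K) : ℕ) : ℝ) *
        (2 * Real.sqrt K * (((2 * K).choose K : ℕ) : ℝ) ^ 2) :=
        mul_le_mul_of_nonneg_left h h0
    _ = _ := by ring

theorem bound2 (K : ℕ) (hK : 1 ≤ K) (hι : Fintype.card ι = 4 * K) :
    (2 : ℝ) ^ (4 * K) ≤ 3 * Real.sqrt K * (Om ι).card := by
  rw [card_Om K hι]
  have h2 := cb_lower (2 * K) (by omega)
  have e1 : (4 * K).choose (2 * K) = Nat.centralBinom (2 * K) := by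
    unfold Nat.centralBinom
    congr 1
    ring
  rw [e1]
  set x : ℝ := (Nat.centralBinom (2 * K) : ℝ) with hx
  have hKr : (1 : ℝ) ≤ (K : ℝ) := by exact_mod_cast hK
  have hx0 : 0 ≤ x := Nat.cast_nonneg _
  have hs : Real.sqrt (K : ℝ) ^ 2 = K := Real.sq_sqrt (by linarith)
  have hs0 : 0 ≤ Real.sqrt (K : ℝ) := Real.sqrt_nonneg _
  push_cast at h2
  have e2 : (2 : ℝ) ^ (4 * K) = (4 : ℝ) ^ (2 * K) := by
    have : (4 : ℝ) = 2 ^ 2 := by norm_num
    rw [this, ← pow_mul]
    congr 1
    ring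
  rw [e2]
  have h3 : ((4 : ℝ) ^ (2 * K)) ^ 2 ≤ (3 * Real.sqrt K * x) ^ 2 := by
    have e4 : (3 * Real.sqrt K * x) ^ 2 = 9 * Real.sqrt (K : ℝ) ^ 2 * x ^ 2 := by ring
    rw [e4, hs]
    calc ((4 : ℝ) ^ (2 * K)) ^ 2 ≤ 4 * (2 * K) * x ^ 2 := h2
      _ ≤ 9 * K * x ^ 2 := by
        refine mul_le_mul_of_nonneg_right ?_ (by positivity)
        linarith
  exact (pow_le_pow_iff_left₀ (by positivity) (by positivity) (by norm_num)).1 h3

end C

end Vale.Agent.P162
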