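import Vale.Agent.P162.Defs

/-!
# P162, module E: Walsh expansion of the kernel, Parseval
-/

namespace Vale.Agent.P162

open Finset

section E
variable {ι : Type} [Fintype ι] [DecidableEq ι]

theorem sz_sq (b : Bool) : (sz b : ℝ) * (sz b : ℝ) = 1 := by
  cases b <;> simp [sz]

theorem sz_ne (b c : Bool) (h : b ≠ c) : (sz b : ℝ) * (sz c : ℝ) = -1 := by
  cases b <;> cases c <;> simp_all [sz]

theorem hat_mul (a : (ι → Bool) → ℝ) (S : Finset ι) :
    ∑ s, a s * walsh S s = 2 ^ Fintype.card ι * hat a S := by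
  unfold hat
  rw [mul_div_cancel₀]
  positivity

theorem walsh_orth (s t : ι → Bool) :
    ∑ S : Finset ι, walsh S s * walsh S t = if s = t then (2 : ℝ) ^ Fintype.card ι else 0 := by
  have h1 : ∏ x : ι, (1 + (sz (s x) : ℝ) * (sz (t x) : ℝ)) =
      ∑ S : Finset ι, walsh S s * walsh S t := by
    rw [Finset.prod_one_add, Finset.powerset_univ]
    refine Finset.sum_congr rfl fun S _ => ?_
    unfold walsh
    rw [Finset.prod_mul_distrib]
  rw [← h1]
  split_ifs with h
  · subst h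
    rw [Finset.prod_congr rfl (fun x _ => by rw [sz_sq])]
    rw [Finset.prod_const, Finset.card_univ]
    norm_num
  · obtain ⟨x, hx⟩ := Function.ne_iff.1 h
    refine Finset.prod_eq_zero (Finset.mem_univ x) ?_
    rw [sz_ne _ _ hx]; norm_num

theorem parseval (a : (ι → Bool) → ℝ) :
    ∑ S : Finset ι, hat a S ^ 2 = (∑ s, a s ^ 2) / 2 ^ Fintype.card ι := by
  have h2 : (0 : ℝ) < 2 ^ Fintype.card ι := by positivity
  have h1 : ∑ S : Finset ι, (∑ s, a s * walsh S s) ^ 2 =
      2 ^ Fintype.card ι * ∑ s, a s ^ 2 := by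
    have e1 : ∀ S : Finset ι, (∑ s, a s * walsh S s) ^ 2 =
        ∑ s, ∑ t, a s * a t * (walsh S s * walsh S t) := by
      intro S
      rw [sq, Finset.sum_mul_sum]
      refine Finset.sum_congr rfl fun s _ => Finset.sum_congr rfl fun t _ => by ring
    rw [Finset.sum_congr rfl (fun S _ => e1 S), Finset.sum_comm, Finset.mul_sum]
    refine Finset.sum_congr rfl fun s _ => ?_
    rw [Finset.sum_comm]
    have e2 : ∀ t, ∑ S : Finset ι, a s * a t * (walsh S s * walsh S t) =
        if s = t then a s * a t * 2 ^ Fintype.card ι else 0 := by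
      intro t
      rw [← Finset.mul_sum, walsh_orth]
      split_ifs <;> simp
    rw [Finset.sum_congr rfl (fun t _ => e2 t), Finset.sum_ite_eq]
    simp only [Finset.mem_univ, if_true]
    ring
  have h3 : ∑ S : Finset ι, (∑ s, a s * walsh S s) ^ 2 =
      (2 ^ Fintype.card ι) ^ 2 * ∑ S : Finset ι, hat a S ^ 2 := by
    rw [Finset.mul_sum]
    refine Finset.sum_congr rfl fun S _ => ?_
    rw [hat_mul]; ring
  rw [h3] at h1
  rw [eq_div_iff h2.ne']
  have h4 : (2 : ℝ) ^ Fintype.card ι * ((∑ S : Finset ι, hat a S ^ 2) * 2 ^ Fintype.card ι) =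
      2 ^ Fintype.card ι * ∑ s, a s ^ 2 := by
    rw [← h1]; ring
  exact mul_left_cancel₀ h2.ne' h4

theorem exp_expand (φ : ℝ) (s t : ι → Bool) :
    Complex.exp ((φ * (ip s t : ℝ) : ℝ) * Complex.I) =
      ∑ S : Finset ι, ((Real.cos φ : ℂ) ^ (Fintype.card ι - S.card) *
        ((Real.sin φ : ℂ) * Complex.I) ^ S.card) * ((walsh S s * walsh S t : ℝ) : ℂ) := by
  have h1 : ((φ * (ip s t : ℝ) : ℝ) : ℂ) * Complex.I =
      ∑ x : ι, ((φ * ((sz (s x) : ℝ) * (sz (t x) : ℝ)) : ℝ) : ℂ) * Complex.I := by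
    unfold ip
    push_cast
    rw [Finset.mul_sum, Finset.sum_mul]
  have h2 : ∀ x : ι, Complex.exp (((φ * ((sz (s x) : ℝ) * (sz (t x) : ℝ)) : ℝ) : ℂ) *
      Complex.I) = ((Real.sin φ : ℂ) * Complex.I) * (((sz (s x) : ℝ) * (sz (t x) : ℝ) : ℝ) : ℂ) +
        (Real.cos φ : ℂ) := by
    intro x
    have h3 : (sz (s x) : ℝ) * (sz (t x) : ℝ) = 1 ∨ (sz (s x) : ℝ) * (sz (t x) : ℝ) = -1 := by
      by_cases h : s x = t x
      · left; rw [h]; exact sz_sq _
      · right; exact sz_ne _ _ h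
    rw [Complex.exp_mul_I]
    rcases h3 with h | h
    · rw [h]; push_cast; rw [mul_one]; ring
    · rw [h]; push_cast
      rw [show (φ : ℂ) * (-1) = -φ by ring, Complex.cos_neg, Complex.sin_neg]; ring
  rw [h1, Complex.exp_sum, Finset.prod_congr rfl (fun x _ => h2 x), Finset.prod_add,
    Finset.powerset_univ]
  refine Finset.sum_congr rfl fun S _ => ?_
  rw [Finset.prod_mul_distrib, Finset.prod_const, Finset.prod_const,
    Finset.card_sdiff_of_subset (Finset.subset_univ S), Finset.card_univ]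
  have h4 : ∏ x ∈ S, (((sz (s x) : ℝ) * (sz (t x) : ℝ) : ℝ) : ℂ) =
      ((walsh S s * walsh S t : ℝ) : ℂ) := by
    unfold walsh
    rw [← Finset.prod_mul_distrib]
    push_cast
    rfl
  rw [h4]
  ring

theorem expand (φ : ℝ) (a b : (ι → Bool) → ℝ) :
    |∑ s, ∑ t, a s * b t * Real.cos (φ * (ip s t : ℝ))| ≤
      4 ^ Fintype.card ι * ∑ S : Finset ι,
        |Real.cos φ| ^ (Fintype.card ι - S.card) * |Real.sin φ| ^ S.card *
          (|hat a S| * |hat b S|) := by
  set Z : ℂ := ∑ s, ∑ t, ((a s * b t : ℝ) : ℂ) *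
    Complex.exp ((φ * (ip s t : ℝ) : ℝ) * Complex.I) with hZ
  have h1 : (∑ s, ∑ t, a s * b t * Real.cos (φ * (ip s t : ℝ))) = Z.re := by
    rw [hZ, Complex.re_sum]
    refine Finset.sum_congr rfl fun s _ => ?_
    rw [Complex.re_sum]
    refine Finset.sum_congr rfl fun t _ => ?_
    rw [Complex.re_ofReal_mul, Complex.exp_ofReal_mul_I_re]
  have h2 : Z = ∑ S : Finset ι, ((Real.cos φ : ℂ) ^ (Fintype.card ι - S.card) *
        ((Real.sin φ : ℂ) * Complex.I) ^ S.card) *
        (((2 ^ Fintype.card ι * hat a S) * (2 ^ Fintype.card ι * hat b S) : ℝ) : ℂ) := by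
    have e1 : ∀ s t : ι → Bool, ((a s * b t : ℝ) : ℂ) *
        Complex.exp ((φ * (ip s t : ℝ) : ℝ) * Complex.I) =
        ∑ S : Finset ι, ((Real.cos φ : ℂ) ^ (Fintype.card ι - S.card) *
        ((Real.sin φ : ℂ) * Complex.I) ^ S.card) *
          (((a s * walsh S s) * (b t * walsh S t) : ℝ) : ℂ) := by
      intro s t
      rw [exp_expand, Finset.mul_sum]
      refine Finset.sum_congr rfl fun S _ => ?_
      push_cast
      ring
    rw [hZ, Finset.sum_congr rfl (fun s _ => Finset.sum_congr rfl (fun t _ => e1 s t))]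
    rw [Finset.sum_congr rfl (fun s _ => Finset.sum_comm), Finset.sum_comm]
    refine Finset.sum_congr rfl fun S _ => ?_
    rw [← hat_mul, ← hat_mul, Finset.sum_mul_sum]
    push_cast
    rw [Finset.mul_sum]
    refine Finset.sum_congr rfl fun s _ => ?_
    rw [Finset.mul_sum]
  rw [h1]
  refine (Complex.abs_re_le_norm Z).trans ?_
  rw [h2, Finset.mul_sum]
  refine (norm_sum_le _ _).trans (Finset.sum_le_sum fun S _ => ?_)
  rw [norm_mul, norm_mul, norm_pow, norm_pow, norm_mul, Complex.norm_I, mul_one,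
    Complex.norm_real, Complex.norm_real, Complex.norm_real, Real.norm_eq_abs, Real.norm_eq_abs,
    Real.norm_eq_abs, abs_mul, abs_mul, abs_mul, abs_of_pos (by positivity :
      (0 : ℝ) < 2 ^ Fintype.card ι)]
  have h4 : (4 : ℝ) ^ Fintype.card ι = 2 ^ Fintype.card ι * 2 ^ Fintype.card ι := by
    rw [← mul_pow]; norm_num
  rw [h4]
  apply le_of_eq
  ring

end E

end Vale.Agent.P162
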