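import Vale.Agent.P162.Defs

/-!
# P162 : module I, inversion
-/

namespace Vale.Agent.P162

open Finset

variable {ι : Type} [Fintype ι] [DecidableEq ι]

theorem inversion (m : ℤ) (hm : (4 : ℤ) ∣ m) :
    (2 / Real.pi) * ∫ φ in (-(Real.pi / 4))..(Real.pi / 4), Real.cos (φ * (m : ℝ)) =
      if m = 0 then 1 else 0 := by
  have hpi := Real.pi_pos
  by_cases h : m = 0
  · subst h
    simp only [Int.cast_zero, mul_zero, Real.cos_zero, if_true]
    rw [intervalIntegral.integral_const]
    simp only [smul_eq_mul, mul_one]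
    field_simp
    ring
  · rw [if_neg h]
    have hm0 : (m : ℝ) ≠ 0 := by exact_mod_cast h
    have hd : ∀ x ∈ Set.uIcc (-(Real.pi / 4)) (Real.pi / 4),
        HasDerivAt (fun φ : ℝ => Real.sin (φ * m) / m) (Real.cos (x * m)) x := by
      intro x _
      have h1 : HasDerivAt (fun φ : ℝ => φ * (m : ℝ)) m x := by
        simpa using (hasDerivAt_id x).mul_const (m : ℝ)
      have h2 := (h1.sin).div_const (m : ℝ)
      have e : Real.cos (x * m) * m / m = Real.cos (x * m) := by field_simp
      rwa [e] at h2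
    rw [intervalIntegral.integral_eq_sub_of_hasDerivAt hd]
    · obtain ⟨k, rfl⟩ := hm
      have e1 : Real.sin (Real.pi / 4 * ((4 * k : ℤ) : ℝ)) = 0 := by
        have : Real.pi / 4 * ((4 * k : ℤ) : ℝ) = k * Real.pi := by push_cast; ring
        rw [this, Real.sin_int_mul_pi]
      have e2 : Real.sin (-(Real.pi / 4) * ((4 * k : ℤ) : ℝ)) = 0 := by
        have : -(Real.pi / 4) * ((4 * k : ℤ) : ℝ) = -(Real.pi / 4 * ((4 * k : ℤ) : ℝ)) := by ring
        rw [this, Real.sin_neg, e1, neg_zero]
      rw [e1, e2]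
      simp
    · apply Continuous.intervalIntegrable
      fun_prop

theorem ip_dvd (K : ℕ) (hι : Fintype.card ι = 4 * K) (s t : ι → Bool) (hs : tot s = 0)
    (ht : tot t = 0) : (4 : ℤ) ∣ ip s t := by
  have h1 : ∑ x, (1 + sz (s x)) * (1 + sz (t x)) = 4 * (K : ℤ) + ip s t := by
    have : ∀ x, (1 + sz (s x)) * (1 + sz (t x)) =
        1 + sz (s x) + sz (t x) + sz (s x) * sz (t x) := fun x => by ring
    simp only [this, sum_add_distrib]
    unfold tot at hs ht
    unfold ip
    rw [hs, ht]
    simp only [sum_const, card_univ, hι]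
    push_cast
    simp
  have h2 : (4 : ℤ) ∣ ∑ x, (1 + sz (s x)) * (1 + sz (t x)) := by
    refine dvd_sum fun x _ => ?_
    unfold sz
    cases s x <;> cases t x <;> simp
  rw [h1] at h2
  exact (dvd_add_right (Dvd.intro _ rfl)).1 h2

theorem form_integral (K : ℕ) (hι : Fintype.card ι = 4 * K) (a b : (ι → Bool) → ℝ) :
    ∑ q ∈ Om2 ι, a q.1 * b q.2 =
      (2 / Real.pi) * ∫ φ in (-(Real.pi / 4))..(Real.pi / 4), form φ a b := by
  unfold form
  rw [intervalIntegral.integral_finsetSum]
  · have e : ∀ s ∈ Om ι, ∫ φ in (-(Real.pi / 4))..(Real.pi / 4),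
        ∑ t ∈ Om ι, a s * b t * Real.cos (φ * (ip s t : ℝ)) =
        ∑ t ∈ Om ι, a s * b t * ∫ φ in (-(Real.pi / 4))..(Real.pi / 4),
          Real.cos (φ * (ip s t : ℝ)) := by
      intro s _
      rw [intervalIntegral.integral_finsetSum]
      · refine sum_congr rfl fun t _ => ?_
        rw [intervalIntegral.integral_const_mul]
      · intro t _
        apply Continuous.intervalIntegrable
        fun_prop
    rw [sum_congr rfl e, mul_sum]
    have e2 : ∀ s ∈ Om ι, (2 / Real.pi) * ∑ t ∈ Om ι, a s * b t *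
        ∫ φ in (-(Real.pi / 4))..(Real.pi / 4), Real.cos (φ * (ip s t : ℝ)) =
        ∑ t ∈ Om ι, if ip s t = 0 then a s * b t else 0 := by
      intro s hs
      rw [mul_sum]
      refine sum_congr rfl fun t ht => ?_
      have h0 := inversion (ip s t) (ip_dvd K hι s t (mem_filter.1 hs).2 (mem_filter.1 ht).2)
      rw [mul_left_comm, h0]
      split_ifs <;> simp
    rw [sum_congr rfl e2, ← sum_product']
    rw [← sum_filter]
    refine sum_congr ?_ fun _ _ => rfl
    ext q
    simp only [Om2, Om, mem_filter, mem_univ, true_and, mem_product]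
    tauto
  · intro s _
    apply Continuous.intervalIntegrable
    fun_prop

theorem int_cos_sin (K : ℕ) (hK : 1 ≤ K) :
    ∫ φ in (-(Real.pi / 4))..(Real.pi / 4), Real.cos φ ^ (4 * K - 1) * |Real.sin φ| ≤
      1 / (2 * K) := by
  have hpi := Real.pi_pos
  have hK0 : (0 : ℝ) < K := by exact_mod_cast hK
  have hcont : Continuous fun φ : ℝ => Real.cos φ ^ (4 * K - 1) * |Real.sin φ| := by fun_prop
  have hd : ∀ x : ℝ, HasDerivAt (fun φ : ℝ => Real.cos φ ^ (4 * K) / (4 * K))
      (-(Real.cos x ^ (4 * K - 1) * Real.sin x)) x := by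
    intro x
    have h1 := ((Real.hasDerivAt_cos x).pow (4 * K)).div_const (4 * (K : ℝ))
    have e : ((4 * K : ℕ) : ℝ) * Real.cos x ^ (4 * K - 1) * -Real.sin x / (4 * (K : ℝ)) =
        -(Real.cos x ^ (4 * K - 1) * Real.sin x) := by
      push_cast
      field_simp
    rwa [e] at h1
  rw [← intervalIntegral.integral_add_adjacent_intervals (b := 0)
    (hcont.intervalIntegrable _ _) (hcont.intervalIntegrable _ _)]
  have i1 : ∫ φ in (-(Real.pi / 4))..0, Real.cos φ ^ (4 * K - 1) * |Real.sin φ| =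
      Real.cos 0 ^ (4 * K) / (4 * K) - Real.cos (-(Real.pi / 4)) ^ (4 * K) / (4 * K) := by
    rw [← intervalIntegral.integral_eq_sub_of_hasDerivAt (f := fun φ : ℝ =>
      Real.cos φ ^ (4 * K) / (4 * K)) (fun x _ => hd x)
      (Continuous.intervalIntegrable (by fun_prop) _ _)]
    refine intervalIntegral.integral_congr fun x hx => ?_
    rw [Set.uIcc_of_le (by linarith)] at hx
    have : Real.sin x ≤ 0 := Real.sin_nonpos_of_nonpos_of_neg_pi_le hx.2 (by linarith [hx.1])
    simp only [abs_of_nonpos this]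
    ring
  have i2 : ∫ φ in (0)..(Real.pi / 4), Real.cos φ ^ (4 * K - 1) * |Real.sin φ| =
      Real.cos 0 ^ (4 * K) / (4 * K) - Real.cos (Real.pi / 4) ^ (4 * K) / (4 * K) := by
    have := intervalIntegral.integral_eq_sub_of_hasDerivAt (a := 0) (b := Real.pi / 4)
      (f := fun φ : ℝ => Real.cos φ ^ (4 * K) / (4 * K)) (fun x _ => hd x)
      (Continuous.intervalIntegrable (by fun_prop) _ _)
    have e : ∫ φ in (0)..(Real.pi / 4), Real.cos φ ^ (4 * K - 1) * |Real.sin φ| =
        -∫ φ in (0)..(Real.pi / 4), -(Real.cos φ ^ (4 * K - 1) * Real.sin φ) := by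
      rw [← intervalIntegral.integral_neg]
      refine intervalIntegral.integral_congr fun x hx => ?_
      rw [Set.uIcc_of_le (by linarith)] at hx
      have : 0 ≤ Real.sin x := Real.sin_nonneg_of_nonneg_of_le_pi hx.1 (by linarith [hx.2])
      simp only [abs_of_nonneg this]
      ring
    rw [e, this]
    ring
  rw [i1, i2, Real.cos_neg, Real.cos_zero, one_pow]
  have h0 : 0 ≤ Real.cos (Real.pi / 4) ^ (4 * K) / (4 * K) := by
    have : 0 ≤ Real.cos (Real.pi / 4) := Real.cos_nonneg_of_mem_Icc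
      ⟨by linarith, by linarith⟩
    positivity
  have : (1 : ℝ) / (2 * K) = 1 / (4 * K) + 1 / (4 * K) := by field_simp; norm_num
  rw [this]
  linarith

end Vale.Agent.P162
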