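import Vale.Agent.P162.Bonami
import Vale.Agent.P162.Expand
import Vale.Agent.P162.Count
import Vale.Agent.P162.Inv

/-!
# P162 : module F, the Fourier estimate
-/

namespace Vale.Agent.P162

open Finset

variable {ι : Type} [Fintype ι] [DecidableEq ι]

namespace FourierAux

/-- restriction to the slice -/
noncomputable def res (a : (ι → Bool) → ℝ) (s : ι → Bool) : ℝ := if tot s = 0 then a s else 0

theorem sum_res (a : (ι → Bool) → ℝ) (g : (ι → Bool) → ℝ) :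
    ∑ s, res a s * g s = ∑ s ∈ Om ι, a s * g s := by
  unfold res Om
  rw [sum_filter]
  refine sum_congr rfl fun s _ => ?_
  split_ifs <;> simp

theorem form_res (φ : ℝ) (a b : (ι → Bool) → ℝ) :
    form φ a b = ∑ s, ∑ t, res a s * res b t * Real.cos (φ * (ip s t : ℝ)) := by
  unfold form
  have h1 : ∀ s, ∑ t, res a s * res b t * Real.cos (φ * (ip s t : ℝ)) =
      res a s * ∑ t ∈ Om ι, b t * Real.cos (φ * (ip s t : ℝ)) := by
    intro s
    rw [← sum_res, mul_sum]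
    exact sum_congr rfl fun t _ => by ring
  rw [sum_congr rfl fun s _ => h1 s, sum_res]
  refine sum_congr rfl fun s _ => ?_
  rw [mul_sum]
  exact sum_congr rfl fun t _ => by ring

theorem sum_res_pow (a : (ι → Bool) → ℝ) {p : ℝ} (hp : 0 < p) :
    ∑ s, |res a s| ^ p = ∑ s ∈ Om ι, |a s| ^ p := by
  unfold res Om
  rw [sum_filter]
  refine sum_congr rfl fun s _ => ?_
  split_ifs
  · rfl
  · rw [abs_zero, Real.zero_rpow hp.ne']

theorem sum_res_sq (a : (ι → Bool) → ℝ) :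
    ∑ s, res a s ^ 2 = ∑ s ∈ Om ι, a s ^ 2 := by
  unfold res Om
  rw [sum_filter]
  refine sum_congr rfl fun s _ => ?_
  split_ifs
  · rfl
  · simp

/-- Cauchy-Schwarz -/
theorem cs_sum {κ : Type} (T : Finset κ) (w x y : κ → ℝ) (hw : ∀ i, 0 ≤ w i) {A B : ℝ}
    (hA : 0 ≤ A) (hB : 0 ≤ B)
    (hx : ∑ i ∈ T, w i * x i ^ 2 ≤ A ^ 2) (hy : ∑ i ∈ T, w i * y i ^ 2 ≤ B ^ 2) :
    ∑ i ∈ T, w i * (|x i| * |y i|) ≤ A * B := by
  have h := Finset.sum_mul_sq_le_sq_mul_sq T (fun i => Real.sqrt (w i) * |x i|)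
    (fun i => Real.sqrt (w i) * |y i|)
  have e1 : ∀ i, Real.sqrt (w i) * |x i| * (Real.sqrt (w i) * |y i|) = w i * (|x i| * |y i|) := by
    intro i
    have := Real.mul_self_sqrt (hw i)
    calc Real.sqrt (w i) * |x i| * (Real.sqrt (w i) * |y i|)
        = (Real.sqrt (w i) * Real.sqrt (w i)) * (|x i| * |y i|) := by ring
      _ = _ := by rw [this]
  have e2 : ∀ (z : κ → ℝ) i, (Real.sqrt (w i) * |z i|) ^ 2 = w i * z i ^ 2 := by
    intro z i
    rw [mul_pow, Real.sq_sqrt (hw i), sq_abs]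
  simp only [e1, e2] at h
  have h0 : 0 ≤ ∑ i ∈ T, w i * (|x i| * |y i|) :=
    sum_nonneg fun i _ => mul_nonneg (hw i) (by positivity)
  have h1 : (∑ i ∈ T, w i * x i ^ 2) * (∑ i ∈ T, w i * y i ^ 2) ≤ A ^ 2 * B ^ 2 :=
    mul_le_mul hx hy (sum_nonneg fun i _ => mul_nonneg (hw i) (sq_nonneg _)) (sq_nonneg _)
  have h2 : (∑ i ∈ T, w i * (|x i| * |y i|)) ^ 2 ≤ (A * B) ^ 2 := by
    rw [mul_pow]; exact h.trans h1
  exact (pow_le_pow_iff_left₀ h0 (mul_nonneg hA hB) two_ne_zero).1 h2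

theorem nm_nonneg (v : ℝ) (a : (ι → Bool) → ℝ) : 0 ≤ nm v a := by
  unfold nm
  refine Real.rpow_nonneg (div_nonneg (sum_nonneg fun s _ => ?_) (Nat.cast_nonneg _)) _
  exact Real.rpow_nonneg (abs_nonneg _) _

theorem Om_pos (K : ℕ) (hK : 1 ≤ K) (hι : Fintype.card ι = 4 * K) : 0 < ((Om ι).card : ℝ) := by
  have h := bound2 K hK hι
  have h2 : (0 : ℝ) < 2 ^ (4 * K) := by positivity
  have h3 : 0 ≤ 3 * Real.sqrt K := by positivity
  by_contra hneg
  push Not at hneg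
  nlinarith [mul_nonneg h3 (neg_nonneg.2 hneg)]

theorem Om_le (K : ℕ) (hι : Fintype.card ι = 4 * K) : ((Om ι).card : ℝ) ≤ 2 ^ (4 * K) := by
  have h1 : (Om ι).card ≤ 2 ^ (4 * K) := by
    refine (card_le_univ _).trans ?_
    rw [Fintype.card_fun, hι, Fintype.card_bool]
  exact_mod_cast h1

/-- the bonami bound in terms of `nm` -/
theorem bon (K : ℕ) (hK : 1 ≤ K) (hι : Fintype.card ι = 4 * K) (v : ℝ) (hv0 : 0 < v)
    (hv1 : v ≤ 1) (a : (ι → Bool) → ℝ) :
    ∑ S : Finset ι, v ^ S.card * hat (res a) S ^ 2 ≤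
      ((((Om ι).card : ℝ) / 2 ^ (4 * K)) ^ (1 / (1 + v)) * nm v a) ^ 2 := by
  have h := bonami v hv0.le hv1 (res a)
  refine h.trans (le_of_eq ?_)
  have hp : (0 : ℝ) < 1 + v := by linarith
  have hM := Om_pos K hK hι
  rw [sum_res_pow a hp, hι]
  unfold nm
  have hS : 0 ≤ ∑ s ∈ Om ι, |a s| ^ (1 + v) :=
    sum_nonneg fun s _ => Real.rpow_nonneg (abs_nonneg _) _
  rw [← Real.mul_rpow (by positivity) (div_nonneg hS hM.le)]
  rw [← Real.rpow_natCast ((_ : ℝ) ^ (1 / (1 + v))) 2,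
    ← Real.rpow_mul (mul_nonneg (by positivity) (div_nonneg hS hM.le))]
  have e1 : (Om ι).card / 2 ^ (4 * K) * ((∑ s ∈ Om ι, |a s| ^ (1 + v)) / (Om ι).card) =
      (∑ s ∈ Om ι, |a s| ^ (1 + v)) / (2 : ℝ) ^ (4 * K) := by
    field_simp
  have e2 : 1 / (1 + v) * ((2 : ℕ) : ℝ) = 2 / (1 + v) := by push_cast; ring
  rw [e1, e2]

theorem scale (K : ℕ) (hK : 1 ≤ K) (hι : Fintype.card ι = 4 * K) (v : ℝ) (hv0 : 0 < v) :
    (4 : ℝ) ^ (4 * K) * ((((Om ι).card : ℝ) / 2 ^ (4 * K)) ^ (1 / (1 + v))) ^ 2 ≤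
      ((Om ι).card : ℝ) ^ 2 * (9 * K : ℝ) ^ v := by
  have hM := Om_pos K hK hι
  have hle := Om_le (ι := ι) K hι
  have h2 := bound2 K hK hι
  have hK0 : (0 : ℝ) < K := by exact_mod_cast hK
  have hP : (0 : ℝ) < 2 ^ (4 * K) := by positivity
  set M : ℝ := ((Om ι).card : ℝ) with hMdef
  set P : ℝ := (2 : ℝ) ^ (4 * K) with hPdef
  have e4 : (4 : ℝ) ^ (4 * K) = P ^ 2 := by
    rw [hPdef, show (4 : ℝ) = 2 ^ 2 by norm_num, ← pow_mul, ← pow_mul, mul_comm]
  -- `R = P / M ≥ 1`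
  have hR1 : 1 ≤ P / M := (one_le_div hM).2 hle
  have hR0 : 0 < P / M := div_pos hP hM
  have hRle : P / M ≤ 3 * Real.sqrt K := (div_le_iff₀ hM).2 h2
  have e5 : M / P = (P / M)⁻¹ := by rw [inv_div]
  have hexp : P ^ 2 * ((M / P) ^ (1 / (1 + v))) ^ 2 = M ^ 2 * (P / M) ^ (2 * v / (1 + v)) := by
    have hv1' : (0 : ℝ) < 1 + v := by linarith
    have e6 : ((M / P) ^ (1 / (1 + v))) ^ 2 = (P / M) ^ (-(2 / (1 + v))) := by
      rw [e5, ← Real.rpow_natCast, ← Real.rpow_mul (inv_nonneg.2 hR0.le),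
        Real.inv_rpow hR0.le, ← Real.rpow_neg hR0.le]
      congr 1
      push_cast
      ring
    have e7 : P ^ 2 = M ^ 2 * (P / M) ^ (2 : ℝ) := by
      rw [Real.rpow_two, div_pow]
      field_simp
    rw [e6, e7, mul_assoc, ← Real.rpow_add hR0]
    congr 2
    field_simp
    ring
  rw [e4, hexp]
  refine mul_le_mul_of_nonneg_left ?_ (sq_nonneg _)
  have hv1' : (0 : ℝ) < 1 + v := by linarith
  calc (P / M) ^ (2 * v / (1 + v)) ≤ (P / M) ^ (2 * v) := by
        refine Real.rpow_le_rpow_of_exponent_le hR1 ?_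
        rw [div_le_iff₀ hv1']
        nlinarith
    _ ≤ (3 * Real.sqrt K) ^ (2 * v) := Real.rpow_le_rpow hR0.le hRle (by linarith)
    _ = (9 * K : ℝ) ^ v := by
        rw [Real.rpow_mul (by positivity), Real.rpow_two, mul_pow, Real.sq_sqrt hK0.le]
        norm_num

end FourierAux

open FourierAux

theorem main_bd (K : ℕ) (hK : 1 ≤ K) (hι : Fintype.card ι = 4 * K) (v φ : ℝ) (hv0 : 0 < v)
    (hv1 : v ≤ 1) (hφ : |φ| ≤ Real.pi / 4) (ht : |Real.sin φ| ≤ v * Real.cos φ)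
    (a b : (ι → Bool) → ℝ) (ha : ∑ s ∈ Om ι, a s = 0) (hb : ∑ s ∈ Om ι, b s = 0) :
    |form φ a b| ≤ ((Om ι).card : ℝ) ^ 2 * (9 * K : ℝ) ^ v *
      (Real.cos φ ^ (4 * K - 1) * |Real.sin φ| / v) * (nm v a * nm v b) := by
  have hpi := Real.pi_pos
  have hcos : 0 < Real.cos φ := by
    apply Real.cos_pos_of_mem_Ioo
    rw [abs_le] at hφ
    constructor <;> linarith [hφ.1, hφ.2]
  have hcn : 0 ≤ Real.cos φ := hcos.le
  have h0 : hat (res a) ∅ = 0 := by
    unfold hat walsh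
    have : ∑ s, res a s * ∏ x ∈ (∅ : Finset ι), (sz (s x) : ℝ) = 0 := by
      simp only [prod_empty]
      rw [sum_res]
      simpa using ha
    rw [this, zero_div]
  rw [form_res]
  refine (expand φ (res a) (res b)).trans ?_
  rw [hι, abs_of_pos hcos]
  have hterm : ∀ S : Finset ι, Real.cos φ ^ (4 * K - S.card) * |Real.sin φ| ^ S.card *
      (|hat (res a) S| * |hat (res b) S|) ≤
      (Real.cos φ ^ (4 * K - 1) * |Real.sin φ| / v) *
        (v ^ S.card * (|hat (res a) S| * |hat (res b) S|)) := by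
    intro S
    have hprod : 0 ≤ |hat (res a) S| * |hat (res b) S| := by positivity
    by_cases hS : S = ∅
    · subst hS
      rw [h0]
      simp
    · have hc1 : 1 ≤ S.card := Finset.one_le_card.2 (nonempty_iff_ne_empty.2 hS)
      have hc2 : S.card ≤ 4 * K := by rw [← hι]; exact card_le_univ S
      rw [← mul_assoc (Real.cos φ ^ (4 * K - 1) * |Real.sin φ| / v)]
      refine mul_le_mul_of_nonneg_right ?_ hprod
      obtain ⟨j, hj⟩ : ∃ j, S.card = j + 1 := ⟨S.card - 1, by omega⟩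
      rw [hj]
      have hexp : 4 * K - 1 = (4 * K - (j + 1)) + j := by omega
      rw [hexp, pow_add (Real.cos φ), pow_succ |Real.sin φ| j, pow_succ v j]
      have hpw : |Real.sin φ| ^ j ≤ (v * Real.cos φ) ^ j :=
        pow_le_pow_left₀ (abs_nonneg _) ht j
      calc Real.cos φ ^ (4 * K - (j + 1)) * (|Real.sin φ| ^ j * |Real.sin φ|)
          ≤ Real.cos φ ^ (4 * K - (j + 1)) * ((v * Real.cos φ) ^ j * |Real.sin φ|) := by
            gcongr
        _ = Real.cos φ ^ (4 * K - (j + 1)) * Real.cos φ ^ j * |Real.sin φ| / v * (v ^ j * v) := by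
            rw [mul_pow]
            field_simp
  have hCS := cs_sum (univ : Finset (Finset ι)) (fun S => v ^ S.card) (fun S => hat (res a) S)
    (fun S => hat (res b) S) (fun S => by positivity)
    (mul_nonneg (Real.rpow_nonneg (by positivity) _) (nm_nonneg v a))
    (mul_nonneg (Real.rpow_nonneg (by positivity) _) (nm_nonneg v b))
    (bon K hK hι v hv0 hv1 a) (bon K hK hι v hv0 hv1 b)
  have hsc := scale K hK hι v hv0
  set R : ℝ := (((Om ι).card : ℝ) / 2 ^ (4 * K)) ^ (1 / (1 + v)) with hR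
  have hq : 0 ≤ Real.cos φ ^ (4 * K - 1) * |Real.sin φ| / v := by positivity
  have hn : 0 ≤ nm v a * nm v b := mul_nonneg (nm_nonneg v a) (nm_nonneg v b)
  calc (4 : ℝ) ^ (4 * K) * ∑ S : Finset ι, Real.cos φ ^ (4 * K - S.card) *
        |Real.sin φ| ^ S.card * (|hat (res a) S| * |hat (res b) S|)
      ≤ (4 : ℝ) ^ (4 * K) * ∑ S : Finset ι, (Real.cos φ ^ (4 * K - 1) * |Real.sin φ| / v) *
        (v ^ S.card * (|hat (res a) S| * |hat (res b) S|)) := by
        refine mul_le_mul_of_nonneg_left (sum_le_sum fun S _ => hterm S) (by positivity)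
    _ = (4 : ℝ) ^ (4 * K) * ((Real.cos φ ^ (4 * K - 1) * |Real.sin φ| / v) *
        ∑ S : Finset ι, (v ^ S.card * (|hat (res a) S| * |hat (res b) S|))) := by
        rw [← mul_sum]
    _ ≤ (4 : ℝ) ^ (4 * K) * ((Real.cos φ ^ (4 * K - 1) * |Real.sin φ| / v) *
        (R * nm v a * (R * nm v b))) := by
        refine mul_le_mul_of_nonneg_left (mul_le_mul_of_nonneg_left hCS hq) (by positivity)
    _ = ((4 : ℝ) ^ (4 * K) * R ^ 2) * ((Real.cos φ ^ (4 * K - 1) * |Real.sin φ| / v) *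
        (nm v a * nm v b)) := by ring
    _ ≤ (((Om ι).card : ℝ) ^ 2 * (9 * K : ℝ) ^ v) *
        ((Real.cos φ ^ (4 * K - 1) * |Real.sin φ| / v) * (nm v a * nm v b)) :=
        mul_le_mul_of_nonneg_right hsc (mul_nonneg hq hn)
    _ = _ := by ring

namespace FourierAux

/-- the first absolute moment -/
theorem mean_le (K : ℕ) (hK : 1 ≤ K) (hι : Fintype.card ι = 4 * K) (v : ℝ) (hv0 : 0 < v)
    (a : (ι → Bool) → ℝ) : ∑ s ∈ Om ι, |a s| ≤ (Om ι).card * nm v a := by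
  have hM := Om_pos K hK hι
  have h := Real.arith_mean_le_rpow_mean (Om ι) (fun _ => ((Om ι).card : ℝ)⁻¹) (fun s => |a s|)
    (fun _ _ => by positivity) (by rw [sum_const, nsmul_eq_mul, mul_inv_cancel₀ hM.ne'])
    (fun _ _ => abs_nonneg _) (p := 1 + v) (by linarith)
  rw [← mul_sum, ← mul_sum, inv_mul_le_iff₀ hM] at h
  refine h.trans (le_of_eq ?_)
  unfold nm
  rw [div_eq_inv_mul (∑ s ∈ Om ι, |a s| ^ (1 + v))]

theorem sum_pow (K : ℕ) (hK : 1 ≤ K) (hι : Fintype.card ι = 4 * K) (v : ℝ) (hv0 : 0 < v)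
    (a : (ι → Bool) → ℝ) : ∑ s ∈ Om ι, |a s| ^ (1 + v) = (Om ι).card * nm v a ^ (1 + v) := by
  have hM := Om_pos K hK hι
  have hp : (0 : ℝ) < 1 + v := by linarith
  have hS : 0 ≤ ∑ s ∈ Om ι, |a s| ^ (1 + v) :=
    sum_nonneg fun s _ => Real.rpow_nonneg (abs_nonneg _) _
  unfold nm
  rw [← Real.rpow_mul (div_nonneg hS hM.le), one_div, inv_mul_cancel₀ hp.ne', Real.rpow_one]
  field_simp

/-- high part -/
noncomputable def hi (T : ℝ) (a : (ι → Bool) → ℝ) (s : ι → Bool) : ℝ := if |a s| ≤ T then 0 else a s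
/-- low part -/
noncomputable def lo (T : ℝ) (a : (ι → Bool) → ℝ) (s : ι → Bool) : ℝ := if |a s| ≤ T then a s else 0

theorem lo_hi (T : ℝ) (a : (ι → Bool) → ℝ) : (fun s => lo T a s + hi T a s) = a := by
  funext s
  unfold lo hi
  split_ifs <;> simp

theorem abs_lo (T : ℝ) (a : (ι → Bool) → ℝ) (s : ι → Bool) : |lo T a s| ≤ |a s| := by
  unfold lo
  split_ifs <;> simp

theorem hi_bd (K : ℕ) (hK : 1 ≤ K) (hι : Fintype.card ι = 4 * K) (v : ℝ) (hv0 : 0 < v)
    (a : (ι → Bool) → ℝ) (hN : 0 < nm v a) (L : ℝ) (hL : 0 < L) :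
    ∑ s ∈ Om ι, |hi (L * nm v a) a s| ≤ (Om ι).card * nm v a * L ^ (-v) := by
  have hT : 0 < L * nm v a := mul_pos hL hN
  have h1 : ∀ s ∈ Om ι, |hi (L * nm v a) a s| ≤ |a s| ^ (1 + v) * (L * nm v a) ^ (-v) := by
    intro s _
    unfold hi
    split_ifs with h
    · rw [abs_zero]
      exact mul_nonneg (Real.rpow_nonneg (abs_nonneg _) _) (Real.rpow_nonneg hT.le _)
    · push Not at h
      have hs : 0 < |a s| := hT.trans h
      calc |a s| = |a s| ^ (1 + v) * |a s| ^ (-v) := by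
            rw [← Real.rpow_add hs]; simp
        _ ≤ |a s| ^ (1 + v) * (L * nm v a) ^ (-v) := by
            refine mul_le_mul_of_nonneg_left ?_ (Real.rpow_nonneg (abs_nonneg _) _)
            exact Real.rpow_le_rpow_of_nonpos hT h.le (by linarith)
  refine (sum_le_sum h1).trans (le_of_eq ?_)
  rw [← sum_mul, sum_pow K hK hι v hv0 a, Real.mul_rpow hL.le hN.le, Real.rpow_add hN,
    Real.rpow_neg hN.le, Real.rpow_one]
  have : nm v a ^ v ≠ 0 := (Real.rpow_pos_of_pos hN _).ne'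
  field_simp

theorem lo_bd (K : ℕ) (hK : 1 ≤ K) (hι : Fintype.card ι = 4 * K) (v : ℝ) (hv0 : 0 < v)
    (hv1 : v ≤ 1) (a : (ι → Bool) → ℝ) (hN : 0 < nm v a) (L : ℝ) (hL : 1 ≤ L) :
    ∑ s ∈ Om ι, lo (L * nm v a) a s ^ 2 ≤ (Om ι).card * nm v a ^ 2 * L := by
  have hL0 : 0 < L := by linarith
  have hM := Om_pos K hK hι
  have hT : 0 < L * nm v a := mul_pos hL0 hN
  have h1 : ∀ s ∈ Om ι, lo (L * nm v a) a s ^ 2 ≤
      |a s| ^ (1 + v) * (L * nm v a) ^ (1 - v) := by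
    intro s _
    unfold lo
    split_ifs with h
    · by_cases h0 : a s = 0
      · rw [h0]
        have : 0 ≤ |(0 : ℝ)| ^ (1 + v) * (L * nm v a) ^ (1 - v) :=
          mul_nonneg (Real.rpow_nonneg (abs_nonneg _) _) (Real.rpow_nonneg hT.le _)
        simpa using this
      · have hs : 0 < |a s| := abs_pos.2 h0
        calc a s ^ 2 = |a s| ^ (1 + v) * |a s| ^ (1 - v) := by
              rw [← Real.rpow_add hs, ← sq_abs]
              norm_num
          _ ≤ |a s| ^ (1 + v) * (L * nm v a) ^ (1 - v) := by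
              refine mul_le_mul_of_nonneg_left ?_ (Real.rpow_nonneg (abs_nonneg _) _)
              exact Real.rpow_le_rpow hs.le h (by linarith)
    · have : 0 ≤ |a s| ^ (1 + v) * (L * nm v a) ^ (1 - v) :=
          mul_nonneg (Real.rpow_nonneg (abs_nonneg _) _) (Real.rpow_nonneg hT.le _)
      simpa using this
  refine (sum_le_sum h1).trans ?_
  rw [← sum_mul, sum_pow K hK hι v hv0 a, Real.mul_rpow hL0.le hN.le]
  have e : nm v a ^ (1 + v) * nm v a ^ (1 - v) = nm v a ^ 2 := by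
    rw [← Real.rpow_add hN]; norm_num
  have hL' : L ^ (1 - v) ≤ L := by
    calc L ^ (1 - v) ≤ L ^ (1 : ℝ) := Real.rpow_le_rpow_of_exponent_le hL (by linarith)
      _ = L := Real.rpow_one L
  calc ((Om ι).card : ℝ) * nm v a ^ (1 + v) * (L ^ (1 - v) * nm v a ^ (1 - v))
      = (Om ι).card * (nm v a ^ (1 + v) * nm v a ^ (1 - v)) * L ^ (1 - v) := by ring
    _ = (Om ι).card * nm v a ^ 2 * L ^ (1 - v) := by rw [e]
    _ ≤ _ := mul_le_mul_of_nonneg_left hL' (by positivity)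

/-- trivial bound for the form -/
theorem form_triv (φ : ℝ) (a b : (ι → Bool) → ℝ) :
    |form φ a b| ≤ (∑ s ∈ Om ι, |a s|) * ∑ t ∈ Om ι, |b t| := by
  unfold form
  refine (abs_sum_le_sum_abs _ _).trans ?_
  rw [sum_mul]
  refine sum_le_sum fun s _ => ?_
  refine (abs_sum_le_sum_abs _ _).trans ?_
  rw [mul_sum]
  refine sum_le_sum fun t _ => ?_
  rw [abs_mul, abs_mul]
  have := Real.abs_cos_le_one (φ * (ip s t : ℝ))
  calc |a s| * |b t| * |Real.cos (φ * (ip s t : ℝ))| ≤ |a s| * |b t| * 1 :=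
        mul_le_mul_of_nonneg_left this (by positivity)
    _ = _ := mul_one _

theorem form_add_left (φ : ℝ) (a a' b : (ι → Bool) → ℝ) :
    form φ (fun s => a s + a' s) b = form φ a b + form φ a' b := by
  unfold form
  rw [← sum_add_distrib]
  refine sum_congr rfl fun s _ => ?_
  rw [← sum_add_distrib]
  exact sum_congr rfl fun t _ => by ring

theorem form_add_right (φ : ℝ) (a b b' : (ι → Bool) → ℝ) :
    form φ a (fun s => b s + b' s) = form φ a b + form φ a b' := by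
  unfold form
  rw [← sum_add_distrib]
  refine sum_congr rfl fun s _ => ?_
  rw [← sum_add_distrib]
  exact sum_congr rfl fun t _ => by ring

/-- the low part -/
theorem form_low (K : ℕ) (hK : 1 ≤ K) (hι : Fintype.card ι = 4 * K) (φ : ℝ)
    (hcos : 0 ≤ Real.cos φ) (hsc : |Real.sin φ| ≤ Real.cos φ) (a b : (ι → Bool) → ℝ)
    {A B L : ℝ} (hA : 0 ≤ A) (hB : 0 ≤ B) (hL : 0 ≤ L)
    (ha : ∑ s ∈ Om ι, a s ^ 2 ≤ (Om ι).card * A ^ 2 * L)
    (hb : ∑ s ∈ Om ι, b s ^ 2 ≤ (Om ι).card * B ^ 2 * L) :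
    |form φ a b| ≤ ((Om ι).card : ℝ) ^ 2 * (3 * Real.sqrt K * (Real.cos φ ^ (4 * K) * L)) *
      (A * B) := by
  have hM := Om_pos K hK hι
  have h2 := bound2 K hK hι
  rw [form_res]
  refine (expand φ (res a) (res b)).trans ?_
  rw [hι, abs_of_nonneg hcos]
  set M : ℝ := ((Om ι).card : ℝ) with hMdef
  set P : ℝ := (2 : ℝ) ^ (4 * K) with hPdef
  have hP : 0 < P := by positivity
  have e4 : (4 : ℝ) ^ (4 * K) = P ^ 2 := by
    rw [hPdef, show (4 : ℝ) = 2 ^ 2 by norm_num, ← pow_mul, ← pow_mul, mul_comm]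
  have hterm : ∀ S : Finset ι, Real.cos φ ^ (4 * K - S.card) * |Real.sin φ| ^ S.card *
      (|hat (res a) S| * |hat (res b) S|) ≤
      Real.cos φ ^ (4 * K) * (1 * (|hat (res a) S| * |hat (res b) S|)) := by
    intro S
    have hc2 : S.card ≤ 4 * K := by rw [← hι]; exact card_le_univ S
    rw [one_mul]
    refine mul_le_mul_of_nonneg_right ?_ (by positivity)
    calc Real.cos φ ^ (4 * K - S.card) * |Real.sin φ| ^ S.card
        ≤ Real.cos φ ^ (4 * K - S.card) * Real.cos φ ^ S.card := by gcongr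
      _ = Real.cos φ ^ (4 * K) := by rw [← pow_add]; congr 1; omega
  have hx : ∀ (c : (ι → Bool) → ℝ) (C : ℝ), 0 ≤ C →
      ∑ s ∈ Om ι, c s ^ 2 ≤ M * C ^ 2 * L →
      ∑ S : Finset ι, (1 : ℝ) * hat (res c) S ^ 2 ≤ (Real.sqrt (M * L / P) * C) ^ 2 := by
    intro c C _ hc
    simp only [one_mul]
    rw [parseval, sum_res_sq, hι, mul_pow, Real.sq_sqrt (by positivity)]
    rw [div_le_iff₀ hP]
    refine hc.trans (le_of_eq ?_)
    field_simp
  have hCS := cs_sum (univ : Finset (Finset ι)) (fun _ => (1 : ℝ)) (fun S => hat (res a) S)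
    (fun S => hat (res b) S) (fun S => zero_le_one)
    (mul_nonneg (Real.sqrt_nonneg _) hA) (mul_nonneg (Real.sqrt_nonneg _) hB)
    (hx a A hA ha) (hx b B hB hb)
  have hsq : Real.sqrt (M * L / P) * Real.sqrt (M * L / P) = M * L / P :=
    Real.mul_self_sqrt (by positivity)
  calc (4 : ℝ) ^ (4 * K) * ∑ S : Finset ι, Real.cos φ ^ (4 * K - S.card) *
        |Real.sin φ| ^ S.card * (|hat (res a) S| * |hat (res b) S|)
      ≤ (4 : ℝ) ^ (4 * K) * ∑ S : Finset ι, Real.cos φ ^ (4 * K) *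
        (1 * (|hat (res a) S| * |hat (res b) S|)) := by
        refine mul_le_mul_of_nonneg_left (sum_le_sum fun S _ => hterm S) (by positivity)
    _ = (4 : ℝ) ^ (4 * K) * (Real.cos φ ^ (4 * K) *
        ∑ S : Finset ι, (1 * (|hat (res a) S| * |hat (res b) S|))) := by
        rw [← mul_sum]
    _ ≤ (4 : ℝ) ^ (4 * K) * (Real.cos φ ^ (4 * K) *
        (Real.sqrt (M * L / P) * A * (Real.sqrt (M * L / P) * B))) := by
        refine mul_le_mul_of_nonneg_left (mul_le_mul_of_nonneg_left hCS (by positivity))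
          (by positivity)
    _ = P * M * (Real.cos φ ^ (4 * K) * L) * (A * B) := by
        rw [e4]
        calc P ^ 2 * (Real.cos φ ^ (4 * K) *
              (Real.sqrt (M * L / P) * A * (Real.sqrt (M * L / P) * B)))
            = P ^ 2 * (Real.sqrt (M * L / P) * Real.sqrt (M * L / P)) *
              Real.cos φ ^ (4 * K) * (A * B) := by ring
          _ = P ^ 2 * (M * L / P) * Real.cos φ ^ (4 * K) * (A * B) := by rw [hsq]
          _ = _ := by field_simp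
    _ ≤ (3 * Real.sqrt K * M) * M * (Real.cos φ ^ (4 * K) * L) * (A * B) := by
        gcongr
    _ = _ := by ring

theorem cos_pow_le (K : ℕ) (v φ : ℝ) (hv0 : 0 < v) (hv1 : v ≤ 1) (hcos : 0 ≤ Real.cos φ)
    (ht : v * Real.cos φ ≤ |Real.sin φ|) :
    Real.cos φ ^ (4 * K) ≤ Real.exp (-(K * v ^ 2)) := by
  have h1 : v ^ 2 * Real.cos φ ^ 2 ≤ Real.sin φ ^ 2 := by
    rw [← mul_pow, ← sq_abs (Real.sin φ)]
    exact pow_le_pow_left₀ (by positivity) ht 2
  have h2 := Real.sin_sq_add_cos_sq φ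
  have hx : v ^ 2 ≤ 1 := by nlinarith
  have h3 : Real.exp (v ^ 2 / 2) ≤ 1 + v ^ 2 := by
    have h4 := Real.add_one_le_exp (-(v ^ 2 / 2))
    have h5 : 0 < -(v ^ 2 / 2) + 1 := by linarith
    have h6 : Real.exp (v ^ 2 / 2) * Real.exp (-(v ^ 2 / 2)) = 1 := by
      rw [← Real.exp_add]; simp
    have h7 := Real.exp_pos (v ^ 2 / 2)
    have h8 : Real.exp (v ^ 2 / 2) * (-(v ^ 2 / 2) + 1) ≤ 1 :=
      (mul_le_mul_of_nonneg_left h4 h7.le).trans h6.le
    have h9 : 1 ≤ (1 + v ^ 2) * (-(v ^ 2 / 2) + 1) := by nlinarith [sq_nonneg v]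
    by_contra hneg
    push Not at hneg
    have h10 : (1 + v ^ 2) * (-(v ^ 2 / 2) + 1) < Real.exp (v ^ 2 / 2) * (-(v ^ 2 / 2) + 1) :=
      mul_lt_mul_of_pos_right hneg h5
    linarith
  have h4 : Real.cos φ ^ 2 ≤ Real.exp (-(v ^ 2 / 2)) := by
    have h5 : Real.cos φ ^ 2 * (1 + v ^ 2) ≤ 1 := by nlinarith
    have h6 : Real.cos φ ^ 2 * Real.exp (v ^ 2 / 2) ≤ 1 :=
      (mul_le_mul_of_nonneg_left h3 (sq_nonneg _)).trans h5
    rw [Real.exp_neg, ← one_div, le_div_iff₀ (Real.exp_pos _)]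
    exact h6
  calc Real.cos φ ^ (4 * K) = (Real.cos φ ^ 2) ^ (2 * K) := by rw [← pow_mul]; congr 1; ring
    _ ≤ (Real.exp (-(v ^ 2 / 2))) ^ (2 * K) := pow_le_pow_left₀ (sq_nonneg _) h4 _
    _ = Real.exp (-(K * v ^ 2)) := by
        rw [← Real.exp_nat_mul]
        congr 1
        push_cast
        ring

theorem nm_zero (K : ℕ) (hK : 1 ≤ K) (hι : Fintype.card ι = 4 * K) (v : ℝ) (hv0 : 0 < v)
    (a : (ι → Bool) → ℝ) (h : nm v a = 0) : ∑ s ∈ Om ι, |a s| = 0 := by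
  have h1 := mean_le K hK hι v hv0 a
  rw [h, mul_zero] at h1
  exact le_antisymm h1 (sum_nonneg fun _ _ => abs_nonneg _)

end FourierAux

theorem tail_bd (K : ℕ) (hK : 1 ≤ K) (hι : Fintype.card ι = 4 * K) (v φ : ℝ) (hv0 : 0 < v)
    (hv1 : v ≤ 1) (hφ : |φ| ≤ Real.pi / 4) (ht : v * Real.cos φ ≤ |Real.sin φ|)
    (a b : (ι → Bool) → ℝ) :
    |form φ a b| ≤ ((Om ι).card : ℝ) ^ 2 *
      ((2 + 3 * Real.sqrt K) * Real.exp (-(K * v ^ 3 / 2))) * (nm v a * nm v b) := by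
  have hpi := Real.pi_pos
  have hM := Om_pos K hK hι
  have hcos : 0 < Real.cos φ := by
    apply Real.cos_pos_of_mem_Ioo
    rw [abs_le] at hφ
    constructor <;> linarith [hφ.1, hφ.2]
  have hsc : |Real.sin φ| ≤ Real.cos φ := by
    have hc1 : Real.cos (Real.pi / 4) ≤ Real.cos φ := by
      rw [← Real.cos_abs φ]
      exact Real.cos_le_cos_of_nonneg_of_le_pi (abs_nonneg _) (by linarith) hφ
    have hs1 : |Real.sin φ| ≤ Real.sin (Real.pi / 4) := by
      rw [abs_le] at hφ ⊢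
      constructor
      · rw [← Real.sin_neg]
        exact Real.sin_le_sin_of_le_of_le_pi_div_two (by linarith) (by linarith [hφ.2]) hφ.1
      · exact Real.sin_le_sin_of_le_of_le_pi_div_two (by linarith [hφ.1]) (by linarith) hφ.2
    rw [Real.sin_pi_div_four] at hs1
    rw [Real.cos_pi_div_four] at hc1
    linarith
  have hE := Real.exp_pos (-(K * v ^ 3 / 2))
  have hsK := Real.sqrt_nonneg (K : ℝ)
  rcases (nm_nonneg v a).eq_or_lt with ha0 | ha0
  · have h0 := nm_zero K hK hι v hv0 a ha0.symm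
    have := form_triv φ a b
    rw [h0, zero_mul] at this
    refine this.trans ?_
    rw [← ha0]
    simp
  rcases (nm_nonneg v b).eq_or_lt with hb0 | hb0
  · have h0 := nm_zero K hK hι v hv0 b hb0.symm
    have := form_triv φ a b
    rw [h0, mul_zero] at this
    refine this.trans ?_
    rw [← hb0]
    simp
  set L : ℝ := Real.exp (K * v ^ 2 / 2) with hL
  have hL1 : 1 ≤ L := Real.one_le_exp (by positivity)
  have hL0 : 0 < L := by linarith
  have hLv : L ^ (-v) = Real.exp (-(K * v ^ 3 / 2)) := by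
    rw [hL, ← Real.exp_mul]
    congr 1
    ring
  have dec : form φ a b = form φ (hi (L * nm v a) a) b +
      (form φ (lo (L * nm v a) a) (hi (L * nm v b) b) +
        form φ (lo (L * nm v a) a) (lo (L * nm v b) b)) := by
    have e1 := form_add_left φ (lo (L * nm v a) a) (hi (L * nm v a) a) b
    rw [lo_hi] at e1
    have e2 := form_add_right φ (lo (L * nm v a) a) (lo (L * nm v b) b) (hi (L * nm v b) b)
    rw [lo_hi] at e2
    rw [e1, e2]
    ring
  set M : ℝ := ((Om ι).card : ℝ) with hMdef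
  set E : ℝ := Real.exp (-(K * v ^ 3 / 2)) with hEdef
  have c1 : |form φ (hi (L * nm v a) a) b| ≤ (M * nm v a * E) * (M * nm v b) := by
    refine (form_triv _ _ _).trans ?_
    have h1 := hi_bd K hK hι v hv0 a ha0 L hL0
    rw [hLv] at h1
    exact mul_le_mul h1 (mean_le K hK hι v hv0 b) (sum_nonneg fun _ _ => abs_nonneg _)
      (by positivity)
  have c2 : |form φ (lo (L * nm v a) a) (hi (L * nm v b) b)| ≤
      (M * nm v a) * (M * nm v b * E) := by
    refine (form_triv _ _ _).trans ?_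
    have h1 := hi_bd K hK hι v hv0 b hb0 L hL0
    rw [hLv] at h1
    have h2 : ∑ s ∈ Om ι, |lo (L * nm v a) a s| ≤ M * nm v a :=
      (sum_le_sum fun s _ => abs_lo _ a s).trans (mean_le K hK hι v hv0 a)
    exact mul_le_mul h2 h1 (sum_nonneg fun _ _ => abs_nonneg _) (by positivity)
  have c3 := form_low K hK hι φ hcos.le hsc (lo (L * nm v a) a) (lo (L * nm v b) b)
    ha0.le hb0.le hL0.le (lo_bd K hK hι v hv0 hv1 a ha0 L hL1)
    (lo_bd K hK hι v hv0 hv1 b hb0 L hL1)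
  have c4 : Real.cos φ ^ (4 * K) * L ≤ E := by
    have h1 := cos_pow_le K v φ hv0 hv1 hcos.le ht
    calc Real.cos φ ^ (4 * K) * L ≤ Real.exp (-(K * v ^ 2)) * L :=
          mul_le_mul_of_nonneg_right h1 hL0.le
      _ = Real.exp (-(K * v ^ 2) + K * v ^ 2 / 2) := by rw [hL, ← Real.exp_add]
      _ ≤ E := by
        rw [hEdef]
        refine Real.exp_le_exp.2 ?_
        have hK0 : (0 : ℝ) ≤ K := Nat.cast_nonneg _
        have h3 : v ^ 3 ≤ v ^ 2 := by
          calc v ^ 3 = v ^ 2 * v := by ring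
            _ ≤ v ^ 2 * 1 := mul_le_mul_of_nonneg_left hv1 (sq_nonneg _)
            _ = v ^ 2 := mul_one _
        nlinarith [mul_le_mul_of_nonneg_left h3 hK0]
  have c5 : |form φ (lo (L * nm v a) a) (lo (L * nm v b) b)| ≤
      M ^ 2 * (3 * Real.sqrt K * E) * (nm v a * nm v b) := by
    refine c3.trans ?_
    gcongr
  rw [dec]
  calc |form φ (hi (L * nm v a) a) b + (form φ (lo (L * nm v a) a) (hi (L * nm v b) b) +
        form φ (lo (L * nm v a) a) (lo (L * nm v b) b))|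
      ≤ |form φ (hi (L * nm v a) a) b| + |form φ (lo (L * nm v a) a) (hi (L * nm v b) b) +
        form φ (lo (L * nm v a) a) (lo (L * nm v b) b)| := abs_add_le _ _
    _ ≤ |form φ (hi (L * nm v a) a) b| + (|form φ (lo (L * nm v a) a) (hi (L * nm v b) b)| +
        |form φ (lo (L * nm v a) a) (lo (L * nm v b) b)|) := by
        gcongr
        exact abs_add_le _ _
    _ ≤ (M * nm v a * E) * (M * nm v b) + ((M * nm v a) * (M * nm v b * E) +
        M ^ 2 * (3 * Real.sqrt K * E) * (nm v a * nm v b)) := by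
        gcongr
    _ = _ := by ring

theorem fourier_v (K : ℕ) (hK : 1 ≤ K) (hι : Fintype.card ι = 4 * K) (v : ℝ) (hv0 : 0 < v)
    (hv1 : v ≤ 1) (a b : (ι → Bool) → ℝ) (ha : ∑ s ∈ Om ι, a s = 0)
    (hb : ∑ s ∈ Om ι, b s = 0) :
    |∑ q ∈ Om2 ι, a q.1 * b q.2| ≤ (Om2 ι).card * (2 * Real.sqrt K *
      ((9 * K : ℝ) ^ v / (Real.pi * K * v) +
        (2 + 3 * Real.sqrt K) * Real.exp (-(K * v ^ 3 / 2)))) * (nm v a * nm v b) := by
  have hpi := Real.pi_pos
  have hK0 : (0 : ℝ) < K := by exact_mod_cast hK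
  have hM := Om_pos K hK hι
  have hsK := Real.sqrt_nonneg (K : ℝ)
  have hna := nm_nonneg v a
  have hnb := nm_nonneg v b
  rw [form_integral K hι a b, abs_mul, abs_of_pos (by positivity : 0 < 2 / Real.pi)]
  set M : ℝ := ((Om ι).card : ℝ) with hMdef
  set E : ℝ := (2 + 3 * Real.sqrt K) * Real.exp (-(K * v ^ 3 / 2)) with hE
  have hE0 : 0 ≤ E := by positivity
  set Q : ℝ := (9 * K : ℝ) ^ v with hQ
  have hQ0 : 0 ≤ Q := by positivity
  have hform : Continuous fun φ => form φ a b := by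
    unfold form
    fun_prop
  have hg : Continuous fun φ : ℝ => (M ^ 2 * Q / v * (nm v a * nm v b)) *
      (Real.cos φ ^ (4 * K - 1) * |Real.sin φ|) + M ^ 2 * E * (nm v a * nm v b) := by
    fun_prop
  have hle : ∀ φ ∈ Set.Icc (-(Real.pi / 4)) (Real.pi / 4), |form φ a b| ≤
      (M ^ 2 * Q / v * (nm v a * nm v b)) *
      (Real.cos φ ^ (4 * K - 1) * |Real.sin φ|) + M ^ 2 * E * (nm v a * nm v b) := by
    intro φ hφ
    have hφ' : |φ| ≤ Real.pi / 4 := abs_le.2 hφ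
    have hcos : 0 < Real.cos φ := by
      apply Real.cos_pos_of_mem_Ioo
      constructor <;> linarith [hφ.1, hφ.2]
    rcases le_total (|Real.sin φ|) (v * Real.cos φ) with h | h
    · have h1 := main_bd K hK hι v φ hv0 hv1 hφ' h a b ha hb
      refine h1.trans ?_
      have h2 : 0 ≤ M ^ 2 * E * (nm v a * nm v b) := by positivity
      have h3 : M ^ 2 * Q * (Real.cos φ ^ (4 * K - 1) * |Real.sin φ| / v) * (nm v a * nm v b) =
          (M ^ 2 * Q / v * (nm v a * nm v b)) * (Real.cos φ ^ (4 * K - 1) * |Real.sin φ|) := by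
        ring
      rw [h3]
      linarith
    · have h1 := tail_bd K hK hι v φ hv0 hv1 hφ' h a b
      refine h1.trans ?_
      have h2 : 0 ≤ (M ^ 2 * Q / v * (nm v a * nm v b)) *
          (Real.cos φ ^ (4 * K - 1) * |Real.sin φ|) := by positivity
      linarith
  have hab : -(Real.pi / 4) ≤ Real.pi / 4 := by linarith
  have i1 : |∫ φ in (-(Real.pi / 4))..(Real.pi / 4), form φ a b| ≤
      ∫ φ in (-(Real.pi / 4))..(Real.pi / 4), |form φ a b| :=
    intervalIntegral.abs_integral_le_integral_abs hab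
  have i2 : ∫ φ in (-(Real.pi / 4))..(Real.pi / 4), |form φ a b| ≤
      ∫ φ in (-(Real.pi / 4))..(Real.pi / 4), ((M ^ 2 * Q / v * (nm v a * nm v b)) *
      (Real.cos φ ^ (4 * K - 1) * |Real.sin φ|) + M ^ 2 * E * (nm v a * nm v b)) :=
    intervalIntegral.integral_mono_on hab (hform.abs.intervalIntegrable _ _)
      (hg.intervalIntegrable _ _) hle
  have i3 : ∫ φ in (-(Real.pi / 4))..(Real.pi / 4), ((M ^ 2 * Q / v * (nm v a * nm v b)) *
      (Real.cos φ ^ (4 * K - 1) * |Real.sin φ|) + M ^ 2 * E * (nm v a * nm v b)) =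
      (M ^ 2 * Q / v * (nm v a * nm v b)) *
        (∫ φ in (-(Real.pi / 4))..(Real.pi / 4), Real.cos φ ^ (4 * K - 1) * |Real.sin φ|) +
      (Real.pi / 2) * (M ^ 2 * E * (nm v a * nm v b)) := by
    rw [intervalIntegral.integral_add (Continuous.intervalIntegrable (by fun_prop) _ _)
      (Continuous.intervalIntegrable (by fun_prop) _ _), intervalIntegral.integral_const_mul,
      intervalIntegral.integral_const, smul_eq_mul]
    ring
  have i4 := int_cos_sin K hK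
  have hc : 0 ≤ M ^ 2 * Q / v * (nm v a * nm v b) := by positivity
  have i5 : |∫ φ in (-(Real.pi / 4))..(Real.pi / 4), form φ a b| ≤
      (M ^ 2 * Q / v * (nm v a * nm v b)) * (1 / (2 * K)) +
      (Real.pi / 2) * (M ^ 2 * E * (nm v a * nm v b)) := by
    refine (i1.trans i2).trans ?_
    rw [i3]
    have := mul_le_mul_of_nonneg_left i4 hc
    linarith
  have hb1 := bound1 K hK hι
  calc 2 / Real.pi * |∫ φ in (-(Real.pi / 4))..(Real.pi / 4), form φ a b|
      ≤ 2 / Real.pi * ((M ^ 2 * Q / v * (nm v a * nm v b)) * (1 / (2 * K)) +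
      (Real.pi / 2) * (M ^ 2 * E * (nm v a * nm v b))) :=
        mul_le_mul_of_nonneg_left i5 (by positivity)
    _ = M ^ 2 * ((Q / (Real.pi * K * v) + E) * (nm v a * nm v b)) := by
        field_simp
    _ ≤ (2 * Real.sqrt K * (Om2 ι).card) * ((Q / (Real.pi * K * v) + E) *
        (nm v a * nm v b)) :=
        mul_le_mul_of_nonneg_right hb1 (by positivity)
    _ = _ := by ring

namespace FourierAux

theorem x5 (x : ℝ) (hx : 0 ≤ x) : x ^ 5 * Real.exp (-(x / 2)) ≤ 3840 := by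
  have h := Real.pow_div_factorial_le_exp (x / 2) (by linarith) 5
  have e : (x / 2) ^ 5 / (Nat.factorial 5 : ℝ) = x ^ 5 / 3840 := by
    have : (Nat.factorial 5 : ℝ) = 120 := by norm_num [Nat.factorial]
    rw [this]; ring
  rw [e, div_le_iff₀ (by norm_num)] at h
  rw [Real.exp_neg, mul_inv_le_iff₀ (Real.exp_pos _)]
  linarith

end FourierAux

theorem eps_bound : ∃ C : ℝ, 0 < C ∧ ∀ K : ℕ, 1 ≤ K →
    2 * Real.sqrt K * ((9 * K : ℝ) ^ ((K : ℝ) ^ (-(1 / 4) : ℝ)) /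
        (Real.pi * K * (K : ℝ) ^ (-(1 / 4) : ℝ)) +
      (2 + 3 * Real.sqrt K) * Real.exp (-(K * ((K : ℝ) ^ (-(1 / 4) : ℝ)) ^ 3 / 2))) ≤
      C * (K : ℝ) ^ (-(1 / 4) : ℝ) := by
  refine ⟨Real.exp 8 + 38400, by positivity, fun K hK => ?_⟩
  have hK0 : (0 : ℝ) < K := by exact_mod_cast hK
  have hpi := Real.pi_gt_three
  set x : ℝ := (K : ℝ) ^ (1 / 4 : ℝ) with hx
  have hx0 : 0 < x := Real.rpow_pos_of_pos hK0 _
  have hx1 : 1 ≤ x := Real.one_le_rpow (by exact_mod_cast hK) (by norm_num)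
  have ev : (K : ℝ) ^ (-(1 / 4) : ℝ) = x⁻¹ := Real.rpow_neg hK0.le _
  have eK : (K : ℝ) = x ^ 4 := by
    rw [hx, ← Real.rpow_natCast, ← Real.rpow_mul hK0.le]
    norm_num
  have esK : Real.sqrt (K : ℝ) = x ^ 2 := by
    rw [eK, show x ^ 4 = (x ^ 2) ^ 2 by ring, Real.sqrt_sq (by positivity)]
  rw [ev, esK]
  have h1 : (9 * (K : ℝ)) ^ x⁻¹ ≤ Real.exp 8 := by
    rw [Real.rpow_def_of_pos (by positivity)]
    refine Real.exp_le_exp.2 ?_
    rw [mul_inv_le_iff₀ hx0]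
    have h9 : (9 * (K : ℝ)) ≤ (2 * x) ^ 4 := by rw [mul_pow, ← eK]; norm_num; linarith
    have hl : Real.log (9 * K) ≤ 4 * Real.log (2 * x) := by
      have := Real.log_le_log (by positivity) h9
      rwa [Real.log_pow] at this
    have hl2 : Real.log (2 * x) ≤ 2 * x := (Real.log_le_sub_one_of_pos (by positivity)).trans
      (by linarith)
    linarith
  have e3 : (K : ℝ) * x⁻¹ ^ 3 / 2 = x / 2 := by
    rw [eK]; field_simp
  have h5 := FourierAux.x5 x hx0.le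
  rw [e3]
  have hpi0 : 0 < Real.pi := by linarith
  have t1 : 2 * x ^ 2 * ((9 * (K : ℝ)) ^ x⁻¹ / (Real.pi * K * x⁻¹)) ≤ Real.exp 8 * x⁻¹ := by
    have e4 : 2 * x ^ 2 * ((9 * (K : ℝ)) ^ x⁻¹ / (Real.pi * K * x⁻¹)) =
        (2 / Real.pi) * (9 * (K : ℝ)) ^ x⁻¹ * x⁻¹ := by
      generalize (9 * (K : ℝ)) ^ x⁻¹ = Y
      rw [eK]
      field_simp
    rw [e4]
    have h6 : 2 / Real.pi ≤ 1 := by rw [div_le_one hpi0]; linarith
    have h7 : 0 ≤ (9 * (K : ℝ)) ^ x⁻¹ := by positivity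
    calc (2 / Real.pi) * (9 * (K : ℝ)) ^ x⁻¹ * x⁻¹ ≤ 1 * Real.exp 8 * x⁻¹ := by
          gcongr
      _ = _ := by ring
  have t2 : 2 * x ^ 2 * ((2 + 3 * x ^ 2) * Real.exp (-(x / 2))) ≤ 38400 * x⁻¹ := by
    have hE := Real.exp_pos (-(x / 2))
    have h6 : 2 + 3 * x ^ 2 ≤ 5 * x ^ 2 := by nlinarith
    have h7 : 2 * x ^ 2 * ((2 + 3 * x ^ 2) * Real.exp (-(x / 2))) ≤
        10 * x ^ 4 * Real.exp (-(x / 2)) := by
      calc 2 * x ^ 2 * ((2 + 3 * x ^ 2) * Real.exp (-(x / 2)))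
          ≤ 2 * x ^ 2 * ((5 * x ^ 2) * Real.exp (-(x / 2))) := by gcongr
        _ = _ := by ring
    refine h7.trans ?_
    have h8 : 10 * x ^ 4 * Real.exp (-(x / 2)) = 10 * (x ^ 5 * Real.exp (-(x / 2))) * x⁻¹ := by
      field_simp
    rw [h8]
    have h9 : 10 * (x ^ 5 * Real.exp (-(x / 2))) ≤ 38400 := by linarith
    exact mul_le_mul_of_nonneg_right h9 (inv_nonneg.2 hx0.le)
  calc 2 * x ^ 2 * ((9 * (K : ℝ)) ^ x⁻¹ / (Real.pi * K * x⁻¹) +
        (2 + 3 * x ^ 2) * Real.exp (-(x / 2)))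
      = 2 * x ^ 2 * ((9 * (K : ℝ)) ^ x⁻¹ / (Real.pi * K * x⁻¹)) +
        2 * x ^ 2 * ((2 + 3 * x ^ 2) * Real.exp (-(x / 2))) := by ring
    _ ≤ Real.exp 8 * x⁻¹ + 38400 * x⁻¹ := add_le_add t1 t2
    _ = _ := by ring

theorem fourier : ∃ C : ℝ, 0 < C ∧ ∀ K : ℕ, 1 ≤ K → ∀ (ι : Type) [Fintype ι] [DecidableEq ι],
    Fintype.card ι = 4 * K → ∀ a b : (ι → Bool) → ℝ, ∑ s ∈ Om ι, a s = 0 →
    ∑ s ∈ Om ι, b s = 0 →
    |∑ q ∈ Om2 ι, a q.1 * b q.2| ≤ (Om2 ι).card * (C * (K : ℝ) ^ (-(1 / 4) : ℝ)) *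
      (nm ((K : ℝ) ^ (-(1 / 4) : ℝ)) a * nm ((K : ℝ) ^ (-(1 / 4) : ℝ)) b) := by
  obtain ⟨C, hC, h⟩ := eps_bound
  refine ⟨C, hC, fun K hK ι _ _ hι a b ha hb => ?_⟩
  have hK0 : (0 : ℝ) < K := by exact_mod_cast hK
  have hv0 : 0 < (K : ℝ) ^ (-(1 / 4) : ℝ) := Real.rpow_pos_of_pos hK0 _
  have hv1 : (K : ℝ) ^ (-(1 / 4) : ℝ) ≤ 1 :=
    Real.rpow_le_one_of_one_le_of_nonpos (by exact_mod_cast hK) (by norm_num)
  refine (fourier_v K hK hι _ hv0 hv1 a b ha hb).trans ?_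
  refine mul_le_mul_of_nonneg_right ?_
    (mul_nonneg (FourierAux.nm_nonneg _ _) (FourierAux.nm_nonneg _ _))
  exact mul_le_mul_of_nonneg_left (h K hK) (Nat.cast_nonneg _)

end Vale.Agent.P162
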