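import Vale.Agent.P162.Defs

/-!
# P162, module H: the convexity defect of `x ^ (1 - η)`
-/

namespace Vale.Agent.P162

open Finset

namespace HfunAux

theorem key (η x : ℝ) (h0 : 0 < η) (h1 : η ≤ 1 / 2) (hx : 0 ≤ x) :
    η * (Real.sqrt x - 1) ^ 2 ≤ hf η x := by
  have key : x ^ (1 - η) ≤ (1 - 2 * η) * x + 2 * η * Real.sqrt x := by
    have h := Real.geom_mean_le_arith_mean2_weighted (w₁ := 1 - 2 * η) (w₂ := 2 * η)
      (p₁ := x) (p₂ := Real.sqrt x) (by linarith) (by linarith) hx (Real.sqrt_nonneg x)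
      (by ring)
    refine le_trans (le_of_eq ?_) h
    rcases eq_or_lt_of_le hx with hx0 | hx0
    · rw [← hx0, Real.sqrt_zero, Real.zero_rpow (by linarith : (1 - η) ≠ 0),
        Real.zero_rpow (by linarith : (2 * η) ≠ 0), mul_zero]
    · rw [Real.sqrt_eq_rpow, ← Real.rpow_mul hx, ← Real.rpow_add hx0]
      congr 1
      ring
  have hs := Real.sq_sqrt hx
  have e : η * (Real.sqrt x - 1) ^ 2 = η * x - 2 * η * Real.sqrt x + η := by
    have : (Real.sqrt x - 1) ^ 2 = Real.sqrt x ^ 2 - 2 * Real.sqrt x + 1 := by ring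
    rw [this, hs]; ring
  unfold hf
  rw [e]
  linarith

theorem abs_le (θ x : ℝ) (h0 : 0 < θ) (h1 : θ ≤ 1) (hx : 0 ≤ x) :
    |x ^ θ - 1| ≤ |x - 1| := by
  rcases le_total x 1 with h | h
  · have a1 : x ^ θ ≤ 1 := Real.rpow_le_one hx h h0.le
    have a2 : x ≤ x ^ θ := by
      rcases eq_or_lt_of_le hx with hx0 | hx0
      · rw [← hx0, Real.zero_rpow h0.ne']
      · have := Real.rpow_le_rpow_of_exponent_ge hx0 h h1
        rwa [Real.rpow_one] at this
    rw [abs_of_nonpos (by linarith), abs_of_nonpos (by linarith)]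
    linarith
  · have a1 : 1 ≤ x ^ θ := Real.one_le_rpow h h0.le
    have a2 : x ^ θ ≤ x := by
      have := Real.rpow_le_rpow_of_exponent_le h h1
      rwa [Real.rpow_one] at this
    rw [abs_of_nonneg (by linarith), abs_of_nonneg (by linarith)]
    linarith

theorem small' (η x : ℝ) (h0 : 0 < η) (h1 : η ≤ 1 / 2) (hx : 0 ≤ x) (hx' : x ≤ 64) :
    (x ^ (1 - η) - 1) ^ 2 ≤ 81 / η * hf η x := by
  have hk := key η x h0 h1 hx
  have ha := abs_le (1 - η) x (by linarith) (by linarith) hx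
  have h2 : (x ^ (1 - η) - 1) ^ 2 ≤ (x - 1) ^ 2 := by
    rw [← sq_abs, ← sq_abs (x - 1)]
    exact pow_le_pow_left₀ (abs_nonneg _) ha 2
  have hs := Real.sq_sqrt hx
  have hs0 := Real.sqrt_nonneg x
  have hs8 : Real.sqrt x ≤ 8 := by
    rw [show (8 : ℝ) = Real.sqrt (8 ^ 2) by rw [Real.sqrt_sq (by norm_num)]]
    exact Real.sqrt_le_sqrt (by norm_num; exact hx')
  have h3 : (x - 1) ^ 2 ≤ 81 * (Real.sqrt x - 1) ^ 2 := by
    have e : x - 1 = (Real.sqrt x - 1) * (Real.sqrt x + 1) := by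
      have : (Real.sqrt x - 1) * (Real.sqrt x + 1) = Real.sqrt x ^ 2 - 1 := by ring
      rw [this, hs]
    rw [e, mul_pow]
    have : (Real.sqrt x + 1) ^ 2 ≤ 81 := by nlinarith
    nlinarith [sq_nonneg (Real.sqrt x - 1)]
  have h4 : (Real.sqrt x - 1) ^ 2 ≤ hf η x / η := by
    rw [le_div_iff₀ h0]; linarith
  calc (x ^ (1 - η) - 1) ^ 2 ≤ 81 * (Real.sqrt x - 1) ^ 2 := h2.trans h3
    _ ≤ 81 * (hf η x / η) := by linarith
    _ = 81 / η * hf η x := by ring

end HfunAux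

theorem hf_nonneg (η x : ℝ) (h0 : 0 < η) (h1 : η ≤ 1 / 2) (hx : 0 ≤ x) : 0 ≤ hf η x :=
  le_trans (mul_nonneg h0.le (sq_nonneg _)) (HfunAux.key η x h0 h1 hx)

theorem hf_small (η x : ℝ) (h0 : 0 < η) (h1 : η ≤ 1 / 2) (hx : 0 ≤ x) (hx' : x ≤ 64) :
    (x ^ (1 - η) - 1) ^ 2 ≤ 16384 / η * hf η x := by
  refine (HfunAux.small' η x h0 h1 hx hx').trans ?_
  refine mul_le_mul_of_nonneg_right ?_ (hf_nonneg η x h0 h1 hx)
  exact div_le_div_of_nonneg_right (by norm_num) h0.le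

theorem hf_large (η x : ℝ) (h0 : 0 < η) (h1 : η ≤ 1 / 2) (hx : 64 ≤ x) :
    x ≤ 4 / η * hf η x := by
  have hx0 : 0 ≤ x := by linarith
  have hk := HfunAux.key η x h0 h1 hx0
  have hs := Real.sq_sqrt hx0
  have hs8 : 8 ≤ Real.sqrt x := by
    rw [show (8 : ℝ) = Real.sqrt (8 ^ 2) by rw [Real.sqrt_sq (by norm_num)]]
    exact Real.sqrt_le_sqrt (by norm_num; exact hx)
  have h3 : x ≤ 4 * (Real.sqrt x - 1) ^ 2 := by nlinarith
  have h4 : (Real.sqrt x - 1) ^ 2 ≤ hf η x / η := by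
    rw [le_div_iff₀ h0]; linarith
  calc x ≤ 4 * (Real.sqrt x - 1) ^ 2 := h3
    _ ≤ 4 * (hf η x / η) := by linarith
    _ = 4 / η * hf η x := by ring

namespace HfunAux

theorem add_pow (x y p : ℝ) (hx : 0 ≤ x) (hy : 0 ≤ y) (hp : 1 ≤ p) :
    (x + y) ^ p ≤ 2 ^ (p - 1) * (x ^ p + y ^ p) := by
  lift x to NNReal using hx
  lift y to NNReal using hy
  have h := NNReal.rpow_add_le_mul_rpow_add_rpow x y hp
  exact_mod_cast h

theorem three (p A B C : ℝ) (hp1 : 1 ≤ p) (hA : 0 ≤ A) (hB : 0 ≤ B) (hC : 0 ≤ C) :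
    (2 * (A + B + C)) ^ (2 / p) ≤ 36 * (A ^ (2 / p) + B ^ (2 / p) + C ^ (2 / p)) := by
  have hp : 0 < p := by linarith
  have hr0 : 0 ≤ 2 / p := by positivity
  have hr2 : 2 / p ≤ 2 := by
    rw [div_le_iff₀ hp]; linarith
  have gen : ∀ M : ℝ, 0 ≤ M → A ≤ M → B ≤ M → C ≤ M →
      (2 * (A + B + C)) ^ (2 / p) ≤ 36 * M ^ (2 / p) := by
    intro M hM h1 h2 h3
    calc (2 * (A + B + C)) ^ (2 / p) ≤ (6 * M) ^ (2 / p) :=
          Real.rpow_le_rpow (by positivity) (by linarith) hr0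
      _ = 6 ^ (2 / p) * M ^ (2 / p) := Real.mul_rpow (by norm_num) hM
      _ ≤ 36 * M ^ (2 / p) := by
          refine mul_le_mul_of_nonneg_right ?_ (Real.rpow_nonneg hM _)
          calc (6 : ℝ) ^ (2 / p) ≤ 6 ^ (2 : ℝ) :=
                Real.rpow_le_rpow_of_exponent_le (by norm_num) hr2
            _ = 36 := by norm_num
  have a1 := Real.rpow_nonneg hA (2 / p)
  have a2 := Real.rpow_nonneg hB (2 / p)
  have a3 := Real.rpow_nonneg hC (2 / p)
  rcases le_total A B with h1 | h1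
  · rcases le_total B C with h2 | h2
    · have := gen C hC (h1.trans h2) h2 le_rfl
      linarith
    · have := gen B hB h1 le_rfl h2
      linarith
  · rcases le_total A C with h2 | h2
    · have := gen C hC h2 (h1.trans h2) le_rfl
      linarith
    · have := gen A hA le_rfl h1 h2
      linarith

end HfunAux

section H
variable {ι : Type} [Fintype ι] [DecidableEq ι]

/-- `F` is a density on the slice -/
theorem nm_bd (hne : 0 < (Om ι).card) (v η : ℝ) (hv : 0 ≤ v) (hvη : v ≤ η) (h1 : η ≤ 1 / 2)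
    (h0 : 0 < η) (F : (ι → Bool) → ℝ) (hF : ∀ s, 0 ≤ F s) (hF1 : ∑ s ∈ Om ι, F s = (Om ι).card)
    (α : ℝ) (hα : α = (∑ s ∈ Om ι, F s ^ (1 - η)) / (Om ι).card) :
    0 ≤ α ∧ α ≤ 1 ∧ nm v (fun s => F s ^ (1 - η) - α) ^ 2 ≤ 200000 / η * (1 - α) := by
  have hN : (0 : ℝ) < (Om ι).card := by exact_mod_cast hne
  obtain ⟨N, hNdef⟩ : ∃ N : ℝ, N = (Om ι).card := ⟨_, rfl⟩
  rw [← hNdef] at hN hF1 hα
  -- the mean of `hf η (F s)` is `1 - α`
  have hmean : (∑ s ∈ Om ι, hf η (F s)) / N = 1 - α := by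
    have : ∑ s ∈ Om ι, hf η (F s) = (1 - η) * N + N * η - N * α := by
      unfold hf
      rw [Finset.sum_sub_distrib, Finset.sum_add_distrib, ← Finset.mul_sum, hF1,
        Finset.sum_const, nsmul_eq_mul, ← hNdef, hα]
      field_simp
    rw [this]
    field_simp
    ring
  have hα0 : 0 ≤ α := by
    rw [hα]
    exact div_nonneg (Finset.sum_nonneg fun s _ => Real.rpow_nonneg (hF s) _) hN.le
  have hα1 : 0 ≤ 1 - α := by
    rw [← hmean]
    exact div_nonneg (Finset.sum_nonneg fun s _ => hf_nonneg η _ h0 h1 (hF s)) hN.le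
  refine ⟨hα0, by linarith, ?_⟩
  obtain ⟨p, hpdef⟩ : ∃ p : ℝ, p = 1 + v := ⟨_, rfl⟩
  have hp1 : 1 ≤ p := by linarith
  have hp2 : p ≤ 3 / 2 := by linarith
  have hp0 : 0 < p := by linarith
  have hr1 : 1 ≤ 2 / p := by
    rw [le_div_iff₀ hp0]; linarith
  -- the three pieces
  obtain ⟨A, hA⟩ : ∃ A : ℝ, A = ∑ s ∈ Om ι, N⁻¹ *
    (if F s ≤ 64 then |F s ^ (1 - η) - 1| ^ p else 0) := ⟨_, rfl⟩
  obtain ⟨B, hB⟩ : ∃ B : ℝ, B = ∑ s ∈ Om ι, N⁻¹ *
    (if F s ≤ 64 then 0 else |F s ^ (1 - η) - 1| ^ p) := ⟨_, rfl⟩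
  have hNi : 0 < N⁻¹ := inv_pos.mpr hN
  have hA0 : 0 ≤ A := by
    rw [hA]
    refine Finset.sum_nonneg fun s _ => mul_nonneg hNi.le ?_
    split_ifs
    · exact Real.rpow_nonneg (abs_nonneg _) _
    · exact le_rfl
  have hB0 : 0 ≤ B := by
    rw [hB]
    refine Finset.sum_nonneg fun s _ => mul_nonneg hNi.le ?_
    split_ifs
    · exact le_rfl
    · exact Real.rpow_nonneg (abs_nonneg _) _
  have hC0 : 0 ≤ (1 - α) ^ p := Real.rpow_nonneg hα1 _
  -- total
  have htot : (∑ s ∈ Om ι, |F s ^ (1 - η) - α| ^ p) / N ≤ 2 * (A + B + (1 - α) ^ p) := by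
    have hpt : ∀ s ∈ Om ι, N⁻¹ * |F s ^ (1 - η) - α| ^ p ≤
        2 * (N⁻¹ * (if F s ≤ 64 then |F s ^ (1 - η) - 1| ^ p else 0) +
          N⁻¹ * (if F s ≤ 64 then 0 else |F s ^ (1 - η) - 1| ^ p) + N⁻¹ * (1 - α) ^ p) := by
      intro s _
      have e1 : |F s ^ (1 - η) - α| ≤ |F s ^ (1 - η) - 1| + (1 - α) := by
        have := abs_add_le (F s ^ (1 - η) - 1) (1 - α)
        rw [abs_of_nonneg hα1] at this
        refine le_trans (le_of_eq ?_) this
        congr 1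
        ring
      have e2 : |F s ^ (1 - η) - α| ^ p ≤ 2 * (|F s ^ (1 - η) - 1| ^ p + (1 - α) ^ p) := by
        calc |F s ^ (1 - η) - α| ^ p ≤ (|F s ^ (1 - η) - 1| + (1 - α)) ^ p :=
              Real.rpow_le_rpow (abs_nonneg _) e1 hp0.le
          _ ≤ 2 ^ (p - 1) * (|F s ^ (1 - η) - 1| ^ p + (1 - α) ^ p) :=
              HfunAux.add_pow _ _ _ (abs_nonneg _) hα1 hp1
          _ ≤ 2 * (|F s ^ (1 - η) - 1| ^ p + (1 - α) ^ p) := by
              refine mul_le_mul_of_nonneg_right ?_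
                (add_nonneg (Real.rpow_nonneg (abs_nonneg _) _) hC0)
              calc (2 : ℝ) ^ (p - 1) ≤ 2 ^ (1 : ℝ) :=
                    Real.rpow_le_rpow_of_exponent_le (by norm_num) (by linarith)
                _ = 2 := by norm_num
      have e3 := mul_le_mul_of_nonneg_left e2 hNi.le
      refine e3.trans (le_of_eq ?_)
      split_ifs <;> ring
    have hs := Finset.sum_le_sum hpt
    rw [← Finset.mul_sum, ← Finset.mul_sum, Finset.sum_add_distrib, Finset.sum_add_distrib,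
      ← hA, ← hB, Finset.sum_const, nsmul_eq_mul, ← hNdef, ← mul_assoc N,
      mul_inv_cancel₀ hN.ne', one_mul] at hs
    rw [div_eq_inv_mul]
    exact hs
  -- piece A
  have hAle : A ^ (2 / p) ≤ 81 / η * (1 - α) := by
    have hj := Real.rpow_arith_mean_le_arith_mean_rpow (Om ι) (fun _ => N⁻¹)
      (fun s => if F s ≤ 64 then |F s ^ (1 - η) - 1| ^ p else 0)
      (fun _ _ => hNi.le) (by
        rw [Finset.sum_const, nsmul_eq_mul, ← hNdef, mul_inv_cancel₀ hN.ne'])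
      (fun s _ => by
        split_ifs
        · exact Real.rpow_nonneg (abs_nonneg _) _
        · exact le_rfl) hr1
    rw [← hA] at hj
    refine hj.trans ?_
    rw [← hmean, Finset.sum_div, Finset.mul_sum]
    refine Finset.sum_le_sum fun s _ => ?_
    split_ifs with hs
    · rw [← Real.rpow_mul (abs_nonneg _), mul_div_cancel₀ _ hp0.ne']
      have := HfunAux.small' η (F s) h0 h1 (hF s) hs
      rw [Real.rpow_two, sq_abs]
      calc N⁻¹ * (F s ^ (1 - η) - 1) ^ 2 ≤ N⁻¹ * (81 / η * hf η (F s)) :=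
            mul_le_mul_of_nonneg_left this hNi.le
        _ = 81 / η * (hf η (F s) / N) := by ring
    · rw [Real.zero_rpow (by positivity), mul_zero]
      exact mul_nonneg (by positivity) (div_nonneg (hf_nonneg η _ h0 h1 (hF s)) hN.le)
  -- piece B
  have hθp : (1 - η) * p ≤ 1 := by
    rw [hpdef]
    nlinarith
  have hBpt : ∀ s ∈ Om ι, N⁻¹ * (if F s ≤ 64 then 0 else |F s ^ (1 - η) - 1| ^ p) ≤
      N⁻¹ * (if F s ≤ 64 then 0 else F s) := by
    intro s _
    refine mul_le_mul_of_nonneg_left ?_ hNi.le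
    split_ifs with hs
    · exact le_rfl
    · push Not at hs
      have b1 : 1 ≤ F s ^ (1 - η) := Real.one_le_rpow (by linarith) (by linarith)
      calc |F s ^ (1 - η) - 1| ^ p ≤ (F s ^ (1 - η)) ^ p := by
            refine Real.rpow_le_rpow (abs_nonneg _) ?_ hp0.le
            rw [abs_of_nonneg (by linarith)]
            linarith
        _ = F s ^ ((1 - η) * p) := by rw [← Real.rpow_mul (hF s)]
        _ ≤ F s ^ (1 : ℝ) := Real.rpow_le_rpow_of_exponent_le (by linarith) hθp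
        _ = F s := Real.rpow_one _
  have hBq : B ≤ ∑ s ∈ Om ι, N⁻¹ * (if F s ≤ 64 then 0 else F s) := by
    rw [hB]; exact Finset.sum_le_sum hBpt
  have hq1 : ∑ s ∈ Om ι, N⁻¹ * (if F s ≤ 64 then 0 else F s) ≤ 1 := by
    calc ∑ s ∈ Om ι, N⁻¹ * (if F s ≤ 64 then 0 else F s) ≤ ∑ s ∈ Om ι, N⁻¹ * F s := by
          refine Finset.sum_le_sum fun s _ => mul_le_mul_of_nonneg_left ?_ hNi.le
          split_ifs
          · exact hF s
          · exact le_rfl
      _ = 1 := by rw [← Finset.mul_sum, hF1, inv_mul_cancel₀ hN.ne']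
  have hq2 : ∑ s ∈ Om ι, N⁻¹ * (if F s ≤ 64 then 0 else F s) ≤ 4 / η * (1 - α) := by
    rw [← hmean, Finset.sum_div, Finset.mul_sum]
    refine Finset.sum_le_sum fun s _ => ?_
    split_ifs with hs
    · rw [mul_zero]
      exact mul_nonneg (by positivity) (div_nonneg (hf_nonneg η _ h0 h1 (hF s)) hN.le)
    · push Not at hs
      have := hf_large η (F s) h0 h1 hs.le
      calc N⁻¹ * F s ≤ N⁻¹ * (4 / η * hf η (F s)) := mul_le_mul_of_nonneg_left this hNi.le
        _ = 4 / η * (hf η (F s) / N) := by ring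
  have hBle : B ^ (2 / p) ≤ 4 / η * (1 - α) := by
    refine le_trans ?_ (hBq.trans hq2)
    rcases eq_or_lt_of_le hB0 with hb | hb
    · rw [← hb, Real.zero_rpow (by positivity)]
    · have := Real.rpow_le_rpow_of_exponent_ge hb (hBq.trans hq1) hr1
      rwa [Real.rpow_one] at this
  -- piece C
  have hCle : ((1 - α) ^ p) ^ (2 / p) ≤ 1 - α := by
    rw [← Real.rpow_mul hα1, mul_div_cancel₀ _ hp0.ne', Real.rpow_two]
    nlinarith
  -- conclusion
  have hS0 : 0 ≤ (∑ s ∈ Om ι, |F s ^ (1 - η) - α| ^ p) / N :=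
    div_nonneg (Finset.sum_nonneg fun s _ => Real.rpow_nonneg (abs_nonneg _) _) hN.le
  have hnm : nm v (fun s => F s ^ (1 - η) - α) ^ 2 =
      ((∑ s ∈ Om ι, |F s ^ (1 - η) - α| ^ p) / N) ^ (2 / p) := by
    unfold nm
    rw [← hNdef, ← hpdef, ← Real.rpow_natCast, ← Real.rpow_mul hS0]
    congr 1
    push_cast
    ring
  rw [hnm]
  calc ((∑ s ∈ Om ι, |F s ^ (1 - η) - α| ^ p) / N) ^ (2 / p)
      ≤ (2 * (A + B + (1 - α) ^ p)) ^ (2 / p) :=
        Real.rpow_le_rpow hS0 htot (by positivity)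
    _ ≤ 36 * (A ^ (2 / p) + B ^ (2 / p) + ((1 - α) ^ p) ^ (2 / p)) :=
        HfunAux.three p A B _ hp1 hA0 hB0 hC0
    _ ≤ 36 * (81 / η * (1 - α) + 4 / η * (1 - α) + (1 - α)) := by linarith
    _ ≤ 36 * (81 / η * (1 - α) + 4 / η * (1 - α) + 1 / η * (1 - α)) := by
        have : 1 - α ≤ 1 / η * (1 - α) := by
          have h2 : 1 ≤ 1 / η := by
            rw [le_div_iff₀ h0]; linarith
          nlinarith
        linarith
    _ = 3096 / η * (1 - α) := by ring
    _ ≤ 200000 / η * (1 - α) := by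
        refine mul_le_mul_of_nonneg_right ?_ hα1
        exact div_le_div_of_nonneg_right (by norm_num) h0.le

end H

end Vale.Agent.P162
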