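import Vale.Agent.P162.Defs
import Vale.Agent.P162.Fourier
import Vale.Agent.P162.Hfun
import Vale.Agent.P162.Count

namespace Vale.Agent.P162

open Finset

theorem zle : ∃ C : ℝ, 0 < C ∧ ∀ K : ℕ, 1 ≤ K → ∀ η : ℝ, C * (K : ℝ) ^ (-(1 / 4) : ℝ) ≤ η →
    η ≤ 1 / 2 → ∀ (ι : Type) [Fintype ι] [DecidableEq ι], Fintype.card ι = 4 * K →
    ∀ F G : (ι → Bool) → ℝ, (∀ s, 0 ≤ F s) → (∀ s, 0 ≤ G s) →
    ∑ s ∈ Om ι, F s = (Om ι).card → ∑ s ∈ Om ι, G s = (Om ι).card →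
    ∑ q ∈ Om2 ι, F q.1 ^ (1 - η) * G q.2 ^ (1 - η) ≤ (Om2 ι).card := by
  obtain ⟨C0, hC0, hfour⟩ := fourier
  refine ⟨200000 * C0 + 1, by positivity, ?_⟩
  intro K hK η hη h2 ι _ _ hι F G hF hG hF1 hG1
  set v : ℝ := (K : ℝ) ^ (-(1 / 4) : ℝ) with hv
  have hK0 : (0 : ℝ) < K := by exact_mod_cast hK
  have hv0 : 0 < v := Real.rpow_pos_of_pos hK0 _
  have hvη : v ≤ η := by nlinarith [mul_pos hC0 hv0]
  have hη0 : 0 < η := lt_of_lt_of_le hv0 hvη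
  have hεη : 200000 * (C0 * v) ≤ η := by nlinarith
  have hOm : 0 < (Om ι).card := by
    rw [card_Om K hι]
    exact Nat.choose_pos (by omega)
  have hOmR : (0 : ℝ) < (Om ι).card := by exact_mod_cast hOm
  set α : ℝ := (∑ s ∈ Om ι, F s ^ (1 - η)) / (Om ι).card with hα
  set β : ℝ := (∑ s ∈ Om ι, G s ^ (1 - η)) / (Om ι).card with hβ
  obtain ⟨ha0, ha1, ha2⟩ := nm_bd hOm v η hv0.le hvη h2 hη0 F hF hF1 α hα
  obtain ⟨hb0, hb1, hb2⟩ := nm_bd hOm v η hv0.le hvη h2 hη0 G hG hG1 β hβ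
  set a' : (ι → Bool) → ℝ := fun s => F s ^ (1 - η) - α with ha'
  set b' : (ι → Bool) → ℝ := fun s => G s ^ (1 - η) - β with hb'
  have hsa : ∑ s ∈ Om ι, a' s = 0 := by
    simp only [ha', sum_sub_distrib, sum_const, nsmul_eq_mul, hα]
    field_simp
    simp
  have hsb : ∑ s ∈ Om ι, b' s = 0 := by
    simp only [hb', sum_sub_distrib, sum_const, nsmul_eq_mul, hβ]
    field_simp
    simp
  have hf := hfour K hK ι hι a' b' hsa hsb
  rw [← hv] at hf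
  have e1 : ∑ q ∈ Om2 ι, F q.1 ^ (1 - η) * G q.2 ^ (1 - η) =
      ∑ q ∈ Om2 ι, a' q.1 * b' q.2 + β * ∑ q ∈ Om2 ι, a' q.1 + α * ∑ q ∈ Om2 ι, b' q.2 +
        (Om2 ι).card * (α * β) := by
    rw [mul_sum, mul_sum, ← nsmul_eq_mul, ← sum_const, ← sum_add_distrib, ← sum_add_distrib,
      ← sum_add_distrib]
    apply sum_congr rfl
    intro q _
    simp only [ha', hb']
    ring
  rw [e1, sum_Om2_fst K hι a', sum_Om2_snd K hι b', hsa, hsb]
  have h3 : ∑ q ∈ Om2 ι, a' q.1 * b' q.2 ≤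
      (Om2 ι).card * (C0 * v) * (nm v a' * nm v b') := le_trans (le_abs_self _) hf
  have h4 : nm v a' * nm v b' ≤ 200000 / η * (((1 - α) + (1 - β)) / 2) := by
    nlinarith [sq_nonneg (nm v a' - nm v b')]
  have h5 : (C0 * v) * (nm v a' * nm v b') ≤ ((1 - α) + (1 - β)) / 2 := by
    have hpos : 0 < C0 * v := by positivity
    have h6 := mul_le_mul_of_nonneg_left h4 hpos.le
    have h7 : C0 * v * (200000 / η) ≤ 1 := by
      rw [mul_div_assoc', div_le_one hη0]; linarith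
    have h8 : 0 ≤ ((1 - α) + (1 - β)) / 2 := by linarith
    calc _ ≤ _ := h6
      _ = (C0 * v * (200000 / η)) * (((1 - α) + (1 - β)) / 2) := by ring
      _ ≤ 1 * (((1 - α) + (1 - β)) / 2) := mul_le_mul_of_nonneg_right h7 h8
      _ = _ := one_mul _
  have hcard : (0 : ℝ) ≤ (Om2 ι).card := Nat.cast_nonneg _
  have h9 : ((Om2 ι).card : ℝ) * (C0 * v) * (nm v a' * nm v b') ≤
      (Om2 ι).card * (((1 - α) + (1 - β)) / 2) := by
    rw [mul_assoc]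
    exact mul_le_mul_of_nonneg_left h5 hcard
  have h10 : ((1 - α) + (1 - β)) / 2 + α * β ≤ 1 := by nlinarith
  have h11 := mul_le_mul_of_nonneg_left h10 hcard
  nlinarith

end Vale.Agent.P162
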