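import Vale.Agent.P162.Defs
import Vale.Agent.P162.Zle
import Vale.Agent.P162.Avg
import Vale.Agent.P162.Color

namespace Vale.Agent.P162

open Finset

namespace GibbsAux

/-- `x log x - x log y ≥ x - y` -/
lemma klein (x y : ℝ) (hx : 0 < x) (hy : 0 < y) :
    x - y ≤ x * Real.log x - x * Real.log y := by
  have h := Real.log_le_sub_one_of_pos (div_pos hy hx)
  rw [Real.log_div hy.ne' hx.ne'] at h
  have h2 := mul_le_mul_of_nonneg_left h hx.le
  have h3 : x * (y / x - 1) = y - x := by field_simp
  rw [h3] at h2
  nlinarith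

lemma Av_const_mul {α : Type} [Fintype α] (c : ℝ) (f : α → ℝ) :
    Av (fun p => c * f p) = c * Av f := by
  simp only [Av, ← mul_sum, mul_div_assoc]

lemma Av_add {α : Type} [Fintype α] (f g : α → ℝ) :
    Av (fun p => f p + g p) = Av f + Av g := by
  simp only [Av, sum_add_distrib, add_div]

lemma Av_sub {α : Type} [Fintype α] (f g : α → ℝ) :
    Av (fun p => f p - g p) = Av f - Av g := by
  simp only [Av, sum_sub_distrib, sub_div]

lemma Av_mono {α : Type} [Fintype α] (f g : α → ℝ) (h : ∀ p, f p ≤ g p) : Av f ≤ Av g := by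
  simp only [Av]
  exact div_le_div_of_nonneg_right (sum_le_sum fun p _ => h p) (Nat.cast_nonneg _)

end GibbsAux

open GibbsAux

theorem large : ∃ C : ℝ, 0 < C ∧ ∀ K : ℕ, 1 ≤ K → ∀ η : ℝ, C * (K : ℝ) ^ (-(1 / 4) : ℝ) ≤ η →
    η ≤ 1 / 2 → ∀ (W : Type) [Fintype W] [DecidableEq W], Fintype.card W = K →
      ∀ f : Equiv.Perm (Bx W) → ℝ, (∀ p, 0 ≤ f p) →
        (1 - 2 * η) * (En f - Av f * Real.log (Av f)) ≤
          (En f - En (avg (P1 W) f)) + (En f - En (avg (P2 W) f)) := by
  obtain ⟨C, hC, hz⟩ := zle
  refine ⟨C, hC, ?_⟩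
  intro K hK η hη h2 W _ _ hW f hf
  have hK0 : (0 : ℝ) < K := by exact_mod_cast hK
  have hη0 : 0 < η := lt_of_lt_of_le (mul_pos hC (Real.rpow_pos_of_pos hK0 _)) hη
  have hcard : Fintype.card (Bx W) = 4 * K := by
    simp only [Fintype.card_prod, Fintype.card_bool, hW]; ring
  set m : ℝ := Av f with hm
  have hcp : (0 : ℝ) < Fintype.card (Equiv.Perm (Bx W)) := by
    exact_mod_cast Fintype.card_pos
  have hm0 : 0 ≤ m := div_nonneg (sum_nonneg fun p _ => hf p) hcp.le
  rcases hm0.eq_or_lt with hm0 | hm0
  · -- `f = 0`
    have hsum : ∑ p, f p = 0 := by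
      have : m = 0 := hm0.symm
      rw [hm, Av, div_eq_zero_iff] at this
      rcases this with h | h
      · exact h
      · exact absurd h hcp.ne'
    have hz0 : ∀ p, f p = 0 := by
      intro p
      exact (sum_eq_zero_iff_of_nonneg (fun p _ => hf p)).mp hsum p (mem_univ p)
    have hf0 : f = fun _ => 0 := funext hz0
    rw [← hm0, hf0]
    simp [En, Av, avg]
  · set F := avg (P1 W) f with hF
    set G := avg (P2 W) f with hG
    have hF0 : ∀ p, 0 ≤ F p := avg_nonneg _ _ hf
    have hG0 : ∀ p, 0 ≤ G p := avg_nonneg _ _ hf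
    have hFinv := fun h hh p => avg_invariant (P1 W) (P1_grp W) f h hh p
    have hGinv := fun h hh p => avg_invariant (P2 W) (P2_grp W) f h hh p
    have hpos : ∀ (H : Finset (Equiv.Perm (Bx W))), Grp H → ∀ p, 0 < f p → 0 < avg H f p := by
      intro H hH p hp
      apply div_pos
      · refine lt_of_lt_of_le hp ?_
        have := single_le_sum (f := fun h => f (h * p)) (fun h _ => hf _) hH.one_mem
        simpa using this
      · exact_mod_cast card_pos.mpr ⟨1, hH.one_mem⟩
    have hAvF : Av F = m := Av_avg _ (P1_grp W) f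
    have hAvG : Av G = m := Av_avg _ (P2_grp W) f
    -- colourings
    obtain ⟨F', hF'⟩ := factor1 W F hFinv
    obtain ⟨G', hG'⟩ := factor2 W G hGinv
    set z : Equiv.Perm (Bx W) → ℝ := fun p => (F p / m) ^ (1 - η) * (G p / m) ^ (1 - η) with hzdef
    have hz1 : Av z ≤ 1 := by
      have e : z = fun p => (|F' (cs p)| / m) ^ (1 - η) * (|G' (ct p)| / m) ^ (1 - η) := by
        funext p
        simp only [hzdef, ← hF', ← hG', abs_of_nonneg (hF0 p), abs_of_nonneg (hG0 p)]
      rw [e]
      have e2 := Av_cst W (fun q : (Bx W → Bool) × (Bx W → Bool) =>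
        (|F' q.1| / m) ^ (1 - η) * (|G' q.2| / m) ^ (1 - η))
      rw [e2]
      apply div_le_one_of_le₀ _ (Nat.cast_nonneg _)
      have sumeq : ∀ H : (Bx W → Bool) → ℝ, (∑ s ∈ Om (Bx W), H s) / (Om (Bx W)).card = 1 →
          ∑ s ∈ Om (Bx W), H s = (Om (Bx W)).card := by
        intro H hH
        have hne : ((Om (Bx W)).card : ℝ) ≠ 0 := by
          intro h0
          rw [h0, div_zero] at hH
          exact zero_ne_one hH
        rwa [div_eq_one_iff_eq hne] at hH
      refine hz K hK η hη h2 (Bx W) hcard (fun s => |F' s| / m) (fun s => |G' s| / m)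
        (fun s => by positivity) (fun s => by positivity) ?_ ?_
      · apply sumeq
        rw [← Av_cs W (fun s => |F' s| / m)]
        have : (fun g : Equiv.Perm (Bx W) => |F' (cs g)| / m) = fun g => (1 / m) * F g := by
          funext g
          rw [← hF', abs_of_nonneg (hF0 g)]; ring
        rw [this, Av_const_mul, hAvF]
        field_simp
      · apply sumeq
        rw [← Av_ct W (fun s => |G' s| / m)]
        have : (fun g : Equiv.Perm (Bx W) => |G' (ct g)| / m) = fun g => (1 / m) * G g := by
          funext g
          rw [← hG', abs_of_nonneg (hG0 g)]; ring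
        rw [this, Av_const_mul, hAvG]
        field_simp
    -- pointwise inequality
    have hpt : ∀ p, f p - m * z p ≤ f p * Real.log (f p) - Real.log m * f p -
        (1 - η) * (f p * Real.log (F p) + f p * Real.log (G p) - 2 * (Real.log m * f p)) := by
      intro p
      rcases (hf p).eq_or_lt with h0 | h0
      · rw [← h0]
        have : 0 ≤ z p := by
          simp only [hzdef]
          exact mul_nonneg (Real.rpow_nonneg (div_nonneg (hF0 p) hm0.le) _)
            (Real.rpow_nonneg (div_nonneg (hG0 p) hm0.le) _)
        nlinarith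
      · have hFp := hpos _ (P1_grp W) p h0
        have hGp := hpos _ (P2_grp W) p h0
        rw [← hF] at hFp
        rw [← hG] at hGp
        have hzp : 0 < z p := by
          simp only [hzdef]
          exact mul_pos (Real.rpow_pos_of_pos (div_pos hFp hm0) _)
            (Real.rpow_pos_of_pos (div_pos hGp hm0) _)
        have hlog : Real.log (m * z p) = Real.log m + (1 - η) * (Real.log (F p) - Real.log m) +
            (1 - η) * (Real.log (G p) - Real.log m) := by
          rw [Real.log_mul hm0.ne' hzp.ne']
          simp only [hzdef]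
          rw [Real.log_mul (Real.rpow_pos_of_pos (div_pos hFp hm0) _).ne'
            (Real.rpow_pos_of_pos (div_pos hGp hm0) _).ne',
            Real.log_rpow (div_pos hFp hm0), Real.log_rpow (div_pos hGp hm0),
            Real.log_div hFp.ne' hm0.ne', Real.log_div hGp.ne' hm0.ne']
          ring
        have hk := klein (f p) (m * z p) h0 (mul_pos hm0 hzp)
        rw [hlog] at hk
        linarith
    have hav := Av_mono _ _ hpt
    have hL : Av (fun p => f p - m * z p) = m - m * Av z := by
      rw [Av_sub, Av_const_mul]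
    have e1 : Av (fun p => f p * Real.log (F p)) = En F := by
      rw [En]
      have := Av_mul_avg (P1 W) (P1_grp W) f (fun p => Real.log (F p))
        (fun h hh p => by simp only [hF]; rw [hFinv h hh p])
      exact this.symm
    have e2 : Av (fun p => f p * Real.log (G p)) = En G := by
      rw [En]
      have := Av_mul_avg (P2 W) (P2_grp W) f (fun p => Real.log (G p))
        (fun h hh p => by simp only [hG]; rw [hGinv h hh p])
      exact this.symm
    have hR : Av (fun p => f p * Real.log (f p) - Real.log m * f p -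
        (1 - η) * (f p * Real.log (F p) + f p * Real.log (G p) - 2 * (Real.log m * f p))) =
        En f - Real.log m * m - (1 - η) * (En F + En G - 2 * (Real.log m * m)) := by
      rw [Av_sub, Av_sub, Av_const_mul, Av_const_mul, Av_sub, Av_add, Av_const_mul, Av_const_mul,
        e1, e2]
      rfl
    rw [hL, hR] at hav
    have hmz : 0 ≤ m - m * Av z := by nlinarith
    -- D ≥ (1-η)(D1+D2)
    have hD : 0 ≤ En f - m * Real.log m := by
      -- from the pointwise inequality with the constant
      have hpt2 : ∀ p, f p - m ≤ f p * Real.log (f p) - Real.log m * f p := by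
        intro p
        rcases (hf p).eq_or_lt with h0 | h0
        · rw [← h0]; simp; exact hm0.le
        · have := klein (f p) m h0 hm0
          linarith
      have h := Av_mono _ _ hpt2
      rw [Av_sub, Av_sub, Av_const_mul] at h
      have hc : Av (fun _ : Equiv.Perm (Bx W) => m) = m := by
        simp only [Av, sum_const, card_univ, nsmul_eq_mul]
        field_simp
      rw [hc] at h
      have : Av (fun p => f p * Real.log (f p)) = En f := rfl
      rw [this] at h
      linarith
    nlinarith [mul_nonneg hη0.le hD, mul_nonneg (mul_nonneg hη0.le hD) (sub_nonneg.mpr h2)]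

end Vale.Agent.P162
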