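import Vale.Agent.P162.Avg
import Vale.Agent.P162.Color

/-!
# P162, module S: the model face, small sizes
-/

namespace Vale.Agent.P162

open Finset

namespace SmallAux

variable {V : Type} [Fintype V] [DecidableEq V]

/-- square of the distance of the square roots -/
noncomputable def D (f : Equiv.Perm V → ℝ) (g : Equiv.Perm V) : ℝ :=
  ∑ p, (Real.sqrt (f p) - Real.sqrt (f (g * p))) ^ 2

lemma D_nonneg (f : Equiv.Perm V → ℝ) (g : Equiv.Perm V) : 0 ≤ D f g :=
  Finset.sum_nonneg fun _ _ => sq_nonneg _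

lemma D_one (f : Equiv.Perm V → ℝ) : D f 1 = 0 := by
  simp [D]

lemma D_mul (f : Equiv.Perm V → ℝ) (g h : Equiv.Perm V) : D f (g * h) ≤ 2 * D f g + 2 * D f h := by
  have h1 : D f g = ∑ p, (Real.sqrt (f (h * p)) - Real.sqrt (f (g * (h * p)))) ^ 2 :=
    (sum_translate h fun p => (Real.sqrt (f p) - Real.sqrt (f (g * p))) ^ 2).symm
  rw [h1, D, D, Finset.mul_sum, Finset.mul_sum, ← Finset.sum_add_distrib]
  refine sum_le_sum fun p _ => ?_
  rw [mul_assoc]
  nlinarith [sq_nonneg ((Real.sqrt (f p) - Real.sqrt (f (h * p))) -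
    (Real.sqrt (f (h * p)) - Real.sqrt (f (g * (h * p)))))]

lemma pt1 {u U : ℝ} (hu : 0 ≤ u) (hU : 0 < U) :
    (u - U) ^ 2 ≤ u ^ 2 * Real.log (u ^ 2) - u ^ 2 * Real.log (U ^ 2) - u ^ 2 + U ^ 2 := by
  rcases hu.eq_or_lt with h | h
  · rw [← h]
    simp
  · have h1 := Real.log_le_sub_one_of_pos (div_pos hU h)
    rw [Real.log_div hU.ne' h.ne'] at h1
    have h2 : u * (Real.log U - Real.log u) ≤ U - u := by
      have h3 := mul_le_mul_of_nonneg_left h1 h.le
      have h4 : u * (U / u - 1) = U - u := by field_simp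
      linarith
    rw [Real.log_pow, Real.log_pow]
    push_cast
    nlinarith

lemma pt2 {x t : ℝ} (hx : 0 ≤ x) (ht : 0 < t) :
    x * Real.log x - x * Real.log t - x + t ≤ (x - t) ^ 2 / t := by
  rcases hx.eq_or_lt with h | h
  · rw [← h]
    have : (0 - t) ^ 2 / t = t := by field_simp; ring
    rw [this]
    simp
  · have h1 := Real.log_le_sub_one_of_pos (div_pos h ht)
    rw [Real.log_div h.ne' ht.ne'] at h1
    have h3 := mul_le_mul_of_nonneg_left h1 h.le
    have h4 : (x - t) ^ 2 / t = x * (x / t - 1) - x + t := by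
      field_simp
      ring
    rw [h4]
    linarith

lemma pt3 {m t : ℝ} (hm : 0 ≤ m) (ht : 0 < t) :
    0 ≤ m * Real.log m - m * Real.log t - m + t := by
  rcases hm.eq_or_lt with h | h
  · rw [← h]
    simpa using ht.le
  · have h1 := Real.log_le_sub_one_of_pos (div_pos ht h)
    rw [Real.log_div ht.ne' h.ne'] at h1
    have h3 := mul_le_mul_of_nonneg_left h1 h.le
    have h4 : m * (t / m - 1) = t - m := by field_simp
    linarith

lemma D_group (H : Finset (Equiv.Perm V)) (hH : Grp H) (f : Equiv.Perm V → ℝ)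
    (hf : ∀ p, 0 ≤ f p) (h : Equiv.Perm V) (hh : h ∈ H) :
    D f h ≤ 4 * (Fintype.card (Equiv.Perm V) : ℝ) * (En f - En (avg H f)) := by
  set F := avg H f with hF
  have hF0 : ∀ p, 0 ≤ F p := avg_nonneg H f hf
  have hN : (0 : ℝ) < (Fintype.card (Equiv.Perm V) : ℝ) := Nat.cast_pos.mpr Fintype.card_pos
  set a : Equiv.Perm V → ℝ := fun p => Real.sqrt (f p) - Real.sqrt (F p) with ha
  have h1 : D f h ≤ 4 * ∑ p, a p ^ 2 := by
    have h2 : ∑ p, a (h * p) ^ 2 = ∑ p, a p ^ 2 := sum_translate h fun p => a p ^ 2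
    have h3 : D f h ≤ ∑ p, (2 * a p ^ 2 + 2 * a (h * p) ^ 2) := by
      refine sum_le_sum fun p _ => ?_
      have h4 : F (h * p) = F p := avg_invariant H hH f h hh p
      have h5 : Real.sqrt (f p) - Real.sqrt (f (h * p)) = a p - a (h * p) := by
        simp only [ha, h4]
        ring
      rw [h5]
      nlinarith [sq_nonneg (a p + a (h * p))]
    rw [Finset.sum_add_distrib, ← Finset.mul_sum, ← Finset.mul_sum, h2] at h3
    linarith
  have h6 : ∑ p, a p ^ 2 ≤ ∑ p, (f p * Real.log (f p) - f p * Real.log (F p) - f p + F p) := by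
    refine sum_le_sum fun p _ => ?_
    rcases (hF0 p).eq_or_lt with h0 | h0
    · have h7 : f p = 0 := avg_zero_imp H hH f hf p h0.symm
      simp [ha, h7, ← h0]
    · have h7 := pt1 (Real.sqrt_nonneg (f p)) (Real.sqrt_pos.mpr h0)
      rw [Real.sq_sqrt (hf p), Real.sq_sqrt (hF0 p)] at h7
      exact h7
  have h8 : ∀ X : Equiv.Perm V → ℝ, ∑ p, X p = (Fintype.card (Equiv.Perm V) : ℝ) * Av X :=
    fun X => by
      unfold Av
      field_simp
  have h9 := Av_mul_avg H hH f (fun p => Real.log (F p)) fun k hk p =>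
    congrArg Real.log (avg_invariant H hH f k hk p)
  have h10 := Av_avg H hH f
  rw [← hF] at h9 h10
  rw [Finset.sum_add_distrib, Finset.sum_sub_distrib, Finset.sum_sub_distrib,
    h8 (fun p => f p * Real.log (f p)), h8 (fun p => f p * Real.log (F p)), h8 f, h8 F] at h6
  have h11 : Av (fun p => f p * Real.log (f p)) = En f := rfl
  have h12 : Av (fun p => F p * Real.log (F p)) = En F := rfl
  have h13 : Av (fun p => f p * Real.log (F p)) = En F := by rw [← h12, h9]
  rw [h11, h13, h10] at h6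
  linarith

lemma D_all (f : Equiv.Perm V → ℝ) {M : ℝ} (hM0 : 0 ≤ M)
    (hM : ∀ x y : V, D f (Equiv.swap x y) ≤ M) :
    ∀ (n : ℕ) (g : Equiv.Perm V), g.support.card ≤ n → D f g ≤ 4 ^ n * M := by
  intro n
  induction n with
  | zero =>
    intro g hg
    have h1 : g = 1 := by
      rw [Nat.le_zero, Finset.card_eq_zero, Equiv.Perm.support_eq_empty_iff] at hg
      exact hg
    rw [h1, D_one, pow_zero, one_mul]
    exact hM0
  | succ n ih =>
    intro g hg
    have h4 : (1 : ℝ) ≤ 4 ^ n := one_le_pow₀ (by norm_num)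
    by_cases h1 : g = 1
    · rw [h1, D_one]
      positivity
    · obtain ⟨x, hx⟩ : ∃ x, g x ≠ x := by
        by_contra hcon
        push Not at hcon
        exact h1 (Equiv.ext hcon)
      have h2 := Equiv.Perm.card_support_swap_mul hx
      have h3 := ih (Equiv.swap x (g x) * g) (by omega)
      have h5 := D_mul f (Equiv.swap x (g x)) (Equiv.swap x (g x) * g)
      rw [← mul_assoc, Equiv.swap_mul_self, one_mul] at h5
      have h6 := hM x (g x)
      have h7 : M ≤ 4 ^ n * M := le_mul_of_one_le_left hM0 h4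
      rw [pow_succ]
      linarith

/-- from the distances to the variance of the square root and to the entropy -/
lemma ent_le (f : Equiv.Perm V → ℝ) (hf : ∀ p, 0 ≤ f p) {M : ℝ} (hM0 : 0 ≤ M)
    (hM : ∀ g, D f g ≤ (Fintype.card (Equiv.Perm V) : ℝ) * M) :
    En f - Av f * Real.log (Av f) ≤ ((Fintype.card (Equiv.Perm V) : ℝ) + 1) ^ 2 * M := by
  set N := (Fintype.card (Equiv.Perm V) : ℝ) with hNdef
  have hN : (0 : ℝ) < N := Nat.cast_pos.mpr Fintype.card_pos
  set u : Equiv.Perm V → ℝ := fun p => Real.sqrt (f p) with hu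
  have hu0 : ∀ p, 0 ≤ u p := fun p => Real.sqrt_nonneg _
  have huf : ∀ p, u p ^ 2 = f p := fun p => Real.sq_sqrt (hf p)
  set c := (∑ p, u p) / N with hc
  have hcN : N * c = ∑ p, u p := by
    rw [hc]
    field_simp
  have hc0 : 0 ≤ c := div_nonneg (Finset.sum_nonneg fun p _ => hu0 p) hN.le
  have huc : ∀ p, u p ≤ N * c := fun p => by
    rw [hcN]
    exact Finset.single_le_sum (fun q _ => hu0 q) (mem_univ p)
  rcases hc0.eq_or_lt with h0 | hcpos
  · have h1 : ∀ p, u p = 0 := fun p => le_antisymm (by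
      have := huc p
      rw [← h0] at this
      simpa using this) (hu0 p)
    have h2 : f = fun _ => 0 := by
      funext p
      rw [← huf p, h1 p]
      norm_num
    rw [h2]
    simp only [En, Av, zero_mul, Finset.sum_const_zero, zero_div, sub_zero]
    positivity
  · -- the variance
    have hvar : ∑ p, (u p - c) ^ 2 ≤ N * M := by
      have h1 : ∑ g : Equiv.Perm V, D f g = ∑ p, ∑ q, (u p - u q) ^ 2 := by
        simp only [D]
        rw [Finset.sum_comm]
        refine sum_congr rfl fun p _ => ?_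
        exact Equiv.sum_comp (Equiv.mulRight p) fun q => (u p - u q) ^ 2
      have h2 : ∑ p, ∑ q, (u p - u q) ^ 2 = 2 * N * ∑ p, (u p - c) ^ 2 := by
        have e1 : ∀ p, ∑ q, (u p - u q) ^ 2 =
            N * (u p - c) ^ 2 + ∑ q, (u q - c) ^ 2 := by
          intro p
          have e2 : ∀ q, (u p - u q) ^ 2 =
              (u p - c) ^ 2 + (u q - c) ^ 2 - 2 * (u p - c) * (u q - c) := fun q => by ring
          simp only [e2]
          rw [Finset.sum_sub_distrib, Finset.sum_add_distrib, ← Finset.mul_sum,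
            Finset.sum_sub_distrib]
          simp only [sum_const, Finset.card_univ, nsmul_eq_mul]
          rw [← hcN, ← hNdef]
          ring
        simp only [e1]
        rw [Finset.sum_add_distrib, ← Finset.mul_sum]
        simp only [sum_const, Finset.card_univ, nsmul_eq_mul]
        rw [← hNdef]
        ring
      have h3 : ∑ g : Equiv.Perm V, D f g ≤ N * (N * M) := by
        refine (Finset.sum_le_sum fun g _ => hM g).trans (le_of_eq ?_)
        simp only [sum_const, Finset.card_univ, nsmul_eq_mul]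
        rfl
      rw [h1, h2] at h3
      have h4 : 0 ≤ ∑ p, (u p - c) ^ 2 := Finset.sum_nonneg fun _ _ => sq_nonneg _
      have h5 : N * (2 * ∑ p, (u p - c) ^ 2) ≤ N * (N * M) := by linarith
      have h6 := le_of_mul_le_mul_left h5 hN
      linarith
    -- the entropy
    have hm : 0 ≤ Av f := div_nonneg (Finset.sum_nonneg fun p _ => hf p) hN.le
    have hc2 : 0 < c ^ 2 := by positivity
    have h1 := pt3 hm hc2
    have h2 : ∀ p, f p * Real.log (f p) - f p * Real.log (c ^ 2) - f p + c ^ 2 ≤
        (N + 1) ^ 2 * (u p - c) ^ 2 := by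
      intro p
      refine (pt2 (hf p) hc2).trans ?_
      rw [div_le_iff₀ hc2, ← huf p]
      have h3 : u p + c ≤ (N + 1) * c := by linarith [huc p]
      have h4 : (u p + c) ^ 2 ≤ ((N + 1) * c) ^ 2 :=
        pow_le_pow_left₀ (add_nonneg (hu0 p) hc0) h3 2
      have h5 : (u p ^ 2 - c ^ 2) ^ 2 = (u p - c) ^ 2 * (u p + c) ^ 2 := by ring
      rw [h5]
      calc (u p - c) ^ 2 * (u p + c) ^ 2 ≤ (u p - c) ^ 2 * ((N + 1) * c) ^ 2 :=
            mul_le_mul_of_nonneg_left h4 (sq_nonneg _)
        _ = _ := by ring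
    have h6 := Finset.sum_le_sum fun p (_ : p ∈ univ) => h2 p
    rw [← Finset.mul_sum, Finset.sum_add_distrib, Finset.sum_sub_distrib,
      Finset.sum_sub_distrib, ← Finset.sum_mul] at h6
    simp only [sum_const, Finset.card_univ, nsmul_eq_mul] at h6
    rw [← hNdef] at h6
    have h7 : ∑ p, f p * Real.log (f p) = N * En f := by
      unfold En Av
      rw [← hNdef]
      field_simp
    have h8 : ∑ p, f p = N * Av f := by
      unfold Av
      rw [← hNdef]
      field_simp
    rw [h7, h8] at h6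
    have h9 : (N + 1) ^ 2 * ∑ p, (u p - c) ^ 2 ≤ (N + 1) ^ 2 * (N * M) :=
      mul_le_mul_of_nonneg_left hvar (by positivity)
    have h10 : N * (En f - Av f * Real.log (c ^ 2) - Av f + c ^ 2) ≤ N * ((N + 1) ^ 2 * M) := by
      linarith
    have h11 := le_of_mul_le_mul_left h10 hN
    linarith

end SmallAux

open SmallAux

theorem small (K : ℕ) : ∃ w : ℝ, 0 ≤ w ∧ w < 1 ∧
    ∀ (W : Type) [Fintype W] [DecidableEq W], Fintype.card W = K →
      ∀ f : Equiv.Perm (Bx W) → ℝ, (∀ p, 0 ≤ f p) →
        (1 - w) * (En f - Av f * Real.log (Av f)) ≤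
          (En f - En (avg (P1 W) f)) + (En f - En (avg (P2 W) f)) := by
  set N : ℝ := ((4 * K).factorial : ℝ) with hN
  set B : ℝ := (N + 1) ^ 2 * (4 ^ (4 * K) * 40) with hB
  have hN0 : 0 < N := by
    rw [hN]
    exact_mod_cast Nat.factorial_pos _
  have hB1 : 1 ≤ B := by
    rw [hB]
    have h1 : (1 : ℝ) ≤ 4 ^ (4 * K) := one_le_pow₀ (by norm_num)
    have h2 : (1 : ℝ) ≤ (N + 1) ^ 2 := one_le_pow₀ (by linarith)
    nlinarith
  have hB0 : 0 < B := by linarith
  refine ⟨1 - 1 / B, ?_, ?_, ?_⟩
  · rw [sub_nonneg, div_le_one hB0]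
    exact hB1
  · have : 0 < 1 / B := by positivity
    linarith
  · intro W _ _ hW f hf
    set Δ := (En f - En (avg (P1 W) f)) + (En f - En (avg (P2 W) f)) with hΔ
    have e1 := En_avg_le (P1 W) (P1_grp W) f hf
    have e2 := En_avg_le (P2 W) (P2_grp W) f hf
    have hΔ0 : 0 ≤ Δ := by linarith
    have hcardV : Fintype.card (Bx W) = 4 * K := by
      simp only [Bx, Fintype.card_prod, Fintype.card_bool, hW]
      ring
    have hcard : (Fintype.card (Equiv.Perm (Bx W)) : ℝ) = N := by
      rw [Fintype.card_perm, hcardV]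
    have g1 : ∀ h ∈ P1 W, D f h ≤ 4 * N * Δ := fun h hh => by
      refine (D_group (P1 W) (P1_grp W) f hf h hh).trans ?_
      rw [hcard]
      exact mul_le_mul_of_nonneg_left (by linarith) (by positivity)
    have g2 : ∀ h ∈ P2 W, D f h ≤ 4 * N * Δ := fun h hh => by
      refine (D_group (P2 W) (P2_grp W) f hf h hh).trans ?_
      rw [hcard]
      exact mul_le_mul_of_nonneg_left (by linarith) (by positivity)
    have s1 : ∀ x y : Bx W, x.1 = y.1 → D f (Equiv.swap x y) ≤ 4 * N * Δ := by
      intro x y hxy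
      apply g1
      simp only [P1, mem_filter, mem_univ, true_and]
      intro z
      rw [Equiv.swap_apply_def]
      split_ifs with h1 h2
      · rw [h1, hxy]
      · rw [h2, hxy]
      · rfl
    have s2 : ∀ x y : Bx W, x.2.1 = y.2.1 → D f (Equiv.swap x y) ≤ 4 * N * Δ := by
      intro x y hxy
      apply g2
      simp only [P2, mem_filter, mem_univ, true_and]
      intro z
      rw [Equiv.swap_apply_def]
      split_ifs with h1 h2
      · rw [h1, hxy]
      · rw [h2, hxy]
      · rfl
    have hND : 0 ≤ 4 * N * Δ := by positivity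
    have s3 : ∀ x y : Bx W, D f (Equiv.swap x y) ≤ 10 * (4 * N * Δ) := by
      intro x y
      by_cases h1 : x.1 = y.1
      · exact (s1 x y h1).trans (by linarith)
      by_cases h2 : x.2.1 = y.2.1
      · exact (s2 x y h2).trans (by linarith)
      · have hzx : ((x.1, y.2) : Bx W) ≠ x := fun h => h2 (congrArg (fun q => q.2.1) h).symm
        have hzy : ((x.1, y.2) : Bx W) ≠ y := fun h => h1 (congrArg (fun q => q.1) h)
        have h3 : Equiv.swap x (x.1, y.2) * Equiv.swap (x.1, y.2) y * Equiv.swap x (x.1, y.2) =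
            Equiv.swap x y := by
          have hxy : x ≠ y := fun h => h1 (congrArg Prod.fst h)
          have h4 := Equiv.swap_mul_swap_mul_swap (x := y) (y := (x.1, y.2)) (z := x)
            hzy.symm hxy.symm
          rw [Equiv.swap_comm (x.1, y.2) x, Equiv.swap_comm y (x.1, y.2)] at h4
          exact h4
        rw [← h3]
        have h5 := D_mul f (Equiv.swap x (x.1, y.2) * Equiv.swap (x.1, y.2) y)
          (Equiv.swap x (x.1, y.2))
        have h6 := D_mul f (Equiv.swap x (x.1, y.2)) (Equiv.swap (x.1, y.2) y)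
        have h7 := s1 x (x.1, y.2) rfl
        have h8 := s2 (x.1, y.2) y rfl
        linarith
    have a1 := D_all f (by positivity) s3 (4 * K)
    have a2 : ∀ g, D f g ≤ (Fintype.card (Equiv.Perm (Bx W)) : ℝ) * (4 ^ (4 * K) * 40 * Δ) := by
      intro g
      refine (a1 g ?_).trans (le_of_eq ?_)
      · rw [← hcardV]
        exact Finset.card_le_univ _
      · rw [hcard]
        ring
    have a3 := ent_le f hf (by positivity) a2
    rw [hcard] at a3
    have a4 : En f - Av f * Real.log (Av f) ≤ B * Δ := by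
      rw [hB]
      linarith
    have a5 : (1 - (1 - 1 / B)) * (En f - Av f * Real.log (Av f)) ≤ (1 / B) * (B * Δ) := by
      have : 1 - (1 - 1 / B) = 1 / B := by ring
      rw [this]
      exact mul_le_mul_of_nonneg_left a4 (by positivity)
    have a6 : (1 / B) * (B * Δ) = Δ := by field_simp
    rw [a6] at a5
    exact a5

end Vale.Agent.P162
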