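import Vale.Agent.P162.Defs
import Vale.Agent.P162.Small
import Vale.Agent.P162.Gibbs

namespace Vale.Agent.P162

open Finset

theorem weights : ∃ w : ℕ → ℝ, (∀ m, 0 ≤ w m ∧ w m < 1) ∧
    Summable (fun m : ℕ => ((m : ℝ) + 1) * w m) ∧
    ∀ (m : ℕ) (W : Type) [Fintype W] [DecidableEq W], Fintype.card W = 2 ^ m →
      ∀ f : Equiv.Perm (Bx W) → ℝ, (∀ p, 0 ≤ f p) → (∀ h ∈ P12 W, ∀ p, f (h * p) = f p) →
        (1 - w m) * (En f - Av f * Real.log (Av f)) ≤
          (En f - En (avg (P1 W) f)) + (En f - En (avg (P2 W) f)) := by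
  obtain ⟨C, hC, hlarge⟩ := large
  choose ws h0 h1 hs using small
  set r : ℝ := (2 : ℝ) ^ (-(1 / 4) : ℝ) with hr
  have hr0 : 0 < r := Real.rpow_pos_of_pos (by norm_num) _
  have hr1 : r < 1 := Real.rpow_lt_one_of_one_lt_of_neg (by norm_num) (by norm_num)
  have hpow : ∀ m : ℕ, (((2 ^ m : ℕ) : ℝ)) ^ (-(1 / 4) : ℝ) = r ^ m := by
    intro m
    rw [hr, ← Real.rpow_natCast, ← Real.rpow_mul (by norm_num), mul_comm,
      Real.rpow_mul (by norm_num), Real.rpow_natCast]
    push_cast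
    rfl
  set w : ℕ → ℝ := fun m => if 2 * (C * r ^ m) < 1 then 2 * (C * r ^ m) else ws (2 ^ m) with hw
  have hwle : ∀ m, w m ≤ 2 * C * r ^ m := by
    intro m
    simp only [hw]
    split_ifs with h
    · linarith
    · have := h1 (2 ^ m)
      push Not at h
      linarith
  have hw0 : ∀ m, 0 ≤ w m := by
    intro m
    simp only [hw]
    split_ifs with h
    · positivity
    · exact h0 _
  have hw1 : ∀ m, w m < 1 := by
    intro m
    simp only [hw]
    split_ifs with h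
    · exact h
    · exact h1 _
  refine ⟨w, fun m => ⟨hw0 m, hw1 m⟩, ?_, ?_⟩
  · have hsum1 : Summable (fun m : ℕ => (m : ℝ) ^ 1 * r ^ m) :=
      summable_pow_mul_geometric_of_norm_lt_one 1 (by rw [Real.norm_of_nonneg hr0.le]; exact hr1)
    have hsum0 : Summable (fun m : ℕ => r ^ m) := summable_geometric_of_lt_one hr0.le hr1
    have hsum2 : Summable (fun m : ℕ => 2 * C * ((m : ℝ) ^ 1 * r ^ m + r ^ m)) :=
      (hsum1.add hsum0).mul_left _
    refine Summable.of_nonneg_of_le (fun m => mul_nonneg (by positivity) (hw0 m)) (fun m => ?_)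
      hsum2
    have hm : (0 : ℝ) ≤ (m : ℝ) + 1 := by positivity
    calc ((m : ℝ) + 1) * w m ≤ ((m : ℝ) + 1) * (2 * C * r ^ m) :=
          mul_le_mul_of_nonneg_left (hwle m) hm
      _ = _ := by ring
  · intro m W _ _ hW f hf hinv
    simp only [hw]
    split_ifs with h
    · have hK : 1 ≤ 2 ^ m := Nat.one_le_two_pow
      have hη : C * ((2 ^ m : ℕ) : ℝ) ^ (-(1 / 4) : ℝ) ≤ C * r ^ m := by rw [hpow]
      have := hlarge (2 ^ m) hK (C * r ^ m) hη (by linarith) W hW f hf
      exact this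
    · exact hs (2 ^ m) W hW f hf

end Vale.Agent.P162
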