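import Vale.Agent.P162.Defs
import Vale.Agent.P162.Weights
import Vale.Agent.P162.Multi
import Vale.Agent.P162.Transf
import Vale.Agent.P162.Rec

namespace Vale.Agent.P162

open Finset

namespace ContractAux

variable {d : ℕ}

lemma avg_one (f : Equiv.Perm (Pos d) → ℝ) : avg ({1} : Finset (Equiv.Perm (Pos d))) f = f := by
  funext p; simp [avg]

lemma Dn_empty (f : Equiv.Perm (Pos d) → ℝ) : Dn f ∅ = En f := by
  rw [Dn, st_empty, avg_one]

lemma avg_univ (f : Equiv.Perm (Pos d) → ℝ) :
    avg (univ : Finset (Equiv.Perm (Pos d))) f = fun _ => Av f := by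
  funext p
  simp only [avg, Av, card_univ]
  congr 1
  exact Equiv.sum_comp (Equiv.mulRight p) f

lemma Dn_univ (f : Equiv.Perm (Pos d) → ℝ) (h : Av f = 1) : Dn f univ = 0 := by
  rw [Dn, st_univ, avg_univ, h]
  simp [En, Av]

/-- nonnegative functions -/
abbrev NN (d : ℕ) := {f : Equiv.Perm (Pos d) → ℝ // ∀ p, 0 ≤ f p}

noncomputable def step (b : Fin d) (f : NN d) : NN d :=
  ⟨avg (st {b}) f.1, avg_nonneg _ _ f.2⟩

lemma foldl_val (L : List (Fin d)) : ∀ f : NN d,
    (L.foldl (fun g b => step b g) f).1 = L.foldl (fun g b => avg (st {b}) g) f.1 := by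
  induction L with
  | nil => intro f; rfl
  | cons b L ih => intro f; simp only [List.foldl_cons]; rw [ih]; rfl

end ContractAux

open ContractAux

theorem contract : ∃ c : ℝ, 0 < c ∧ c < 1 ∧ ∀ (d : ℕ) (L : List (Fin d)), L.Nodup →
    L.toFinset = univ → ∀ f : Equiv.Perm (Pos d) → ℝ, (∀ p, 0 ≤ f p) → Av f = 1 →
      En (L.foldl (fun g b => avg (st {b}) g) f) ≤ (1 - c) * En f := by
  obtain ⟨w, hw, hsum, hface⟩ := weights
  obtain ⟨x, hx, hrec⟩ := recursion w hw hsum
  refine ⟨min (1 / x) (1 / 2), lt_min (by positivity) (by norm_num),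
    lt_of_le_of_lt (min_le_right _ _) (by norm_num), ?_⟩
  intro d L hL hLu f hf hf1
  have h := hrec d (NN d) (fun f J => Dn f.1 J) step ?_ ?_ ?_ ?_ L hL ⟨f, hf⟩
  · simp only [hLu, Dn_empty, foldl_val, Dn_univ f hf1] at h
    have hEn : 0 ≤ En f := by
      have h1 := En_avg_le (st (univ : Finset (Fin d))) (st_grp _) f hf
      have h2 := Dn_univ f hf1
      rw [Dn] at h2
      rw [h2] at h1
      exact h1
    have h3 : En (L.foldl (fun g b => avg (st {b}) g) f) ≤ (1 - 1 / x) * En f := by
      have : (1 / x) * En f ≤ En f - En (L.foldl (fun g b => avg (st {b}) g) f) := by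
        rw [one_div, ← div_eq_inv_mul, div_le_iff₀ hx]
        linarith
      linarith
    have h4 : min (1 / x) (1 / 2) * En f ≤ (1 / x) * En f :=
      mul_le_mul_of_nonneg_right (min_le_left _ _) hEn
    linarith
  · intro g J J' hs
    simp only [Dn]
    rw [← avg_avg_right (st J) (st J') (st_grp _) (st_grp _)
      (st_mono _ _ hs) g.1]
    exact En_avg_le _ (st_grp _) _ (avg_nonneg _ _ g.2)
  · intro g b J hb
    simp only [Dn, step]
    rw [avg_avg_right (st {b}) (st J) (st_grp _) (st_grp _)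
      (st_mono _ _ (by simpa using hb))]
  · intro g b
    simp only [Dn, step]
    rw [avg_avg_left (st {b}) (st {b}) (st_grp _) (st_grp _) (Subset.refl _),
      st_empty, avg_one]
  · intro g J e b he hb heb
    exact multi (w J.card) (hw _).2 d J e b he hb heb
      (fun a f' hf' hinv => face (w J.card) J.card (hface J.card) d J rfl e b he hb heb a f'
        hf' hinv) g.1 g.2

end Vale.Agent.P162
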