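import Mathlib

/-!
# P162 (Thorp shuffle): shared definitions
-/

namespace Vale.Agent.P162

open Finset

section basic
variable {α : Type*} [Fintype α]

/-- average of `f` over a finite type -/
noncomputable def Av (f : α → ℝ) : ℝ := (∑ a, f a) / (Fintype.card α : ℝ)

/-- average of `f log f` -/
noncomputable def En (f : α → ℝ) : ℝ := Av (fun a => f a * Real.log (f a))

end basic

section perm
variable {V : Type*} [Fintype V] [DecidableEq V]

/-- average of the left translates of `f` by the elements of `H` -/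
noncomputable def avg (H : Finset (Equiv.Perm V)) (f : Equiv.Perm V → ℝ) :
    Equiv.Perm V → ℝ :=
  fun p => (∑ h ∈ H, f (h * p)) / (H.card : ℝ)

/-- `H` is (the carrier of) a subgroup -/
structure Grp (H : Finset (Equiv.Perm V)) : Prop where
  one_mem : (1 : Equiv.Perm V) ∈ H
  mul_mem : ∀ g ∈ H, ∀ h ∈ H, g * h ∈ H
  inv_mem : ∀ h ∈ H, h⁻¹ ∈ H

end perm

section bits

/-- positions of the deck: `0/1` vectors of length `d` -/
abbrev Pos (d : ℕ) := Fin d → Bool

/-- forget the bits in `J` -/
def fg {d : ℕ} (J : Finset (Fin d)) (v : Pos d) : Pos d := fun i => if i ∈ J then false else v i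

/-- permutations of the positions which preserve all bits outside `J` -/
def st {d : ℕ} (J : Finset (Fin d)) : Finset (Equiv.Perm (Pos d)) :=
  univ.filter (fun h => ∀ v, fg J (h v) = fg J v)

/-- entropy of the information outside the bits in `J` -/
noncomputable def Dn {d : ℕ} (f : Equiv.Perm (Pos d) → ℝ) (J : Finset (Fin d)) : ℝ :=
  En (avg (st J) f)

/-- permutations supported on the `Z`-faces with index in `A`, preserving all bits outside `Y` -/
def loc {d : ℕ} (Z : Finset (Fin d)) (A : Finset (Pos d)) (Y : Finset (Fin d)) :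
    Finset (Equiv.Perm (Pos d)) :=
  univ.filter (fun h => (∀ v, fg Z v ∉ A → h v = v) ∧ ∀ v, fg Y (h v) = fg Y v)

end bits

section face

/-- the model face: two distinguished bits and `W` -/
abbrev Bx (W : Type) := Bool × Bool × W

variable (W : Type) [Fintype W] [DecidableEq W]

def P1 : Finset (Equiv.Perm (Bx W)) := univ.filter (fun h => ∀ x, (h x).1 = x.1)
def P2 : Finset (Equiv.Perm (Bx W)) := univ.filter (fun h => ∀ x, (h x).2.1 = x.2.1)
def P12 : Finset (Equiv.Perm (Bx W)) :=
  univ.filter (fun h => ∀ x, (h x).1 = x.1 ∧ (h x).2.1 = x.2.1)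

/-- colouring of the cards by the first bit of their position -/
def cs {W : Type} (g : Equiv.Perm (Bx W)) : Bx W → Bool := fun x => (g x).1
/-- colouring of the cards by the second bit of their position -/
def ct {W : Type} (g : Equiv.Perm (Bx W)) : Bx W → Bool := fun x => (g x).2.1

end face

section slice
variable {ι : Type} [Fintype ι] [DecidableEq ι]

/-- sign of a bit -/
def sz (b : Bool) : ℤ := if b then 1 else -1

def tot (s : ι → Bool) : ℤ := ∑ x, sz (s x)
def ip (s t : ι → Bool) : ℤ := ∑ x, sz (s x) * sz (t x)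

variable (ι) in
/-- balanced colourings -/
def Om : Finset (ι → Bool) := univ.filter (fun s => tot s = 0)

variable (ι) in
/-- pairs of balanced colourings which are orthogonal -/
def Om2 : Finset ((ι → Bool) × (ι → Bool)) :=
  univ.filter (fun q => tot q.1 = 0 ∧ tot q.2 = 0 ∧ ip q.1 q.2 = 0)

noncomputable def walsh (S : Finset ι) (s : ι → Bool) : ℝ := ∏ x ∈ S, (sz (s x) : ℝ)

noncomputable def hat (a : (ι → Bool) → ℝ) (S : Finset ι) : ℝ :=
  (∑ s, a s * walsh S s) / 2 ^ (Fintype.card ι)

/-- `L^{1+v}` norm with respect to the uniform measure on balanced colourings -/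
noncomputable def nm (v : ℝ) (a : (ι → Bool) → ℝ) : ℝ :=
  ((∑ s ∈ Om ι, |a s| ^ (1 + v)) / (Om ι).card) ^ (1 / (1 + v))

/-- the bilinear form at angle `φ` -/
noncomputable def form (φ : ℝ) (a b : (ι → Bool) → ℝ) : ℝ :=
  ∑ s ∈ Om ι, ∑ t ∈ Om ι, a s * b t * Real.cos (φ * (ip s t : ℝ))

end slice

/-- the convexity defect of `x ^ (1 - η)` -/
noncomputable def hf (η x : ℝ) : ℝ := (1 - η) * x + η - x ^ (1 - η)

section thorp

/-- One Thorp shuffle of a deck of `2 * m` cards (positions `0, ..., 2m-1`): the cards in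
positions `i` and `m + i` (`i < m`) go to positions `2i` and `2i+1`, in the order given by the
coin `c i`. -/
def thorpMap (m : ℕ) (c : Fin m → Bool) (i : Fin (2 * m)) : ℕ :=
  if h : (i : ℕ) < m then 2 * (i : ℕ) + (if c ⟨i, h⟩ then 1 else 0)
  else 2 * ((i : ℕ) - m) + (if c ⟨(i : ℕ) - m, by omega⟩ then 0 else 1)

/-- The law of the permutation of positions made by one Thorp shuffle. -/
noncomputable def thorpLaw (m : ℕ) (g : Equiv.Perm (Fin (2 * m))) : ℝ :=
  ((univ.filter (fun c : Fin m → Bool => ∀ i, (g i : ℕ) = thorpMap m c i)).card : ℝ) / 2 ^ m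

/-- The law after `t` independent Thorp shuffles. -/
noncomputable def thorpPow (m : ℕ) : ℕ → Equiv.Perm (Fin (2 * m)) → ℝ
  | 0 => fun g => if g = 1 then 1 else 0
  | t + 1 => fun g => ∑ h, thorpLaw m h * thorpPow m t (h⁻¹ * g)

/-- Total variation distance to uniform after `t` Thorp shuffles. -/
noncomputable def thorpTV (m t : ℕ) : ℝ :=
  (1 / 2) * ∑ g : Equiv.Perm (Fin (2 * m)), |thorpPow m t g - 1 / ((2 * m).factorial : ℝ)|

/-- The mixing time of the Thorp shuffle of `2 * m` cards. -/
noncomputable def thorpMix (m : ℕ) : ℕ := sInf {t : ℕ | thorpTV m t ≤ 1 / 4}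

end thorp

end Vale.Agent.P162
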