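import Vale.Agent.P162.Defs
import Vale.Agent.P162.Contract

namespace Vale.Agent.P162

open Finset

namespace MixAux

variable {α : Type} [Fintype α]

lemma Av_add' (f g : α → ℝ) : Av (fun p => f p + g p) = Av f + Av g := by
  simp only [Av, sum_add_distrib, add_div]

lemma Av_sub' (f g : α → ℝ) : Av (fun p => f p - g p) = Av f - Av g := by
  simp only [Av, sum_sub_distrib, sub_div]

lemma Av_mul' (c : ℝ) (f : α → ℝ) : Av (fun p => c * f p) = c * Av f := by
  simp only [Av, ← mul_sum, mul_div_assoc]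

lemma Av_one' [Nonempty α] : Av (fun _ : α => (1 : ℝ)) = 1 := by
  have : (Fintype.card α : ℝ) ≠ 0 := by exact_mod_cast Fintype.card_ne_zero
  simp [Av, this]

lemma Av_mono' (f g : α → ℝ) (h : ∀ p, f p ≤ g p) : Av f ≤ Av g := by
  simp only [Av]
  exact div_le_div_of_nonneg_right (sum_le_sum fun p _ => h p) (Nat.cast_nonneg _)

lemma sqrt_ineq (x : ℝ) (hx : 0 ≤ x) : (Real.sqrt x - 1) ^ 2 ≤ x * Real.log x - x + 1 := by
  rcases hx.eq_or_lt with h | h
  · rw [← h]; simp
  · have hs : 0 < Real.sqrt x := Real.sqrt_pos.mpr h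
    have h1 := Real.log_le_sub_one_of_pos (inv_pos.mpr hs)
    rw [Real.log_inv] at h1
    have h2 : Real.log x = 2 * Real.log (Real.sqrt x) := by
      rw [Real.log_sqrt hx]; ring
    have h3 : 1 - (Real.sqrt x)⁻¹ ≤ Real.log (Real.sqrt x) := by linarith
    have h4 : Real.sqrt x ^ 2 = x := Real.sq_sqrt hx
    have h5 : x * (Real.sqrt x)⁻¹ = Real.sqrt x := by
      rw [mul_inv_eq_iff_eq_mul₀ hs.ne', ← sq, h4]
    have h6 := mul_le_mul_of_nonneg_left h3 hx
    have h7 : x * (1 - (Real.sqrt x)⁻¹) = x - Real.sqrt x := by rw [mul_sub, mul_one, h5]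
    rw [h7] at h6
    rw [h2]
    nlinarith

/-- Pinsker-type inequality -/
lemma pinsker [Nonempty α] (g : α → ℝ) (hg : ∀ p, 0 ≤ g p) (h1 : Av g = 1) (hE : En g ≤ 1 / 16) :
    Av (fun p => |g p - 1|) ≤ 1 / 2 := by
  have hn : (0 : ℝ) < Fintype.card α := by exact_mod_cast Fintype.card_pos
  set u : α → ℝ := fun p => Real.sqrt (g p) with hu
  have hu2 : ∀ p, u p ^ 2 = g p := fun p => Real.sq_sqrt (hg p)
  have hu0 : ∀ p, 0 ≤ u p := fun p => Real.sqrt_nonneg _
  have hA : Av (fun p => (u p - 1) ^ 2) ≤ 1 / 16 := by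
    refine le_trans (Av_mono' _ (fun p => g p * Real.log (g p) - g p + 1)
      (fun p => sqrt_ineq _ (hg p))) ?_
    rw [Av_add', Av_sub', h1, Av_one']
    have : Av (fun p => g p * Real.log (g p)) = En g := rfl
    rw [this]; linarith
  have hB : Av (fun p => (u p + 1) ^ 2) ≤ 4 := by
    have e : (fun p => (u p + 1) ^ 2) = fun p => (g p + 2 * u p) + 1 := by
      funext p; rw [← hu2]; ring
    have hle : Av u ≤ 1 := by
      have := Av_mono' u (fun p => (1 / 2) * g p + 1 / 2 * 1) (fun p => by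
        rw [← hu2]; nlinarith [sq_nonneg (u p - 1)])
      rw [Av_add', Av_mul', h1] at this
      have e3 : Av (fun _ : α => (1 / 2 : ℝ) * 1) = 1 / 2 := by
        rw [Av_mul', Av_one']; norm_num
      rw [e3] at this
      linarith
    rw [e, Av_add', Av_add', Av_mul', h1, Av_one']
    linarith
  -- AM-GM: |g-1| = |u-1|(u+1) ≤ 2 (u-1)^2... with weights: ab ≤ 4a²/... use ab ≤ 4 a^2 /... 
  have hpt : ∀ p, |g p - 1| ≤ 4 * (u p - 1) ^ 2 + (1 / 16) * (u p + 1) ^ 2 := by
    intro p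
    have e : g p - 1 = (u p - 1) * (u p + 1) := by rw [← hu2]; ring
    rw [e, abs_mul, abs_of_nonneg (by linarith [hu0 p] : 0 ≤ u p + 1)]
    have := sq_nonneg (2 * |u p - 1| - (1 / 4) * (u p + 1))
    have h2 : |u p - 1| ^ 2 = (u p - 1) ^ 2 := sq_abs _
    nlinarith
  refine le_trans (Av_mono' _ _ hpt) ?_
  rw [Av_add', Av_mul', Av_mul']
  linarith

lemma En_le_log [Nonempty α] (g : α → ℝ) (hg : ∀ p, 0 ≤ g p) (h1 : Av g = 1) :
    En g ≤ Real.log (Fintype.card α) := by
  have hn : (0 : ℝ) < Fintype.card α := by exact_mod_cast Fintype.card_pos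
  have hle : ∀ p, g p ≤ Fintype.card α := by
    intro p
    have := single_le_sum (f := g) (fun p _ => hg p) (mem_univ p)
    rw [Av, div_eq_one_iff_eq hn.ne'] at h1
    linarith
  have : ∀ p, g p * Real.log (g p) ≤ Real.log (Fintype.card α) * g p := by
    intro p
    rcases (hg p).eq_or_lt with h | h
    · rw [← h]; simp
    · rw [mul_comm]
      exact mul_le_mul_of_nonneg_right (Real.log_le_log h (hle p)) h.le
  refine le_trans (Av_mono' _ _ this) ?_
  rw [Av_mul', h1, mul_one]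

end MixAux

open MixAux

theorem mix : ∃ C : ℝ, 0 < C ∧ ∀ (d : ℕ) (L : List (Fin d)), 1 ≤ d → L.Nodup →
    L.toFinset = univ → ∀ f : Equiv.Perm (Pos d) → ℝ, (∀ p, 0 ≤ f p) → Av f = 1 →
      ∀ r : ℕ, C * d ≤ r →
        Av (fun p => |(fun g => L.foldl (fun g b => avg (st {b}) g) g)^[r] f p - 1|) ≤ 1 / 2 := by
  obtain ⟨c, hc0, hc1, hcon⟩ := contract
  refine ⟨5 / c, by positivity, ?_⟩
  intro d L hd hL hLu f hf hf1 r hr
  set P : (Equiv.Perm (Pos d) → ℝ) → (Equiv.Perm (Pos d) → ℝ) :=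
    fun g => L.foldl (fun g b => avg (st {b}) g) g with hP
  have hPpres : ∀ (L' : List (Fin d)) (g : Equiv.Perm (Pos d) → ℝ), (∀ p, 0 ≤ g p) → Av g = 1 →
      (∀ p, 0 ≤ L'.foldl (fun g b => avg (st {b}) g) g p) ∧
        Av (L'.foldl (fun g b => avg (st {b}) g) g) = 1 := by
    intro L'
    induction L' with
    | nil => intro g h0 h1; exact ⟨h0, h1⟩
    | cons b L' ih =>
      intro g h0 h1
      exact ih _ (avg_nonneg _ _ h0) (by rw [Av_avg _ (st_grp _), h1])
  have hiter : ∀ n : ℕ, (∀ p, 0 ≤ P^[n] f p) ∧ Av (P^[n] f) = 1 ∧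
      En (P^[n] f) ≤ (1 - c) ^ n * En f := by
    intro n
    induction n with
    | zero => exact ⟨hf, hf1, by simp⟩
    | succ n ih =>
      obtain ⟨h0, h1, h2⟩ := ih
      rw [Function.iterate_succ_apply']
      have hp := hPpres L _ h0 h1
      refine ⟨hp.1, hp.2, ?_⟩
      have := hcon d L hL hLu _ h0 h1
      calc _ ≤ (1 - c) * En (P^[n] f) := this
        _ ≤ (1 - c) * ((1 - c) ^ n * En f) := mul_le_mul_of_nonneg_left h2 (by linarith)
        _ = _ := by ring
  obtain ⟨h0, h1, h2⟩ := hiter r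
  apply pinsker _ h0 h1
  refine le_trans h2 ?_
  have hEn : En f ≤ Real.exp (2 * d) := by
    refine le_trans (En_le_log f hf hf1) ?_
    have hcard : Fintype.card (Equiv.Perm (Pos d)) = (2 ^ d).factorial := by
      rw [Fintype.card_perm]
      congr 1
      simp
    rw [hcard]
    have h3 : ((2 ^ d).factorial : ℝ) ≤ ((2 : ℝ) ^ d) ^ (2 ^ d) := by
      exact_mod_cast Nat.factorial_le_pow (2 ^ d)
    have h4 : Real.log ((2 ^ d).factorial : ℝ) ≤ (2 ^ d : ℕ) * (d * Real.log 2) := by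
      refine le_trans (Real.log_le_log (by exact_mod_cast Nat.factorial_pos _) h3) ?_
      rw [Real.log_pow, Real.log_pow]
    refine le_trans h4 ?_
    have hl2 : Real.log 2 ≤ 1 := by linarith [Real.log_two_lt_d9]
    have h5 : (d : ℝ) ≤ Real.exp d := by linarith [Real.add_one_le_exp (d : ℝ)]
    have h6 : ((2 ^ d : ℕ) : ℝ) ≤ Real.exp d := by
      push_cast
      rw [← Real.exp_one_rpow (d : ℝ), Real.rpow_natCast]
      exact pow_le_pow_left₀ (by norm_num) (by linarith [Real.add_one_le_exp (1 : ℝ)]) _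
    calc ((2 ^ d : ℕ) : ℝ) * (d * Real.log 2) ≤ Real.exp d * (Real.exp d * 1) := by
          apply mul_le_mul h6 _ (by positivity) (Real.exp_pos _).le
          exact mul_le_mul h5 hl2 (Real.log_nonneg (by norm_num)) (Real.exp_pos _).le
      _ = Real.exp (2 * d) := by rw [mul_one, ← Real.exp_add]; ring_nf
  have hpow : (1 - c) ^ r ≤ Real.exp (-(5 * d)) := by
    have h3 : (1 - c) ^ r ≤ (Real.exp (-c)) ^ r :=
      pow_le_pow_left₀ (by linarith) (by linarith [Real.add_one_le_exp (-c)]) _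
    refine le_trans h3 ?_
    rw [← Real.exp_nat_mul]
    apply Real.exp_le_exp.mpr
    have : 5 * (d : ℝ) ≤ r * c := by
      have := mul_le_mul_of_nonneg_right hr hc0.le
      have e : 5 / c * d * c = 5 * d := by field_simp
      rw [e] at this
      exact this
    linarith
  have hd1 : (1 : ℝ) ≤ d := by exact_mod_cast hd
  calc (1 - c) ^ r * En f ≤ (1 - c) ^ r * Real.exp (2 * d) :=
        mul_le_mul_of_nonneg_left hEn (pow_nonneg (by linarith) _)
    _ ≤ Real.exp (-(5 * d)) * Real.exp (2 * d) :=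
        mul_le_mul_of_nonneg_right hpow (Real.exp_pos _).le
    _ = Real.exp (-(3 * d)) := by rw [← Real.exp_add]; ring_nf
    _ ≤ Real.exp (-3) := Real.exp_le_exp.mpr (by linarith)
    _ ≤ 1 / 16 := by
      have h3 : (16 : ℝ) ≤ Real.exp 3 := by
        have h4 := Real.exp_one_gt_d9
        have : Real.exp 3 = Real.exp 1 ^ 3 := by rw [← Real.exp_nat_mul]; norm_num
        rw [this]
        calc (16 : ℝ) ≤ 2.7182818283 ^ 3 := by norm_num
          _ ≤ _ := pow_le_pow_left₀ (by norm_num) h4.le _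
      rw [Real.exp_neg, ← one_div]
      exact one_div_le_one_div_of_le (by norm_num) h3

end Vale.Agent.P162
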