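import Vale.Agent.P162.Defs

/-!
# P162, module X: the Thorp shuffle is the descending pass
-/

namespace Vale.Agent.P162

open Finset

namespace ThorpAux

lemma thorpMap_lt (m : ℕ) (c : Fin m → Bool) (i : Fin (2 * m)) : thorpMap m c i < 2 * m := by
  unfold thorpMap
  have := i.2
  split_ifs <;> omega

lemma thorpMap_div (m : ℕ) (c : Fin m → Bool) (i : Fin (2 * m)) :
    thorpMap m c i / 2 = if (i : ℕ) < m then (i : ℕ) else (i : ℕ) - m := by
  unfold thorpMap
  have := i.2
  split_ifs <;> omega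

lemma thorpMap_lo (m : ℕ) (c : Fin m → Bool) (j : ℕ) (hj : j < m) :
    thorpMap m c ⟨j, by omega⟩ = 2 * j + if c ⟨j, hj⟩ then 1 else 0 := by
  unfold thorpMap
  rw [dif_pos hj]

lemma thorpMap_hi (m : ℕ) (c : Fin m → Bool) (j : ℕ) (hj : j < m) :
    thorpMap m c ⟨m + j, by omega⟩ = 2 * j + if c ⟨j, hj⟩ then 0 else 1 := by
  unfold thorpMap
  have h : ¬ (m + j < m) := by omega
  simp only [h, dite_false, Nat.add_sub_cancel_left]

lemma cases_fin (m : ℕ) (i : Fin (2 * m)) :
    (∃ j, ∃ hj : j < m, i = ⟨j, by omega⟩) ∨ (∃ j, ∃ hj : j < m, i = ⟨m + j, by omega⟩) := by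
  by_cases h : (i : ℕ) < m
  · exact Or.inl ⟨i, h, rfl⟩
  · refine Or.inr ⟨i - m, by have := i.2; omega, ?_⟩
    apply Fin.ext
    simp only
    omega

lemma thorpMap_inj (m : ℕ) (c : Fin m → Bool) (i j : Fin (2 * m))
    (h : thorpMap m c i = thorpMap m c j) : i = j := by
  rcases cases_fin m i with ⟨a, ha, rfl⟩ | ⟨a, ha, rfl⟩ <;>
  rcases cases_fin m j with ⟨b, hb, rfl⟩ | ⟨b, hb, rfl⟩
  · rw [thorpMap_lo m c a ha, thorpMap_lo m c b hb] at h
    have : a = b := by split_ifs at h <;> omega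
    subst this
    rfl
  · rw [thorpMap_lo m c a ha, thorpMap_hi m c b hb] at h
    have : a = b := by split_ifs at h <;> omega
    subst this
    split_ifs at h <;> omega
  · rw [thorpMap_hi m c a ha, thorpMap_lo m c b hb] at h
    have : a = b := by split_ifs at h <;> omega
    subst this
    split_ifs at h <;> omega
  · rw [thorpMap_hi m c a ha, thorpMap_hi m c b hb] at h
    have : a = b := by split_ifs at h <;> omega
    subst this
    rfl

/-- the permutation of one shuffle -/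
noncomputable def T (m : ℕ) (c : Fin m → Bool) : Equiv.Perm (Fin (2 * m)) :=
  Equiv.ofBijective (fun i => ⟨thorpMap m c i, thorpMap_lt m c i⟩)
    (Finite.injective_iff_bijective.mp fun i j h =>
      thorpMap_inj m c i j (congrArg Fin.val h))

lemma T_val (m : ℕ) (c : Fin m → Bool) (i : Fin (2 * m)) : (T m c i : ℕ) = thorpMap m c i := rfl

lemma T_iff (m : ℕ) (c : Fin m → Bool) (g : Equiv.Perm (Fin (2 * m))) :
    (∀ i, (g i : ℕ) = thorpMap m c i) ↔ T m c = g := by
  constructor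
  · intro h
    apply Equiv.ext
    intro i
    apply Fin.ext
    rw [T_val, h i]
  · rintro rfl i
    rfl

lemma law_sum (m : ℕ) (F : Equiv.Perm (Fin (2 * m)) → ℝ) :
    ∑ h, thorpLaw m h * F h = (∑ c, F (T m c)) / 2 ^ m := by
  have e : ∀ h, thorpLaw m h * F h = (∑ c, if T m c = h then F h else 0) / 2 ^ m := by
    intro h
    rw [thorpLaw, Finset.card_eq_sum_ones, Nat.cast_sum, Finset.sum_filter, div_mul_eq_mul_div,
      Finset.sum_mul]
    congr 1
    refine sum_congr rfl fun c _ => ?_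
    rw [if_congr (T_iff m c h) rfl rfl]
    split_ifs <;> simp
  rw [Finset.sum_congr rfl fun h _ => e h, ← Finset.sum_div, Finset.sum_comm]
  congr 1
  refine sum_congr rfl fun c _ => ?_
  rw [Finset.sum_ite_eq]
  simp

lemma law_one (m : ℕ) : ∑ h, thorpLaw m h = 1 := by
  have h := law_sum m fun _ => 1
  simp only [mul_one] at h
  rw [h]
  simp

lemma law_nonneg (m : ℕ) (g : Equiv.Perm (Fin (2 * m))) : 0 ≤ thorpLaw m g := by
  unfold thorpLaw
  positivity

lemma ai {α : Type} (f : Equiv.Perm α) (x : α) : f (f⁻¹ x) = x := f.apply_symm_apply x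

lemma eq_of_bits {n x y : ℕ} (hx : x < 2 ^ n) (hy : y < 2 ^ n)
    (h : ∀ k < n, Nat.testBit x k = Nat.testBit y k) : x = y := by
  apply Nat.eq_of_testBit_eq
  intro k
  by_cases hk : k < n
  · exact h k hk
  · rw [Nat.testBit_lt_two_pow (hx.trans_le (Nat.pow_le_pow_right (by norm_num) (not_lt.mp hk))),
      Nat.testBit_lt_two_pow (hy.trans_le (Nat.pow_le_pow_right (by norm_num) (not_lt.mp hk)))]

/-- the bits of a position -/
noncomputable def E (e : ℕ) : Fin (2 * 2 ^ e) ≃ Pos (e + 1) :=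
  Equiv.ofBijective (fun i k => Nat.testBit i k) <| by
    rw [Fintype.bijective_iff_injective_and_card]
    constructor
    · intro i j h
      apply Fin.ext
      have h2 : 2 * 2 ^ e = 2 ^ (e + 1) := by ring
      refine eq_of_bits (n := e + 1) (h2 ▸ i.2) (h2 ▸ j.2) fun k hk => ?_
      exact congrFun h ⟨k, hk⟩
    · simp [pow_succ, mul_comm]

lemma E_apply (e : ℕ) (i : Fin (2 * 2 ^ e)) (k : Fin (e + 1)) : E e i k = Nat.testBit i k := rfl

/-- the rotation of the bits -/
def rot (e : ℕ) : Equiv.Perm (Pos (e + 1)) where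
  toFun v k := v (k - 1)
  invFun v k := v (k + 1)
  left_inv v := by
    funext k
    simp
  right_inv v := by
    funext k
    simp

lemma rot_pow (e t : ℕ) (v : Pos (e + 1)) (k : Fin (e + 1)) :
    ((rot e) ^ t) v k = v (k - t • 1) := by
  induction t generalizing k with
  | zero => simp
  | succ t ih =>
    rw [pow_succ', Equiv.Perm.mul_apply]
    show ((rot e ^ t) v) (k - 1) = _
    rw [ih, succ_nsmul']
    congr 1
    abel

lemma rot_inv_pow (e t : ℕ) (v : Pos (e + 1)) (k : Fin (e + 1)) :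
    ((rot e) ^ t)⁻¹ v k = v (k + t • 1) := by
  have h := rot_pow e t (((rot e) ^ t)⁻¹ v) (k + t • 1)
  rw [ai, add_sub_cancel_right] at h
  exact h.symm

lemma rot_full (e : ℕ) : (rot e) ^ (e + 1) = 1 := by
  apply Equiv.ext
  intro v
  funext k
  rw [rot_pow]
  have : (e + 1) • (1 : Fin (e + 1)) = 0 := by
    have h := card_nsmul_eq_zero' (G := Fin (e + 1)) (x := 1)
    simpa using h
  rw [this, sub_zero]
  rfl

lemma mem_st {d : ℕ} {b : Fin d} {s : Equiv.Perm (Pos d)} :
    s ∈ st {b} ↔ ∀ v k, k ≠ b → s v k = v k := by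
  simp only [st, mem_filter, mem_univ, true_and]
  constructor
  · intro h v k hk
    have h1 := congrFun (h v) k
    simpa [fg, hk] using h1
  · intro h v
    funext k
    by_cases hk : k = b
    · simp [fg, hk]
    · simp [fg, hk, h v k hk]

lemma inv_st {d : ℕ} {b : Fin d} {s : Equiv.Perm (Pos d)} (hs : s ∈ st {b}) :
    s⁻¹ ∈ st {b} := by
  rw [mem_st] at hs ⊢
  intro v k hk
  have h := hs (s⁻¹ v) k hk
  rw [ai] at h
  exact h.symm

/-- the upper bits of the image are the lower bits -/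
lemma T_bits (e : ℕ) (c : Fin (2 ^ e) → Bool) (i : Fin (2 * 2 ^ e)) (k : Fin (e + 1))
    (hk : k ≠ Fin.last e) : E e (T (2 ^ e) c i) (k + 1) = E e i k := by
  obtain ⟨k, rfl⟩ : ∃ k', Fin.castSucc k' = k := ⟨k.castPred hk, Fin.castSucc_castPred k hk⟩
  rw [Fin.coeSucc_eq_succ, E_apply, E_apply, T_val, Fin.val_succ, Nat.testBit_succ,
    Fin.val_castSucc, thorpMap_div]
  rcases cases_fin (2 ^ e) i with ⟨a, ha, rfl⟩ | ⟨a, ha, rfl⟩
  · rw [if_pos ha]
  · have h : ¬ (2 ^ e + a < 2 ^ e) := by omega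
    rw [if_neg h, Nat.add_sub_cancel_left, Nat.testBit_two_pow_add_gt k.2]

/-- the shuffle without the rotation -/
noncomputable def S (e : ℕ) (c : Fin (2 ^ e) → Bool) : Equiv.Perm (Pos (e + 1)) :=
  (rot e)⁻¹ * (E e).permCongrHom (T (2 ^ e) c)

lemma S_apply (e : ℕ) (c : Fin (2 ^ e) → Bool) (i : Fin (2 * 2 ^ e)) (k : Fin (e + 1)) :
    S e c (E e i) k = E e (T (2 ^ e) c i) (k + 1) := by
  rw [S, Equiv.Perm.mul_apply]
  show ((E e).permCongrHom (T (2 ^ e) c)) (E e i) (k + 1) = _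
  rw [Equiv.permCongrHom_coe, Equiv.permCongr_apply, Equiv.symm_apply_apply]

lemma S_mem (e : ℕ) (c : Fin (2 ^ e) → Bool) : S e c ∈ st {Fin.last e} := by
  rw [mem_st]
  intro v k hk
  obtain ⟨i, rfl⟩ := (E e).surjective v
  rw [S_apply, T_bits e c i k hk]

lemma S_last_lo (e : ℕ) (c : Fin (2 ^ e) → Bool) (j : ℕ) (hj : j < 2 ^ e) :
    S e c (E e ⟨j, by omega⟩) (Fin.last e) = c ⟨j, hj⟩ := by
  rw [S_apply, Fin.last_add_one, E_apply, T_val, Fin.val_zero, thorpMap_lo _ _ j hj,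
    Nat.testBit_zero]
  cases c ⟨j, hj⟩ <;> simp

lemma S_last_hi (e : ℕ) (c : Fin (2 ^ e) → Bool) (j : ℕ) (hj : j < 2 ^ e) :
    S e c (E e ⟨2 ^ e + j, by omega⟩) (Fin.last e) = !c ⟨j, hj⟩ := by
  rw [S_apply, Fin.last_add_one, E_apply, T_val, Fin.val_zero, thorpMap_hi _ _ j hj,
    Nat.testBit_zero]
  cases c ⟨j, hj⟩ <;> simp

lemma S_inj (e : ℕ) : Function.Injective (S e) := by
  intro c c' h
  funext j
  have h1 := S_last_lo e c j j.2
  have h2 := S_last_lo e c' j j.2
  rw [h] at h1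
  exact h1.symm.trans h2

lemma E_hi (e j : ℕ) (hj : j < 2 ^ e) (k : Fin (e + 1)) (hk : k ≠ Fin.last e) :
    E e ⟨2 ^ e + j, by omega⟩ k = E e ⟨j, by omega⟩ k := by
  obtain ⟨k, rfl⟩ : ∃ k', Fin.castSucc k' = k := ⟨k.castPred hk, Fin.castSucc_castPred k hk⟩
  rw [E_apply, E_apply]
  exact Nat.testBit_two_pow_add_gt k.2 _

lemma S_surj (e : ℕ) {s : Equiv.Perm (Pos (e + 1))} (hs : s ∈ st {Fin.last e}) :
    ∃ c, S e c = s := by
  refine ⟨fun j => s (E e ⟨j, by have := j.2; omega⟩) (Fin.last e), ?_⟩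
  apply Equiv.ext
  intro v
  funext k
  by_cases hk : k = Fin.last e
  · subst hk
    obtain ⟨i, rfl⟩ := (E e).surjective v
    rcases cases_fin (2 ^ e) i with ⟨a, ha, rfl⟩ | ⟨a, ha, rfl⟩
    · rw [S_last_lo e _ a ha]
    · rw [S_last_hi e _ a ha]
      have hne : s (E e ⟨2 ^ e + a, by omega⟩) ≠ s (E e ⟨a, by omega⟩) := by
        intro h
        have := congrArg Fin.val ((E e).injective (s.injective h))
        simp only at this
        have : 0 < 2 ^ e := by positivity
        omega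
      by_contra hcon
      apply hne
      funext k
      by_cases hk : k = Fin.last e
      · subst hk
        revert hcon
        simp only
        cases s (E e ⟨2 ^ e + a, by omega⟩) (Fin.last e) <;>
          cases s (E e ⟨a, by omega⟩) (Fin.last e) <;> simp
      · rw [mem_st.mp hs _ _ hk, mem_st.mp hs _ _ hk, E_hi e a ha k hk]
  · rw [mem_st.mp (S_mem e _) v k hk, mem_st.mp hs v k hk]

lemma S_sum (e : ℕ) (F : Equiv.Perm (Pos (e + 1)) → ℝ) :
    ∑ c, F (S e c) = ∑ s ∈ st {Fin.last e}, F s :=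
  Finset.sum_bij (fun c _ => S e c) (fun c _ => S_mem e c) (fun _ _ _ _ h => S_inj e h)
    (fun s hs => by obtain ⟨c, hc⟩ := S_surj e hs; exact ⟨c, mem_univ _, hc⟩) (fun _ _ => rfl)

/-- the law of the state after `t` shuffles, without the rotations, times `c` -/
noncomputable def Q (e : ℕ) (c : ℝ) (t : ℕ) (p : Equiv.Perm (Pos (e + 1))) : ℝ :=
  c * thorpPow (2 ^ e) t ((E e).permCongrHom.symm ((rot e) ^ t * p))

lemma conj_mem (e t : ℕ) {s : Equiv.Perm (Pos (e + 1))} (hs : s ∈ st {Fin.last e}) :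
    ((rot e) ^ t)⁻¹ * s⁻¹ * (rot e) ^ t ∈ st {Fin.last e - t • 1} := by
  rw [mem_st]
  intro v k hk
  have h1 := mem_st.mp (inv_st hs) ((rot e ^ t) v) (k + t • 1)
    (fun h => hk (eq_sub_of_add_eq h))
  rw [rot_pow, add_sub_cancel_right] at h1
  rw [Equiv.Perm.mul_apply, Equiv.Perm.mul_apply, rot_inv_pow, h1]

lemma conj_mem' (e t : ℕ) {h : Equiv.Perm (Pos (e + 1))} (hh : h ∈ st {Fin.last e - t • 1}) :
    (rot e) ^ t * h⁻¹ * ((rot e) ^ t)⁻¹ ∈ st {Fin.last e} := by
  rw [mem_st]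
  intro v k hk
  have h1 := mem_st.mp (inv_st hh) (((rot e) ^ t)⁻¹ v) (k - t • 1)
    (fun h => hk (sub_left_injective h))
  rw [rot_inv_pow, sub_add_cancel] at h1
  rw [Equiv.Perm.mul_apply, Equiv.Perm.mul_apply, rot_pow, h1]

lemma sum_conj (e t : ℕ) (F : Equiv.Perm (Pos (e + 1)) → ℝ) :
    ∑ s ∈ st {Fin.last e}, F (((rot e) ^ t)⁻¹ * s⁻¹ * (rot e) ^ t) =
      ∑ h ∈ st {Fin.last e - t • 1}, F h := by
  refine Finset.sum_nbij' (fun s => ((rot e) ^ t)⁻¹ * s⁻¹ * (rot e) ^ t)
    (fun h => (rot e) ^ t * h⁻¹ * ((rot e) ^ t)⁻¹) (fun s hs => conj_mem e t hs)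
    (fun h hh => conj_mem' e t hh) (fun s _ => ?_) (fun h _ => ?_) (fun _ _ => rfl)
  · group
  · group

lemma card_st (e t : ℕ) : ((st {Fin.last e - t • 1} : Finset (Equiv.Perm (Pos (e + 1)))).card : ℝ)
    = 2 ^ (2 ^ e) := by
  have h1 := sum_conj e t fun _ => 1
  have h2 := S_sum e fun _ => 1
  simp only [sum_const, nsmul_eq_mul, mul_one] at h1 h2
  rw [← h1, ← h2]
  simp

lemma step (e : ℕ) (c : ℝ) (t : ℕ) :
    Q e c (t + 1) = avg (st {Fin.last e - t • 1}) (Q e c t) := by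
  funext p
  have h1 := law_sum (2 ^ e) fun h => thorpPow (2 ^ e) t
    (h⁻¹ * (E e).permCongrHom.symm ((rot e) ^ (t + 1) * p))
  have h2 : ∀ x, thorpPow (2 ^ e) t
      ((T (2 ^ e) x)⁻¹ * (E e).permCongrHom.symm ((rot e) ^ (t + 1) * p)) =
      thorpPow (2 ^ e) t ((E e).permCongrHom.symm ((S e x)⁻¹ * ((rot e) ^ t * p))) := by
    intro x
    congr 1
    apply (E e).permCongrHom.injective
    rw [map_mul, map_inv, MulEquiv.apply_symm_apply, MulEquiv.apply_symm_apply, S, mul_inv_rev,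
      inv_inv, pow_succ']
    simp only [mul_assoc]
  have h3 := S_sum e fun s => thorpPow (2 ^ e) t
    ((E e).permCongrHom.symm (s⁻¹ * ((rot e) ^ t * p)))
  have h4 := sum_conj e t fun h => Q e c t (h * p)
  have h5 : ∀ s : Equiv.Perm (Pos (e + 1)),
      Q e c t (((rot e) ^ t)⁻¹ * s⁻¹ * (rot e) ^ t * p) = c * thorpPow (2 ^ e) t
      ((E e).permCongrHom.symm (s⁻¹ * ((rot e) ^ t * p))) := by
    intro s
    rw [Q]
    congr 3
    simp only [mul_assoc, mul_inv_cancel_left]
  rw [avg, card_st, ← h4]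
  simp only [h5, ← Finset.mul_sum]
  rw [← h3, ← Finset.sum_congr rfl fun x _ => h2 x, mul_div_assoc, ← h1]
  rfl

/-- the bits in descending order -/
def L (e : ℕ) (j : ℕ) : List (Fin (e + 1)) := (List.range j).map fun t => Fin.last e - t • 1

lemma val_nsmul (e t : ℕ) : ((t • (1 : Fin (e + 1)) : Fin (e + 1)) : ℕ) = t % (e + 1) := by
  induction t with
  | zero => simp
  | succ t ih =>
    rw [succ_nsmul, Fin.val_add, ih]
    simp [Nat.add_mod]

lemma L_nodup (e : ℕ) : (L e (e + 1)).Nodup := by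
  refine List.Nodup.map_on ?_ List.nodup_range
  intro a ha b hb h
  rw [List.mem_range] at ha hb
  have h1 := congrArg Fin.val (sub_right_injective h)
  rw [val_nsmul, val_nsmul, Nat.mod_eq_of_lt ha, Nat.mod_eq_of_lt hb] at h1
  exact h1

lemma L_univ (e : ℕ) : (L e (e + 1)).toFinset = univ := by
  apply Finset.eq_univ_of_card
  rw [List.toFinset_card_of_nodup (L_nodup e), L, List.length_map, List.length_range,
    Fintype.card_fin]

lemma smul_full (e : ℕ) : (e + 1) • (1 : Fin (e + 1)) = 0 := by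
  apply Fin.ext
  rw [val_nsmul]
  simp

lemma fold_Q (e : ℕ) (c : ℝ) (r j : ℕ) :
    Q e c (r * (e + 1) + j) =
      (L e j).foldl (fun h b => avg (st {b}) h) (Q e c (r * (e + 1))) := by
  induction j with
  | zero => rfl
  | succ j ih =>
    have h1 : (r * (e + 1) + j) • (1 : Fin (e + 1)) = j • 1 := by
      rw [add_nsmul, mul_nsmul', smul_full, smul_zero, zero_add]
    rw [L, List.range_succ, List.map_append, List.foldl_append, ← L, ← ih, ← add_assoc, step, h1]
    rfl

end ThorpAux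

open ThorpAux

/-- total variation distance does not increase -/
theorem thorpTV_mono (m t : ℕ) : thorpTV m (t + 1) ≤ thorpTV m t := by
  unfold thorpTV
  apply mul_le_mul_of_nonneg_left _ (by norm_num)
  calc ∑ g : Equiv.Perm (Fin (2 * m)), |thorpPow m (t + 1) g - 1 / ((2 * m).factorial : ℝ)|
      ≤ ∑ g : Equiv.Perm (Fin (2 * m)), ∑ h, thorpLaw m h *
        |thorpPow m t (h⁻¹ * g) - 1 / ((2 * m).factorial : ℝ)| := by
        refine sum_le_sum fun g _ => ?_
        have e : thorpPow m (t + 1) g - 1 / ((2 * m).factorial : ℝ) =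
            ∑ h, thorpLaw m h * (thorpPow m t (h⁻¹ * g) - 1 / ((2 * m).factorial : ℝ)) := by
          simp only [mul_sub, Finset.sum_sub_distrib, ← Finset.sum_mul, law_one, one_mul]
          rfl
        rw [e]
        refine (Finset.abs_sum_le_sum_abs _ _).trans (le_of_eq ?_)
        refine sum_congr rfl fun h _ => ?_
        rw [abs_mul, abs_of_nonneg (law_nonneg m h)]
    _ = ∑ h, thorpLaw m h * ∑ g : Equiv.Perm (Fin (2 * m)),
        |thorpPow m t g - 1 / ((2 * m).factorial : ℝ)| := by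
        rw [Finset.sum_comm]
        refine sum_congr rfl fun h _ => ?_
        rw [← Finset.mul_sum]
        congr 1
        exact Equiv.sum_comp (Equiv.mulLeft h⁻¹)
          (fun g => |thorpPow m t g - 1 / ((2 * m).factorial : ℝ)|)
    _ = _ := by rw [← Finset.sum_mul, law_one, one_mul]

/-- the law of `e + 1` Thorp shuffles of `2^(e+1)` cards, read on bit vectors, is one pass -/
theorem thorp_pass (e : ℕ) :
    ∃ (E : Fin (2 * 2 ^ e) ≃ Pos (e + 1)) (L : List (Fin (e + 1))), L.Nodup ∧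
      L.toFinset = univ ∧ ∀ (r : ℕ) (g : Equiv.Perm (Fin (2 * 2 ^ e))),
        ((2 * 2 ^ e).factorial : ℝ) * thorpPow (2 ^ e) (r * (e + 1)) g =
          ((fun h => L.foldl (fun h b => avg (st {b}) h) h)^[r]
            (fun p : Equiv.Perm (Pos (e + 1)) => if p = 1 then ((2 * 2 ^ e).factorial : ℝ) else 0))
            (E.permCongr g) := by
  refine ⟨ThorpAux.E e, ThorpAux.L e (e + 1), L_nodup e, L_univ e, fun r g => ?_⟩
  have h0 : (fun p : Equiv.Perm (Pos (e + 1)) =>
      if p = 1 then ((2 * 2 ^ e).factorial : ℝ) else 0) = Q e ((2 * 2 ^ e).factorial : ℝ) 0 := by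
    funext p
    have hz : ∀ g, thorpPow (2 ^ e) 0 g = if g = 1 then 1 else 0 := fun _ => rfl
    rw [Q, pow_zero, one_mul, hz]
    by_cases hp : p = 1
    · rw [hp, map_one, if_pos rfl, if_pos rfl, mul_one]
    · rw [if_neg hp, if_neg, mul_zero]
      intro h
      apply hp
      rw [← MulEquiv.apply_symm_apply (ThorpAux.E e).permCongrHom p, h, map_one]
  have h1 : ∀ r : ℕ, (fun h => (ThorpAux.L e (e + 1)).foldl (fun h b => avg (st {b}) h) h)^[r]
      (Q e ((2 * 2 ^ e).factorial : ℝ) 0) = Q e ((2 * 2 ^ e).factorial : ℝ) (r * (e + 1)) := by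
    intro r
    induction r with
    | zero => rw [Function.iterate_zero, id, zero_mul]
    | succ r ih =>
      rw [Function.iterate_succ_apply', ih, add_mul, one_mul, fold_Q]
  have h2 : (ThorpAux.E e).permCongrHom.symm ((ThorpAux.E e).permCongr g) = g :=
    (ThorpAux.E e).permCongrHom.symm_apply_apply g
  rw [h0, h1, Q, mul_comm r, pow_mul, rot_full, one_pow, one_mul, h2]

end Vale.Agent.P162
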