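import Vale.Agent.P162.Defs
import Vale.Agent.P162.Mix
import Vale.Agent.P162.Thorp

namespace Vale.Agent.P162

open Finset

theorem result : ∃ C : ℝ, 0 < C ∧ ∀ e : ℕ,
    (∀ t : ℕ, C * ((e : ℝ) + 1) ^ 2 ≤ t → thorpTV (2 ^ e) t ≤ 1 / 4) ∧
      (thorpMix (2 ^ e) : ℝ) ≤ C * ((e : ℝ) + 1) ^ 2 := by
  obtain ⟨C, hC, hmix⟩ := mix
  refine ⟨C + 1, by linarith, fun e => ?_⟩
  set d : ℕ := e + 1 with hd
  have hdR : ((e : ℝ) + 1) = (d : ℝ) := by rw [hd]; push_cast; ring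
  rw [hdR]
  have hd1 : (1 : ℝ) ≤ d := by rw [hd]; push_cast; linarith [(Nat.cast_nonneg e : (0 : ℝ) ≤ e)]
  set r0 : ℕ := ⌈C * d⌉₊ with hr0
  have hr1 : C * d ≤ r0 := Nat.le_ceil _
  have hr2 : (r0 : ℝ) ≤ C * d + 1 := (Nat.ceil_lt_add_one (by positivity)).le
  obtain ⟨E, L, hL, hLu, hpass⟩ := thorp_pass e
  set N : ℕ := (2 * 2 ^ e).factorial with hN
  have hN0 : (0 : ℝ) < N := by exact_mod_cast Nat.factorial_pos _
  set f0 : Equiv.Perm (Pos d) → ℝ := fun p => if p = 1 then (N : ℝ) else 0 with hf0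
  have hcardPos : Fintype.card (Pos d) = 2 * 2 ^ e := by
    simp [hd, pow_succ, mul_comm]
  have hcard : Fintype.card (Equiv.Perm (Pos d)) = N := by
    rw [Fintype.card_perm, hcardPos]
  have hAv : Av f0 = 1 := by
    rw [Av, hcard]
    simp only [hf0, sum_ite_eq', mem_univ, if_true]
    exact div_self hN0.ne'
  have hf00 : ∀ p, 0 ≤ f0 p := by
    intro p
    simp only [hf0]
    split_ifs
    · exact hN0.le
    · exact le_rfl
  have hm := hmix d L (by omega) hL hLu f0 hf00 hAv r0 hr1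
  have htv : thorpTV (2 ^ e) (r0 * d) ≤ 1 / 4 := by
    rw [thorpTV]
    have h1 : ∀ g : Equiv.Perm (Fin (2 * 2 ^ e)),
        |thorpPow (2 ^ e) (r0 * d) g - 1 / ((2 * 2 ^ e).factorial : ℝ)| =
          |(fun h => L.foldl (fun h b => avg (st {b}) h) h)^[r0] f0 (E.permCongr g) - 1| / N := by
      intro g
      rw [← hpass r0 g, ← hN]
      rw [eq_div_iff hN0.ne', ← abs_of_pos hN0, ← abs_mul, abs_of_pos hN0]
      congr 1
      rw [sub_mul, one_div, inv_mul_cancel₀ hN0.ne', mul_comm]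
    rw [sum_congr rfl (fun g _ => h1 g), ← sum_div]
    have h2 := Equiv.sum_comp E.permCongr
      (fun p => |(fun h => L.foldl (fun h b => avg (st {b}) h) h)^[r0] f0 p - 1|)
    rw [h2]
    rw [Av, hcard] at hm
    linarith
  have hmono : ∀ k : ℕ, thorpTV (2 ^ e) (r0 * d + k) ≤ 1 / 4 := by
    intro k
    induction k with
    | zero => exact htv
    | succ k ih => exact le_trans (thorpTV_mono _ _) ih
  have hT : ((r0 * d : ℕ) : ℝ) ≤ (C + 1) * (d : ℝ) ^ 2 := by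
    push_cast
    have : (r0 : ℝ) ≤ (C + 1) * d := by linarith
    calc (r0 : ℝ) * d ≤ ((C + 1) * d) * d := mul_le_mul_of_nonneg_right this (by linarith)
      _ = _ := by ring
  constructor
  · intro t ht
    have h3 : r0 * d ≤ t := by
      have : ((r0 * d : ℕ) : ℝ) ≤ (t : ℝ) := le_trans hT ht
      exact_mod_cast this
    obtain ⟨k, rfl⟩ := Nat.exists_eq_add_of_le h3
    exact hmono k
  · refine le_trans ?_ hT
    exact_mod_cast Nat.sInf_le htv

end Vale.Agent.P162
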