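import Vale.Agent.P162.Avg

/-!
# P162, module L: the groups `st` and `loc`
-/

namespace Vale.Agent.P162

open Finset

section L
variable {d : ℕ}

theorem app_inv {α : Type*} (h : Equiv.Perm α) (v : α) : h (h⁻¹ v) = v := by
  rw [← Equiv.Perm.mul_apply, mul_inv_cancel, Equiv.Perm.one_apply]

theorem fg_fg (J J' : Finset (Fin d)) (hs : J ⊆ J') (v : Pos d) : fg J' (fg J v) = fg J' v := by
  funext i
  unfold fg
  by_cases h : i ∈ J'
  · simp [h]
  · have : i ∉ J := fun hh => h (hs hh)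
    simp [h, this]

theorem mem_st {J : Finset (Fin d)} {h : Equiv.Perm (Pos d)} :
    h ∈ st J ↔ ∀ v, fg J (h v) = fg J v := by
  unfold st; simp

theorem mem_loc {Z : Finset (Fin d)} {A : Finset (Pos d)} {Y : Finset (Fin d)}
    {h : Equiv.Perm (Pos d)} :
    h ∈ loc Z A Y ↔ (∀ v, fg Z v ∉ A → h v = v) ∧ ∀ v, fg Y (h v) = fg Y v := by
  unfold loc; simp

theorem loc_fgZ {Z : Finset (Fin d)} {A : Finset (Pos d)} {Y : Finset (Fin d)} (hY : Y ⊆ Z)
    {h : Equiv.Perm (Pos d)} (hh : h ∈ loc Z A Y) (v : Pos d) : fg Z (h v) = fg Z v := by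
  rw [← fg_fg Y Z hY (h v), (mem_loc.1 hh).2 v, fg_fg Y Z hY v]

theorem st_grp (J : Finset (Fin d)) : Grp (st J) where
  one_mem := mem_st.2 fun v => rfl
  mul_mem g hg h hh := mem_st.2 fun v => by
    rw [Equiv.Perm.mul_apply, mem_st.1 hg, mem_st.1 hh]
  inv_mem h hh := mem_st.2 fun v => by
    rw [← mem_st.1 hh (h⁻¹ v), app_inv]

theorem st_mono (J J' : Finset (Fin d)) (hs : J ⊆ J') : st J ⊆ st J' := by
  intro h hh
  refine mem_st.2 fun v => ?_
  rw [← fg_fg J J' hs (h v), mem_st.1 hh v, fg_fg J J' hs v]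

theorem fg_empty (v : Pos d) : fg ∅ v = v := by
  funext i; simp [fg]

theorem fg_univ (v w : Pos d) : fg univ v = fg univ w := by
  funext i; simp [fg]

theorem st_empty : st (∅ : Finset (Fin d)) = {1} := by
  ext h
  rw [mem_st, Finset.mem_singleton]
  constructor
  · intro hh
    ext v : 1
    have := hh v
    rw [fg_empty, fg_empty] at this
    simpa using this
  · rintro rfl v; rfl

theorem st_univ : st (univ : Finset (Fin d)) = univ := by
  ext h
  rw [mem_st]
  simp only [Finset.mem_univ, iff_true]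
  intro v; exact fg_univ _ _

theorem loc_grp (Z : Finset (Fin d)) (A : Finset (Pos d)) (Y : Finset (Fin d)) (hY : Y ⊆ Z) :
    Grp (loc Z A Y) where
  one_mem := mem_loc.2 ⟨fun v _ => rfl, fun v => rfl⟩
  mul_mem g hg h hh := mem_loc.2 ⟨fun v hv => by
      rw [Equiv.Perm.mul_apply, (mem_loc.1 hh).1 v hv, (mem_loc.1 hg).1 v hv],
    fun v => by rw [Equiv.Perm.mul_apply, (mem_loc.1 hg).2, (mem_loc.1 hh).2]⟩
  inv_mem h hh := mem_loc.2 ⟨fun v hv => by
      rw [Equiv.Perm.inv_eq_iff_eq]; exact ((mem_loc.1 hh).1 v hv).symm,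
    fun v => by rw [← (mem_loc.1 hh).2 (h⁻¹ v), app_inv]⟩

theorem loc_empty (Z : Finset (Fin d)) (Y : Finset (Fin d)) : loc Z ∅ Y = {1} := by
  ext h
  rw [mem_loc, Finset.mem_singleton]
  constructor
  · rintro ⟨hh, -⟩
    ext v : 1
    simpa using hh v (Finset.notMem_empty _)
  · rintro rfl; exact ⟨fun v _ => rfl, fun v => rfl⟩

theorem loc_univ (Z : Finset (Fin d)) (Y : Finset (Fin d)) : loc Z univ Y = st Y := by
  ext h
  rw [mem_loc, mem_st]
  constructor
  · rintro ⟨-, hh⟩; exact hh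
  · intro hh; exact ⟨fun v hv => absurd (Finset.mem_univ _) hv, hh⟩

theorem loc_mono (Z : Finset (Fin d)) (A : Finset (Pos d)) (Y Y' : Finset (Fin d))
    (hs : Y ⊆ Y') : loc Z A Y ⊆ loc Z A Y' := by
  intro h hh
  obtain ⟨h1, h2⟩ := mem_loc.1 hh
  refine mem_loc.2 ⟨h1, fun v => ?_⟩
  rw [← fg_fg Y Y' hs (h v), h2 v, fg_fg Y Y' hs v]

theorem loc_comm (Z : Finset (Fin d)) (A : Finset (Pos d)) (a : Pos d) (ha : a ∉ A)
    (Y Y' : Finset (Fin d)) (hY : Y ⊆ Z) (hY' : Y' ⊆ Z) :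
    ∀ g ∈ loc Z {a} Y, ∀ h ∈ loc Z A Y', g * h = h * g := by
  intro g hg h hh
  ext v : 1
  rw [Equiv.Perm.mul_apply, Equiv.Perm.mul_apply]
  by_cases hv : fg Z v = a
  · have h1 : h v = v := (mem_loc.1 hh).1 v (by rw [hv]; exact ha)
    have h2 : h (g v) = g v := (mem_loc.1 hh).1 (g v) (by rw [loc_fgZ hY hg, hv]; exact ha)
    rw [h1, h2]
  · have h1 : g v = v := (mem_loc.1 hg).1 v (by rw [Finset.mem_singleton]; exact hv)
    have h2 : g (h v) = h v :=
      (mem_loc.1 hg).1 (h v) (by rw [loc_fgZ hY' hh, Finset.mem_singleton]; exact hv)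
    rw [h1, h2]

theorem loc_insert (Z : Finset (Fin d)) (A : Finset (Pos d)) (a : Pos d) (ha : a ∉ A)
    (Y : Finset (Fin d)) (hY : Y ⊆ Z) (f : Equiv.Perm (Pos d) → ℝ) :
    avg (loc Z (insert a A) Y) f = avg (loc Z {a} Y) (avg (loc Z A Y) f) := by
  apply avg_factor
  refine ⟨?_, ?_, ?_⟩
  · rintro ⟨g, h⟩ ⟨hg, hh⟩
    have hg' := mem_loc.1 (Finset.mem_coe.1 hg)
    have hh' := mem_loc.1 (Finset.mem_coe.1 hh)
    simp only at hg' hh'
    refine Finset.mem_coe.2 (mem_loc.2 ⟨fun v hv => ?_, fun v => ?_⟩)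
    · rw [Finset.mem_insert, not_or] at hv
      rw [Equiv.Perm.mul_apply, hg'.1 v (by rw [Finset.mem_singleton]; exact hv.1),
        hh'.1 v hv.2]
    · rw [Equiv.Perm.mul_apply, hh'.2, hg'.2]
  · rintro ⟨g, h⟩ ⟨hg, hh⟩ ⟨g', h'⟩ ⟨hg', hh'⟩ heq
    simp only [Finset.mem_coe] at hg hh hg' hh' heq
    have hgg : g = g' := by
      ext v : 1
      by_cases hv : fg Z v = a
      · have h1 : h (g v) = g v := (mem_loc.1 hh).1 (g v) (by rw [loc_fgZ hY hg, hv]; exact ha)
        have h2 : h' (g' v) = g' v :=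
          (mem_loc.1 hh').1 (g' v) (by rw [loc_fgZ hY hg', hv]; exact ha)
        have h3 := congrArg (fun k : Equiv.Perm (Pos d) => k v) heq
        simp only [Equiv.Perm.mul_apply] at h3
        rw [h1, h2] at h3
        exact h3
      · rw [(mem_loc.1 hg).1 v (by rw [Finset.mem_singleton]; exact hv),
          (mem_loc.1 hg').1 v (by rw [Finset.mem_singleton]; exact hv)]
    subst hgg
    have : h = h' := mul_right_cancel heq
    rw [this]
  · intro h hh
    have hh1 := Finset.mem_coe.1 hh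
    obtain ⟨hh2, hh3⟩ := mem_loc.1 hh1
    have hp : ∀ v, (fun v => fg Z v = a) (h v) ↔ (fun v => fg Z v = a) v := fun v => by
      simp only; rw [loc_fgZ hY hh1]
    set g : Equiv.Perm (Pos d) :=
      Equiv.Perm.ofSubtype (p := fun v => fg Z v = a) (h.subtypePerm hp) with hg
    have g1 : ∀ v, fg Z v = a → g v = h v := by
      intro v hv
      exact Equiv.Perm.ofSubtype_apply_of_mem (p := fun v => fg Z v = a) (h.subtypePerm hp) hv
    have g2 : ∀ v, fg Z v ≠ a → g v = v := by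
      intro v hv
      exact Equiv.Perm.ofSubtype_apply_of_not_mem (p := fun v => fg Z v = a)
        (h.subtypePerm hp) hv
    have gloc : g ∈ loc Z {a} Y := by
      refine mem_loc.2 ⟨fun v hv => g2 v (by rwa [Finset.mem_singleton] at hv), fun v => ?_⟩
      by_cases hv : fg Z v = a
      · rw [g1 v hv, hh3]
      · rw [g2 v hv]
    have ginv : g⁻¹ ∈ loc Z {a} Y := (loc_grp Z {a} Y hY).inv_mem _ gloc
    refine ⟨(g, h * g⁻¹), ⟨Finset.mem_coe.2 gloc, Finset.mem_coe.2 (mem_loc.2 ⟨?_, ?_⟩)⟩, ?_⟩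
    · intro v hv
      rw [Equiv.Perm.mul_apply]
      by_cases hva : fg Z v = a
      · have h1 : fg Z (g⁻¹ v) = a := by rw [loc_fgZ hY ginv, hva]
        rw [← g1 _ h1, app_inv]
      · have h1 : g⁻¹ v = v := by
          rw [Equiv.Perm.inv_eq_iff_eq]; exact (g2 v hva).symm
        rw [h1]
        exact hh2 v (by rw [Finset.mem_insert, not_or]; exact ⟨hva, hv⟩)
    · intro v
      rw [Equiv.Perm.mul_apply, hh3, (mem_loc.1 ginv).2]
    · simp

end L

end Vale.Agent.P162
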