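import Vale.Agent.P162.Defs

/-!
# P162 skeleton: exact statements of all modules (do not import in the final hand-in)
-/

namespace Vale.Agent.P162.Skel

open Finset Vale.Agent.P162

/-! ## Module A (Avg.lean): averaging operators on functions on permutations -/

section A
variable {V : Type} [Fintype V] [DecidableEq V]

theorem avg_nonneg (H : Finset (Equiv.Perm V)) (f : Equiv.Perm V → ℝ) (hf : ∀ p, 0 ≤ f p)
    (p : Equiv.Perm V) : 0 ≤ avg H f p := by sorry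

theorem avg_invariant (H : Finset (Equiv.Perm V)) (hH : Grp H) (f : Equiv.Perm V → ℝ)
    (h : Equiv.Perm V) (hh : h ∈ H) (p : Equiv.Perm V) : avg H f (h * p) = avg H f p := by sorry

theorem avg_of_invariant (H : Finset (Equiv.Perm V)) (hH : Grp H) (f : Equiv.Perm V → ℝ)
    (hf : ∀ h ∈ H, ∀ p, f (h * p) = f p) : avg H f = f := by sorry

theorem Av_avg (H : Finset (Equiv.Perm V)) (hH : Grp H) (f : Equiv.Perm V → ℝ) :
    Av (avg H f) = Av f := by sorry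

/-- self-adjointness -/
theorem Av_mul_avg (H : Finset (Equiv.Perm V)) (hH : Grp H) (f g : Equiv.Perm V → ℝ)
    (hg : ∀ h ∈ H, ∀ p, g (h * p) = g p) :
    Av (fun p => avg H f p * g p) = Av (fun p => f p * g p) := by sorry

theorem avg_avg_left (H H' : Finset (Equiv.Perm V)) (hH : Grp H) (hH' : Grp H') (hs : H ⊆ H')
    (f : Equiv.Perm V → ℝ) : avg H (avg H' f) = avg H' f := by sorry

theorem avg_avg_right (H H' : Finset (Equiv.Perm V)) (hH : Grp H) (hH' : Grp H') (hs : H ⊆ H')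
    (f : Equiv.Perm V → ℝ) : avg H' (avg H f) = avg H' f := by sorry

theorem En_avg_le (H : Finset (Equiv.Perm V)) (hH : Grp H) (f : Equiv.Perm V → ℝ)
    (hf : ∀ p, 0 ≤ f p) : En (avg H f) ≤ En f := by sorry

theorem avg_smul (H : Finset (Equiv.Perm V)) (c : ℝ) (f : Equiv.Perm V → ℝ) :
    avg H (fun p => c * f p) = fun p => c * avg H f p := by sorry

/-- elements of `H1` and `H2` commute: the entropy drop of `H1` does not increase under `H2` -/
theorem comm_convex (H1 H2 : Finset (Equiv.Perm V)) (h1 : Grp H1) (h2 : Grp H2)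
    (hc : ∀ g ∈ H1, ∀ h ∈ H2, g * h = h * g) (f : Equiv.Perm V → ℝ) (hf : ∀ p, 0 ≤ f p) :
    En (avg H2 f) - En (avg H1 (avg H2 f)) ≤ En f - En (avg H1 f) := by sorry

/-- unique factorisation `H = H1 H2` -/
theorem avg_factor (H H1 H2 : Finset (Equiv.Perm V))
    (hb : Set.BijOn (fun q : Equiv.Perm V × Equiv.Perm V => q.2 * q.1)
      ((H1 : Set (Equiv.Perm V)) ×ˢ (H2 : Set (Equiv.Perm V))) (H : Set (Equiv.Perm V)))
    (f : Equiv.Perm V → ℝ) : avg H f = avg H1 (avg H2 f) := by sorry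

end A

/-! ## Module L (Loc.lean): the groups `st` and `loc` -/

section L
variable {d : ℕ}

theorem fg_fg (J J' : Finset (Fin d)) (hs : J ⊆ J') (v : Pos d) : fg J' (fg J v) = fg J' v := by
  sorry

theorem st_grp (J : Finset (Fin d)) : Grp (st J) := by sorry

theorem st_mono (J J' : Finset (Fin d)) (hs : J ⊆ J') : st J ⊆ st J' := by sorry

theorem st_empty : st (∅ : Finset (Fin d)) = {1} := by sorry

theorem st_univ : st (univ : Finset (Fin d)) = univ := by sorry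

theorem loc_grp (Z : Finset (Fin d)) (A : Finset (Pos d)) (Y : Finset (Fin d)) (hY : Y ⊆ Z) :
    Grp (loc Z A Y) := by sorry

theorem loc_empty (Z : Finset (Fin d)) (Y : Finset (Fin d)) : loc Z ∅ Y = {1} := by sorry

theorem loc_univ (Z : Finset (Fin d)) (Y : Finset (Fin d)) : loc Z univ Y = st Y := by sorry

theorem loc_mono (Z : Finset (Fin d)) (A : Finset (Pos d)) (Y Y' : Finset (Fin d))
    (hs : Y ⊆ Y') : loc Z A Y ⊆ loc Z A Y' := by sorry

theorem loc_comm (Z : Finset (Fin d)) (A : Finset (Pos d)) (a : Pos d) (ha : a ∉ A)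
    (Y Y' : Finset (Fin d)) (hY : Y ⊆ Z) (hY' : Y' ⊆ Z) :
    ∀ g ∈ loc Z {a} Y, ∀ h ∈ loc Z A Y', g * h = h * g := by sorry

theorem loc_insert (Z : Finset (Fin d)) (A : Finset (Pos d)) (a : Pos d) (ha : a ∉ A)
    (Y : Finset (Fin d)) (hY : Y ⊆ Z) (f : Equiv.Perm (Pos d) → ℝ) :
    avg (loc Z (insert a A) Y) f = avg (loc Z {a} Y) (avg (loc Z A Y) f) := by sorry

end L

/-! ## Module T (Transf.lean): from the model face to one face of the cube -/

theorem face (w : ℝ) (m : ℕ)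
    (hsingle : ∀ (W : Type) [Fintype W] [DecidableEq W], Fintype.card W = 2 ^ m →
      ∀ f : Equiv.Perm (Bx W) → ℝ, (∀ p, 0 ≤ f p) → (∀ h ∈ P12 W, ∀ p, f (h * p) = f p) →
        (1 - w) * (En f - Av f * Real.log (Av f)) ≤
          (En f - En (avg (P1 W) f)) + (En f - En (avg (P2 W) f)))
    (d : ℕ) (J : Finset (Fin d)) (hJ : J.card = m) (e b : Fin d) (he : e ∉ J) (hb : b ∉ J)
    (heb : e ≠ b) (a : Pos d) (f : Equiv.Perm (Pos d) → ℝ) (hf : ∀ p, 0 ≤ f p)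
    (hinv : ∀ h ∈ loc (insert e (insert b J)) {a} J, ∀ p, f (h * p) = f p) :
    (1 - w) * (En f - En (avg (loc (insert e (insert b J)) {a} (insert e (insert b J))) f)) ≤
      (En f - En (avg (loc (insert e (insert b J)) {a} (insert b J)) f)) +
      (En f - En (avg (loc (insert e (insert b J)) {a} (insert e J)) f)) := by sorry

/-! ## Module U (Multi.lean): all faces: near supermodularity of `Dn` -/

theorem multi (w : ℝ) (hw : w < 1) (d : ℕ) (J : Finset (Fin d)) (e b : Fin d) (he : e ∉ J)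
    (hb : b ∉ J) (heb : e ≠ b)
    (hface : ∀ (a : Pos d) (f : Equiv.Perm (Pos d) → ℝ), (∀ p, 0 ≤ f p) →
      (∀ h ∈ loc (insert e (insert b J)) {a} J, ∀ p, f (h * p) = f p) →
      (1 - w) * (En f - En (avg (loc (insert e (insert b J)) {a} (insert e (insert b J))) f)) ≤
        (En f - En (avg (loc (insert e (insert b J)) {a} (insert b J)) f)) +
        (En f - En (avg (loc (insert e (insert b J)) {a} (insert e J)) f)))
    (f : Equiv.Perm (Pos d) → ℝ) (hf : ∀ p, 0 ≤ f p) :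
    (1 - w) * (Dn f J - Dn f (insert e (insert b J))) ≤
      (Dn f J - Dn f (insert b J)) + (Dn f J - Dn f (insert e J)) := by sorry

/-! ## Module R (Rec.lean): the recursion (abstract) -/

theorem recursion (w : ℕ → ℝ) (hw : ∀ m, 0 ≤ w m ∧ w m < 1)
    (hsum : Summable (fun m : ℕ => ((m : ℝ) + 1) * w m)) :
    ∃ x : ℝ, 0 < x ∧ ∀ (d : ℕ) (X : Type) (D : X → Finset (Fin d) → ℝ) (A : Fin d → X → X),
      (∀ f J J', J ⊆ J' → D f J' ≤ D f J) →
      (∀ f b J, b ∈ J → D (A b f) J = D f J) →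
      (∀ f b, D (A b f) {b} = D (A b f) ∅) →
      (∀ f J e b, e ∉ J → b ∉ J → e ≠ b →
        (1 - w J.card) * (D f J - D f (insert e (insert b J))) ≤
          (D f J - D f (insert b J)) + (D f J - D f (insert e J))) →
      ∀ (L : List (Fin d)), L.Nodup → ∀ f,
        D f ∅ - D f L.toFinset ≤ x * (D f ∅ - D (L.foldl (fun g b => A b g) f) ∅) := by sorry

/-! ## Module S (Small.lean): the model face, small sizes -/

theorem small (K : ℕ) : ∃ w : ℝ, 0 ≤ w ∧ w < 1 ∧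
    ∀ (W : Type) [Fintype W] [DecidableEq W], Fintype.card W = K →
      ∀ f : Equiv.Perm (Bx W) → ℝ, (∀ p, 0 ≤ f p) →
        (1 - w) * (En f - Av f * Real.log (Av f)) ≤
          (En f - En (avg (P1 W) f)) + (En f - En (avg (P2 W) f)) := by sorry

/-! ## Module B (Bonami.lean) -/

section B
variable {ι : Type} [Fintype ι] [DecidableEq ι]

theorem bonami (v : ℝ) (hv0 : 0 ≤ v) (hv1 : v ≤ 1) (a : (ι → Bool) → ℝ) :
    ∑ S : Finset ι, v ^ S.card * hat a S ^ 2 ≤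
      ((∑ s, |a s| ^ (1 + v)) / 2 ^ Fintype.card ι) ^ (2 / (1 + v)) := by sorry

end B

/-! ## Module E (Expand.lean): Walsh expansion of the kernel, Parseval -/

section E
variable {ι : Type} [Fintype ι] [DecidableEq ι]

theorem parseval (a : (ι → Bool) → ℝ) :
    ∑ S : Finset ι, hat a S ^ 2 = (∑ s, a s ^ 2) / 2 ^ Fintype.card ι := by sorry

theorem expand (φ : ℝ) (a b : (ι → Bool) → ℝ) :
    |∑ s, ∑ t, a s * b t * Real.cos (φ * (ip s t : ℝ))| ≤
      4 ^ Fintype.card ι * ∑ S : Finset ι,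
        |Real.cos φ| ^ (Fintype.card ι - S.card) * |Real.sin φ| ^ S.card *
          (|hat a S| * |hat b S|) := by sorry

end E

/-! ## Module I (Inv.lean): inversion -/

section I
variable {ι : Type} [Fintype ι] [DecidableEq ι]

theorem inversion (m : ℤ) (hm : (4 : ℤ) ∣ m) :
    (2 / Real.pi) * ∫ φ in (-(Real.pi / 4))..(Real.pi / 4), Real.cos (φ * (m : ℝ)) =
      if m = 0 then 1 else 0 := by sorry

theorem ip_dvd (K : ℕ) (hι : Fintype.card ι = 4 * K) (s t : ι → Bool) (hs : tot s = 0)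
    (ht : tot t = 0) : (4 : ℤ) ∣ ip s t := by sorry

theorem form_integral (K : ℕ) (hι : Fintype.card ι = 4 * K) (a b : (ι → Bool) → ℝ) :
    ∑ q ∈ Om2 ι, a q.1 * b q.2 =
      (2 / Real.pi) * ∫ φ in (-(Real.pi / 4))..(Real.pi / 4), form φ a b := by sorry

theorem int_cos_sin (K : ℕ) (hK : 1 ≤ K) :
    ∫ φ in (-(Real.pi / 4))..(Real.pi / 4), Real.cos φ ^ (4 * K - 1) * |Real.sin φ| ≤
      1 / (2 * K) := by sorry

end I

/-! ## Module C (Count.lean): counting balanced colourings -/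

section C
variable {ι : Type} [Fintype ι] [DecidableEq ι]

theorem card_Om (K : ℕ) (hι : Fintype.card ι = 4 * K) :
    (Om ι).card = (4 * K).choose (2 * K) := by sorry

theorem card_fib (K : ℕ) (hι : Fintype.card ι = 4 * K) (s : ι → Bool) (hs : tot s = 0) :
    (univ.filter (fun t : ι → Bool => tot t = 0 ∧ ip s t = 0)).card =
      ((2 * K).choose K) ^ 2 := by sorry

theorem ip_comm (s t : ι → Bool) : ip s t = ip t s := by sorry

theorem card_Om2 (K : ℕ) (hι : Fintype.card ι = 4 * K) :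
    (Om2 ι).card = (4 * K).choose (2 * K) * ((2 * K).choose K) ^ 2 := by sorry

/-- regularity: summing a function of one coordinate -/
theorem sum_Om2_fst (K : ℕ) (hι : Fintype.card ι = 4 * K) (a : (ι → Bool) → ℝ) :
    ∑ q ∈ Om2 ι, a q.1 = (((2 * K).choose K : ℕ) : ℝ) ^ 2 * ∑ s ∈ Om ι, a s := by sorry

theorem sum_Om2_snd (K : ℕ) (hι : Fintype.card ι = 4 * K) (a : (ι → Bool) → ℝ) :
    ∑ q ∈ Om2 ι, a q.2 = (((2 * K).choose K : ℕ) : ℝ) ^ 2 * ∑ s ∈ Om ι, a s := by sorry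

theorem bound1 (K : ℕ) (hK : 1 ≤ K) (hι : Fintype.card ι = 4 * K) :
    ((Om ι).card : ℝ) ^ 2 ≤ 2 * Real.sqrt K * (Om2 ι).card := by sorry

theorem bound2 (K : ℕ) (hK : 1 ≤ K) (hι : Fintype.card ι = 4 * K) :
    (2 : ℝ) ^ (4 * K) ≤ 3 * Real.sqrt K * (Om ι).card := by sorry

end C

/-! ## Module F (Fourier.lean): the Fourier estimate -/

section F
variable {ι : Type} [Fintype ι] [DecidableEq ι]

theorem main_bd (K : ℕ) (hK : 1 ≤ K) (hι : Fintype.card ι = 4 * K) (v φ : ℝ) (hv0 : 0 < v)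
    (hv1 : v ≤ 1) (hφ : |φ| ≤ Real.pi / 4) (ht : |Real.sin φ| ≤ v * Real.cos φ)
    (a b : (ι → Bool) → ℝ) (ha : ∑ s ∈ Om ι, a s = 0) (hb : ∑ s ∈ Om ι, b s = 0) :
    |form φ a b| ≤ ((Om ι).card : ℝ) ^ 2 * (9 * K : ℝ) ^ v *
      (Real.cos φ ^ (4 * K - 1) * |Real.sin φ| / v) * (nm v a * nm v b) := by sorry

theorem tail_bd (K : ℕ) (hK : 1 ≤ K) (hι : Fintype.card ι = 4 * K) (v φ : ℝ) (hv0 : 0 < v)
    (hv1 : v ≤ 1) (hφ : |φ| ≤ Real.pi / 4) (ht : v * Real.cos φ ≤ |Real.sin φ|)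
    (a b : (ι → Bool) → ℝ) :
    |form φ a b| ≤ ((Om ι).card : ℝ) ^ 2 *
      ((2 + 3 * Real.sqrt K) * Real.exp (-(K * v ^ 3 / 2))) * (nm v a * nm v b) := by sorry

theorem fourier_v (K : ℕ) (hK : 1 ≤ K) (hι : Fintype.card ι = 4 * K) (v : ℝ) (hv0 : 0 < v)
    (hv1 : v ≤ 1) (a b : (ι → Bool) → ℝ) (ha : ∑ s ∈ Om ι, a s = 0)
    (hb : ∑ s ∈ Om ι, b s = 0) :
    |∑ q ∈ Om2 ι, a q.1 * b q.2| ≤ (Om2 ι).card * (2 * Real.sqrt K *
      ((9 * K : ℝ) ^ v / (Real.pi * K * v) +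
        (2 + 3 * Real.sqrt K) * Real.exp (-(K * v ^ 3 / 2)))) * (nm v a * nm v b) := by sorry

theorem eps_bound : ∃ C : ℝ, 0 < C ∧ ∀ K : ℕ, 1 ≤ K →
    2 * Real.sqrt K * ((9 * K : ℝ) ^ ((K : ℝ) ^ (-(1 / 4) : ℝ)) /
        (Real.pi * K * (K : ℝ) ^ (-(1 / 4) : ℝ)) +
      (2 + 3 * Real.sqrt K) * Real.exp (-(K * ((K : ℝ) ^ (-(1 / 4) : ℝ)) ^ 3 / 2))) ≤
      C * (K : ℝ) ^ (-(1 / 4) : ℝ) := by sorry

theorem fourier : ∃ C : ℝ, 0 < C ∧ ∀ K : ℕ, 1 ≤ K → ∀ (ι : Type) [Fintype ι] [DecidableEq ι],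
    Fintype.card ι = 4 * K → ∀ a b : (ι → Bool) → ℝ, ∑ s ∈ Om ι, a s = 0 →
    ∑ s ∈ Om ι, b s = 0 →
    |∑ q ∈ Om2 ι, a q.1 * b q.2| ≤ (Om2 ι).card * (C * (K : ℝ) ^ (-(1 / 4) : ℝ)) *
      (nm ((K : ℝ) ^ (-(1 / 4) : ℝ)) a * nm ((K : ℝ) ^ (-(1 / 4) : ℝ)) b) := by sorry

end F

/-! ## Module H (Hfun.lean): the convexity defect -/

theorem hf_nonneg (η x : ℝ) (h0 : 0 < η) (h1 : η ≤ 1 / 2) (hx : 0 ≤ x) : 0 ≤ hf η x := by sorry

theorem hf_small (η x : ℝ) (h0 : 0 < η) (h1 : η ≤ 1 / 2) (hx : 0 ≤ x) (hx' : x ≤ 64) :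
    (x ^ (1 - η) - 1) ^ 2 ≤ 16384 / η * hf η x := by sorry

theorem hf_large (η x : ℝ) (h0 : 0 < η) (h1 : η ≤ 1 / 2) (hx : 64 ≤ x) :
    x ≤ 4 / η * hf η x := by sorry

section H
variable {ι : Type} [Fintype ι] [DecidableEq ι]

/-- `F` is a density on the slice -/
theorem nm_bd (hne : 0 < (Om ι).card) (v η : ℝ) (hv : 0 ≤ v) (hvη : v ≤ η) (h1 : η ≤ 1 / 2)
    (h0 : 0 < η) (F : (ι → Bool) → ℝ) (hF : ∀ s, 0 ≤ F s) (hF1 : ∑ s ∈ Om ι, F s = (Om ι).card)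
    (α : ℝ) (hα : α = (∑ s ∈ Om ι, F s ^ (1 - η)) / (Om ι).card) :
    0 ≤ α ∧ α ≤ 1 ∧ nm v (fun s => F s ^ (1 - η) - α) ^ 2 ≤ 200000 / η * (1 - α) := by sorry

end H

/-! ## Module Z (Zle.lean) -/

theorem zle : ∃ C : ℝ, 0 < C ∧ ∀ K : ℕ, 1 ≤ K → ∀ η : ℝ, C * (K : ℝ) ^ (-(1 / 4) : ℝ) ≤ η →
    η ≤ 1 / 2 → ∀ (ι : Type) [Fintype ι] [DecidableEq ι], Fintype.card ι = 4 * K →
    ∀ F G : (ι → Bool) → ℝ, (∀ s, 0 ≤ F s) → (∀ s, 0 ≤ G s) →
    ∑ s ∈ Om ι, F s = (Om ι).card → ∑ s ∈ Om ι, G s = (Om ι).card →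
    ∑ q ∈ Om2 ι, F q.1 ^ (1 - η) * G q.2 ^ (1 - η) ≤ (Om2 ι).card := by sorry

/-! ## Module Y (Color.lean): permutations of the model face and colourings -/

section Y
variable (W : Type) [Fintype W] [DecidableEq W]

theorem P1_grp : Grp (P1 W) := by sorry
theorem P2_grp : Grp (P2 W) := by sorry
theorem P12_grp : Grp (P12 W) := by sorry

theorem cs_mem (g : Equiv.Perm (Bx W)) : cs g ∈ Om (Bx W) := by sorry
theorem ct_mem (g : Equiv.Perm (Bx W)) : ct g ∈ Om (Bx W) := by sorry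
theorem cst_mem (g : Equiv.Perm (Bx W)) : (cs g, ct g) ∈ Om2 (Bx W) := by sorry

/-- a function invariant under `P1` is a function of the first colouring -/
theorem factor1 (f : Equiv.Perm (Bx W) → ℝ) (hf : ∀ h ∈ P1 W, ∀ p, f (h * p) = f p) :
    ∃ F : (Bx W → Bool) → ℝ, ∀ g, f g = F (cs g) := by sorry

theorem factor2 (f : Equiv.Perm (Bx W) → ℝ) (hf : ∀ h ∈ P2 W, ∀ p, f (h * p) = f p) :
    ∃ F : (Bx W → Bool) → ℝ, ∀ g, f g = F (ct g) := by sorry

theorem Av_cs (F : (Bx W → Bool) → ℝ) :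
    Av (fun g : Equiv.Perm (Bx W) => F (cs g)) = (∑ s ∈ Om (Bx W), F s) / (Om (Bx W)).card := by
  sorry

theorem Av_ct (F : (Bx W → Bool) → ℝ) :
    Av (fun g : Equiv.Perm (Bx W) => F (ct g)) = (∑ s ∈ Om (Bx W), F s) / (Om (Bx W)).card := by
  sorry

theorem Av_cst (F : (Bx W → Bool) × (Bx W → Bool) → ℝ) :
    Av (fun g : Equiv.Perm (Bx W) => F (cs g, ct g)) =
      (∑ q ∈ Om2 (Bx W), F q) / (Om2 (Bx W)).card := by sorry

end Y

/-! ## Module G (Gibbs.lean): large faces -/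

theorem large : ∃ C : ℝ, 0 < C ∧ ∀ K : ℕ, 1 ≤ K → ∀ η : ℝ, C * (K : ℝ) ^ (-(1 / 4) : ℝ) ≤ η →
    η ≤ 1 / 2 → ∀ (W : Type) [Fintype W] [DecidableEq W], Fintype.card W = K →
      ∀ f : Equiv.Perm (Bx W) → ℝ, (∀ p, 0 ≤ f p) →
        (1 - 2 * η) * (En f - Av f * Real.log (Av f)) ≤
          (En f - En (avg (P1 W) f)) + (En f - En (avg (P2 W) f)) := by sorry

/-! ## Module W (Weights.lean): choice of the weights -/

theorem weights : ∃ w : ℕ → ℝ, (∀ m, 0 ≤ w m ∧ w m < 1) ∧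
    Summable (fun m : ℕ => ((m : ℝ) + 1) * w m) ∧
    ∀ (m : ℕ) (W : Type) [Fintype W] [DecidableEq W], Fintype.card W = 2 ^ m →
      ∀ f : Equiv.Perm (Bx W) → ℝ, (∀ p, 0 ≤ f p) → (∀ h ∈ P12 W, ∀ p, f (h * p) = f p) →
        (1 - w m) * (En f - Av f * Real.log (Av f)) ≤
          (En f - En (avg (P1 W) f)) + (En f - En (avg (P2 W) f)) := by sorry

/-! ## Module K (Contract.lean): constant-factor contraction of one descending pass -/

theorem contract : ∃ c : ℝ, 0 < c ∧ c < 1 ∧ ∀ (d : ℕ) (L : List (Fin d)), L.Nodup →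
    L.toFinset = univ → ∀ f : Equiv.Perm (Pos d) → ℝ, (∀ p, 0 ≤ f p) → Av f = 1 →
      En (L.foldl (fun g b => avg (st {b}) g) f) ≤ (1 - c) * En f := by sorry

/-! ## Module M (Mix.lean): many passes, total variation -/

theorem mix : ∃ C : ℝ, 0 < C ∧ ∀ (d : ℕ) (L : List (Fin d)), 1 ≤ d → L.Nodup →
    L.toFinset = univ → ∀ f : Equiv.Perm (Pos d) → ℝ, (∀ p, 0 ≤ f p) → Av f = 1 →
      ∀ r : ℕ, C * d ≤ r →
        Av (fun p => |(fun g => L.foldl (fun g b => avg (st {b}) g) g)^[r] f p - 1|) ≤ 1 / 2 := by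
  sorry

/-! ## Module X (Thorp.lean): the Thorp shuffle is the descending pass -/

/-- the law of `e + 1` Thorp shuffles of `2^(e+1)` cards, read on bit vectors, is one pass -/
theorem thorp_pass (e : ℕ) :
    ∃ (E : Fin (2 * 2 ^ e) ≃ Pos (e + 1)) (L : List (Fin (e + 1))), L.Nodup ∧
      L.toFinset = univ ∧ ∀ (r : ℕ) (g : Equiv.Perm (Fin (2 * 2 ^ e))),
        ((2 * 2 ^ e).factorial : ℝ) * thorpPow (2 ^ e) (r * (e + 1)) g =
          ((fun h => L.foldl (fun h b => avg (st {b}) h) h)^[r]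
            (fun p : Equiv.Perm (Pos (e + 1)) => if p = 1 then ((2 * 2 ^ e).factorial : ℝ) else 0))
            (E.permCongr g) := by sorry

/-- total variation distance does not increase -/
theorem thorpTV_mono (m t : ℕ) : thorpTV m (t + 1) ≤ thorpTV m t := by sorry

theorem result : ∃ C : ℝ, 0 < C ∧ ∀ e : ℕ,
    (∀ t : ℕ, C * ((e : ℝ) + 1) ^ 2 ≤ t → thorpTV (2 ^ e) t ≤ 1 / 4) ∧
      (thorpMix (2 ^ e) : ℝ) ≤ C * ((e : ℝ) + 1) ^ 2 := by sorry

end Vale.Agent.P162.Skel
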